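import Vale.Agent.P082.PartM

/-! Working definitions for the linear lifting of near inclusions (P096). -/

namespace Vale.Agent.P096

open scoped InnerProductSpace ComplexOrder
open Vale.Agent.P104 Vale.Agent.P082 Filter Topology

section
variable {H : Type*} [NormedAddCommGroup H] [InnerProductSpace ℂ H] [CompleteSpace H]

/-- Near inclusion of `vN S` in `vN S'`. -/
def NearIn (S S' : Set (H →L[ℂ] H)) (γ : ℝ) : Prop :=
  ∀ x ∈ vN S, ∃ y ∈ vN S', ‖x - y‖ ≤ γ * ‖x‖

/-- `q` is not equivalent to a proper subprojection. -/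
def FinP (S : Set (H →L[ℂ] H)) (q : H →L[ℂ] H) : Prop :=
  ∀ v ∈ vN S, star v * v = q → q * v = v → v * star v = q

/-- Semifinite: every nonzero central projection dominates a nonzero finite projection. -/
def SF (S : Set (H →L[ℂ] H)) : Prop :=
  ∀ c, IsCentral S c → c ≠ 0 →
    ∃ q ∈ vN S, IsStarProjection q ∧ q ≠ 0 ∧ q * c = q ∧ FinP S q

/-- The corner of `p` carries a faithful approximate trace given by finitely many vectors. -/
def GoodP (S : Set (H →L[ℂ] H)) (p : H →L[ℂ] H) : Prop :=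
  p ∈ vN S ∧ IsStarProjection p ∧ ∃ (ι : Type) (_ : Fintype ι) (α β : ι → H),
    ∀ y ∈ vN S, y * p = y → p * y = y →
      ∑ i, ‖y (α i)‖ ^ 2 ≤ 2 * ∑ i, ‖star y (β i)‖ ^ 2 ∧
      ∑ i, ‖y (β i)‖ ^ 2 ≤ 2 * ∑ i, ‖star y (α i)‖ ^ 2 ∧ ((∀ i, y (α i) = 0) → y = 0)

end

/-- A mean that only sees the behaviour along a filter. -/
theorem exists_mean_filter {Γ : Type*} (F : Filter Γ) [F.NeBot] :
    ∃ m : Mean Γ, ∀ f, Bd f → ∀ C : ℝ, (∀ᶠ g in F, ‖f g‖ ≤ C) → ‖m.I f‖ ≤ C := by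
  haveI : Nonempty Γ := F.nonempty_of_neBot
  haveI := compactSpace_mean (Γ := Γ)
  obtain ⟨m, hm⟩ := exists_clusterPt_of_compactSpace (F.map Mean.dirac)
  refine ⟨m, fun f hf C h => ?_⟩
  have hc : IsClosed {m : Mean Γ | ‖m.I f‖ ≤ C} :=
    isClosed_le (Mean.continuous_I f).norm continuous_const
  refine hc.closure_subset (mem_closure_iff_clusterPt.2 (hm.mono ?_))
  rw [le_principal_iff, mem_map]
  filter_upwards [h] with g hg
  simpa [Mean.dirac_I g hf] using hg

end Vale.Agent.P096
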