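import Mathlib

/-! The notions used in the statements for P096. -/

namespace Vale.Agent.P096

section
variable {B : Type*} [CStarAlgebra B]

/-- The closed unit ball of `M` in norm. -/
def unitBall (M : Set B) : Set B := {x | x ∈ M ∧ ‖x‖ ≤ 1}

/-- The Kadison-Kastler distance. -/
noncomputable def kkDist (M N : Set B) : ℝ := Metric.hausdorffDist (unitBall M) (unitBall N)

/-- `u M u* = N` for a unitary `u` with `‖u - 1‖ < ε`. -/
def NearConj (M N : Set B) (ε : ℝ) : Prop :=
  ∃ u ∈ unitary B, ‖u - 1‖ < ε ∧ (fun x => u * x * star u) '' M = N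

/-- `N` is the range of a projection of norm at most `K` on a subspace containing `M` and `N`. -/
def Complemented (M N : Set B) (K : ℝ) : Prop :=
  ∃ P : Submodule ℂ B, M ⊆ P ∧ N ⊆ P ∧ ∃ E : P →ₗ[ℂ] B,
    ∀ x : P, ‖E x‖ ≤ K * ‖x‖ ∧ E x ∈ N ∧ (x.1 ∈ N → E x = x.1)

end

/-- The set of operators of a von Neumann algebra. -/
def ops {H : Type*} [NormedAddCommGroup H] [InnerProductSpace ℂ H] [CompleteSpace H]
    (M : VonNeumannAlgebra H) : Set (H →L[ℂ] H) := M

end Vale.Agent.P096
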