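import Vale.Agent.P096.PartN
import Vale.Agent.P096.KK

/-! Translation to von Neumann algebras and the Hausdorff distance. -/

namespace Vale.Agent.P096

open Vale.Agent.P104

variable {H : Type*} [NormedAddCommGroup H] [InnerProductSpace ℂ H] [CompleteSpace H]

theorem mem_iff (M : VonNeumannAlgebra H) (x : H →L[ℂ] H) :
    x ∈ M ↔ x ∈ vN (Set.centralizer (M : Set (H →L[ℂ] H))) := by
  have := eq_vN M.toStarSubalgebra M.centralizer_centralizer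
  exact SetLike.ext_iff.1 this x

theorem near_of_dist {M N : VonNeumannAlgebra H} {δ : ℝ} (h : kkDist (ops M) (ops N) < δ) :
    ∀ x ∈ M, ∃ y ∈ N, ‖x - y‖ ≤ δ * ‖x‖ := by
  intro x hx
  by_cases h0 : x = 0
  · exact ⟨0, zero_mem _, by simp [h0]⟩
  have hn : 0 < ‖x‖ := norm_pos_iff.2 h0
  have bd : ∀ M : VonNeumannAlgebra H, Bornology.IsBounded (unitBall (ops M)) := fun M =>
    (Metric.isBounded_closedBall (x := 0) (r := 1)).subset fun x hx => by simpa using hx.2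
  have fin : Metric.hausdorffEDist (unitBall (ops M)) (unitBall (ops N)) ≠ ⊤ :=
    Metric.hausdorffEDist_ne_top_of_nonempty_of_bounded ⟨0, zero_mem M, by simp⟩
      ⟨0, zero_mem N, by simp⟩ (bd M) (bd N)
  have hc : ((‖x‖ : ℂ))⁻¹ • x ∈ unitBall (ops M) :=
    ⟨M.toStarSubalgebra.smul_mem hx _, by simp [norm_smul, hn.ne']⟩
  obtain ⟨y, hy, hd⟩ := Metric.exists_dist_lt_of_hausdorffDist_lt hc h fin
  refine ⟨(‖x‖ : ℂ) • y, N.toStarSubalgebra.smul_mem hy.1 _, ?_⟩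
  have e : x - (‖x‖ : ℂ) • y = (‖x‖ : ℂ) • (((‖x‖ : ℂ))⁻¹ • x - y) := by
    rw [smul_sub, smul_smul, mul_inv_cancel₀ (by exact_mod_cast hn.ne'), one_smul]
  rw [e, norm_smul, Complex.norm_real, norm_norm, mul_comm, ← dist_eq_norm]
  exact mul_le_mul_of_nonneg_right hd.le hn.le

theorem kkDist_comm (M N : Set (H →L[ℂ] H)) : kkDist M N = kkDist N M :=
  Metric.hausdorffDist_comm

theorem nearConj_of {M N : VonNeumannAlgebra H} {u : H →L[ℂ] H} (hu : u ∈ unitary (H →L[ℂ] H))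
    {ε : ℝ} (h0 : ‖u - 1‖ < ε) (h1 : ∀ x ∈ M, u * x * star u ∈ N)
    (h2 : ∀ y ∈ N, star u * y * u ∈ M) : NearConj (ops M) (ops N) ε := by
  refine ⟨u, hu, h0, Set.Subset.antisymm ?_ fun y hy => ⟨_, h2 y hy, ?_⟩⟩
  · rintro _ ⟨x, hx, rfl⟩
    exact h1 x hx
  · simp only [← mul_assoc, hu.2, one_mul]
    rw [mul_assoc, hu.2, mul_one]

theorem conj_vn {M N : VonNeumannAlgebra H} {η : ℝ} (h0 : 0 ≤ η) (hη : η ≤ 1 / 10 ^ 8)
    (T : M.toStarSubalgebra →ₗ[ℂ] (H →L[ℂ] H)) (hT : ∀ x, T x ∈ N)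
    (h1 : ∀ x, ‖T x - x‖ ≤ η * ‖x‖) (h2 : ∀ y ∈ N, ∃ x ∈ M, ‖y - x‖ ≤ η * ‖y‖) :
    ∃ u ∈ unitary (H →L[ℂ] H), ‖u - 1‖ ≤ 10 ^ 7 * η ∧ (∀ x ∈ M, u * x * star u ∈ N) ∧
      ∀ y ∈ N, star u * y * u ∈ M := by
  simp only [mem_iff M, mem_iff N] at hT h2 ⊢
  have e : M.toStarSubalgebra = vN (Set.centralizer (M : Set (H →L[ℂ] H))) :=
    eq_vN M.toStarSubalgebra M.centralizer_centralizer
  generalize M.toStarSubalgebra = A at T hT h1 e
  subst e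
  exact conj_of_lift h0 hη T hT h1 h2

theorem near_commutant {M N : VonNeumannAlgebra H} {γ : ℝ} (h0 : 0 ≤ γ)
    (h : ∀ x ∈ M, ∃ y ∈ N, ‖x - y‖ ≤ γ * ‖x‖) :
    ∀ y ∈ N.commutant, ∃ x ∈ M.commutant, ‖y - x‖ ≤ 24000 * γ * ‖y‖ := by
  intro y hy
  simp only [mem_iff M, mem_iff N] at h
  obtain ⟨t, ht, h1⟩ := commutant_near h0 h y (mem_vN.2 fun g hg => by
    have hg' := (mem_iff N g).2 hg
    exact ⟨VonNeumannAlgebra.mem_commutant_iff.1 hy g hg',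
      VonNeumannAlgebra.mem_commutant_iff.1 hy _ (star_mem hg')⟩)
  exact ⟨t, VonNeumannAlgebra.mem_commutant_iff.2 fun g hg =>
    (mem_vN.1 ht g ((mem_iff M g).1 hg)).1, h1⟩

theorem conj_commutant {M N : VonNeumannAlgebra H} {u : H →L[ℂ] H}
    (hu : u ∈ unitary (H →L[ℂ] H)) (h : ∀ y ∈ N.commutant, star u * y * u ∈ M.commutant) :
    ∀ x ∈ M, u * x * star u ∈ N := by
  intro x hx
  rw [← N.commutant_commutant, VonNeumannAlgebra.mem_commutant_iff]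
  intro y hy
  have h1 := VonNeumannAlgebra.mem_commutant_iff.1 (h y hy) x hx
  calc y * (u * x * star u) = u * star u * y * u * x * star u := by
        rw [hu.2]; simp only [one_mul, mul_assoc]
    _ = u * (star u * y * u * x) * star u := by simp only [mul_assoc]
    _ = u * x * star u * y * (u * star u) := by rw [← h1]; simp only [mul_assoc]
    _ = _ := by rw [hu.2, mul_one]

theorem nearConj_of_commutant {M N : VonNeumannAlgebra H} {u : H →L[ℂ] H}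
    (hu : u ∈ unitary (H →L[ℂ] H)) {ε : ℝ} (h0 : ‖u - 1‖ < ε)
    (h1 : ∀ x ∈ M.commutant, u * x * star u ∈ N.commutant)
    (h2 : ∀ y ∈ N.commutant, star u * y * u ∈ M.commutant) : NearConj (ops M) (ops N) ε := by
  refine nearConj_of hu h0 (conj_commutant hu h2) fun y hy => ?_
  have := conj_commutant (u := star u) (Unitary.star_mem hu)
    (by simpa only [star_star] using h1) y hy
  rwa [star_star] at this

theorem conj_compl {M N : VonNeumannAlgebra H} {η K : ℝ} (h0 : 0 ≤ η) (h1 : η ≤ 1 / 10 ^ 8)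
    (a1 : ∀ x ∈ M, ∃ y ∈ N, ‖x - y‖ ≤ η / (|K| + 1) * ‖x‖)
    (a2 : ∀ y ∈ N, ∃ x ∈ M, ‖y - x‖ ≤ η / (|K| + 1) * ‖y‖) (h : Complemented (ops M) (ops N) K) :
    ∃ u ∈ unitary (H →L[ℂ] H), ‖u - 1‖ ≤ 10 ^ 7 * η ∧ (∀ x ∈ M, u * x * star u ∈ N) ∧
      ∀ y ∈ N, star u * y * u ∈ M := by
  obtain ⟨P, a3', a4', E, hE⟩ := h
  have a3 : ∀ x ∈ M, x ∈ P := a3'
  have a4 : ∀ x ∈ N, x ∈ P := a4'
  have hK : 0 < |K| + 1 := by positivity
  have le : η / (|K| + 1) ≤ η := div_le_self h0 (by linarith [abs_nonneg K])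
  refine conj_vn h0 h1 (E.comp (Submodule.inclusion
    (p := M.toStarSubalgebra.toSubalgebra.toSubmodule) fun x hx => a3 x hx))
    (fun x => (hE _).2.1) (fun x => ?_) fun y hy => ?_
  · obtain ⟨y, hy, h⟩ := a1 x x.2
    have b1 := (hE (⟨x, a3 x x.2⟩ - ⟨y, a4 y hy⟩)).1
    rw [map_sub, (hE ⟨y, a4 y hy⟩).2.2 hy] at b1
    change ‖E ⟨x, a3 x x.2⟩ - y‖ ≤ K * ‖(x : H →L[ℂ] H) - y‖ at b1
    change ‖E ⟨x, a3 x x.2⟩ - x‖ ≤ η * ‖(x : H →L[ℂ] H)‖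
    have b2 := norm_sub_le_norm_sub_add_norm_sub (E ⟨x, a3 x x.2⟩) y x
    have b3 := mul_le_mul_of_nonneg_right (le_abs_self K) (norm_nonneg ((x : H →L[ℂ] H) - y))
    have b4 := mul_le_mul_of_nonneg_left h hK.le
    rw [← mul_assoc, mul_div_cancel₀ _ hK.ne'] at b4
    rw [norm_sub_rev y] at b2
    linarith
  · obtain ⟨x, hx, h⟩ := a2 y hy
    exact ⟨x, hx, h.trans (by gcongr)⟩

end Vale.Agent.P096
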