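import Vale.Agent.P096.KK

/-! Finite projections and semifinite algebras. -/

namespace Vale.Agent.P096

variable {B : Type*} [CStarAlgebra B]

/-- `q` is a projection of `M` that is not equivalent in `M` to a proper subprojection. -/
def IsFiniteProj (M : Set B) (q : B) : Prop :=
  q ∈ M ∧ IsStarProjection q ∧ ∀ v ∈ M, star v * v = q → q * v = v → v * star v = q

/-- Every nonzero central projection of `M` dominates a nonzero finite projection of `M`. -/
def Semifinite (M : Set B) : Prop :=
  ∀ c ∈ M, IsStarProjection c → (∀ x ∈ M, c * x = x * c) → c ≠ 0 →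
    ∃ q, IsFiniteProj M q ∧ q ≠ 0 ∧ q * c = q

end Vale.Agent.P096
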