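import Vale.Agent.P096.LB1

/-! From selections to linear maps, and weak limits of liftings. -/

namespace Vale.Agent.P096

open scoped InnerProductSpace ComplexOrder
open Vale.Agent.P104 Vale.Agent.P082 Finset Filter LB

variable {H : Type*} [NormedAddCommGroup H] [InnerProductSpace ℂ H] [CompleteSpace H]
variable {S S' : Set (H →L[ℂ] H)}

theorem lin_of_sel {p : H →L[ℂ] H} {κ : ℝ} (s : unitary (vN S) → H →L[ℂ] H)
    (h1 : ∀ U, s U ∈ vN S') (h2 : ∀ U, ‖s U - ((U : vN S) : H →L[ℂ] H) * p‖ ≤ κ)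
    (h3 : ∀ c : unitary (vN S) →₀ ℂ, (c.sum fun U a => a • ((U : vN S) : H →L[ℂ] H)) = 0 →
        (c.sum fun U a => a • s U) = 0) :
    ∃ T : vN S →ₗ[ℂ] (H →L[ℂ] H), (∀ x, T x ∈ vN S') ∧
      ∀ x, ‖T x - (x : H →L[ℂ] H) * p‖ ≤ 2 * κ * ‖x‖ := by
  let f := Finsupp.linearCombination ℂ fun U : unitary (vN S) => (U : vN S)
  let l := Finsupp.linearCombination ℂ s
  have hf : ∀ (u : Fin 4 → unitary (vN S)) (c : Fin 4 → ℂ),
      f (∑ i, Finsupp.single (u i) (c i)) = ∑ i, c i • (u i : vN S) := fun u c => by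
    simp [f, map_sum]
  obtain ⟨g, hg⟩ := f.exists_rightInverse_of_surjective (LinearMap.range_eq_top.2 fun x => by
    obtain ⟨u, c, hx, -⟩ := CStarAlgebra.exists_sum_four_unitary x
    exact ⟨_, (hf u c).trans hx.symm⟩)
  have key : ∀ x : vN S, ∃ (u : Fin 4 → unitary (vN S)) (c : Fin 4 → ℂ),
      x = ∑ i, c i • (u i : vN S) ∧ (∀ i, ‖c i‖ ≤ ‖x‖ / 2) ∧ l (g x) = ∑ i, c i • s (u i) := by
    intro x
    obtain ⟨u, c, hx, hc⟩ := CStarAlgebra.exists_sum_four_unitary x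
    refine ⟨u, c, hx, hc, ?_⟩
    have e1 : f (g x - ∑ i, Finsupp.single (u i) (c i)) = 0 := by
      rw [map_sub, hf, ← hx, sub_eq_zero]; exact LinearMap.congr_fun hg x
    have e2 : l (g x - ∑ i, Finsupp.single (u i) (c i)) = 0 := by
      refine h3 _ ?_
      have := congrArg (vN S).subtype e1
      rw [map_zero, Finsupp.linearCombination_apply, map_finsuppSum] at this
      exact this
    rw [map_sub, sub_eq_zero] at e2
    simp [e2, l, map_sum]
  refine ⟨l ∘ₗ g, fun x => ?_, fun x => ?_⟩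
  · obtain ⟨u, c, -, -, h⟩ := key x
    rw [LinearMap.comp_apply, h]
    exact sum_mem fun i _ => SMulMemClass.smul_mem _ (h1 _)
  · obtain ⟨u, c, hx, hc, h⟩ := key x
    have e : (x : H →L[ℂ] H) = ∑ i, c i • ((u i : vN S) : H →L[ℂ] H) := by
      have := congrArg (vN S).subtype hx
      rw [map_sum] at this
      exact this
    rw [LinearMap.comp_apply, h, e, sum_mul, ← sum_sub_distrib]
    refine (norm_sum_le_of_le (n := fun _ => ‖x‖ / 2 * κ) _ fun i _ => ?_).trans_eq ?_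
    · rw [smul_mul_assoc, ← smul_sub, norm_smul]
      exact mul_le_mul (hc i) (h2 _) (norm_nonneg _) (by positivity)
    · simp; ring

theorem lift_limit {η : ℝ} (h0 : 0 ≤ η)
    (h : ∀ (F : Finset H) (ε : ℝ), 0 < ε → ∃ p : H →L[ℂ] H, IsStarProjection p ∧
      (∀ ζ ∈ F, ‖p ζ - ζ‖ ≤ ε) ∧ ∃ T : vN S →ₗ[ℂ] (H →L[ℂ] H), (∀ x, T x ∈ vN S') ∧
        ∀ x, ‖T x - p * (x : H →L[ℂ] H) * p‖ ≤ η * ‖x‖) :
    ∃ T : vN S →ₗ[ℂ] (H →L[ℂ] H), (∀ x, T x ∈ vN S') ∧
      ∀ x, ‖T x - (x : H →L[ℂ] H)‖ ≤ η * ‖x‖ := by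
  classical
  choose p pp hp T hT1 hT2 using fun i : Finset H × ℕ => h i.1 (1 / (i.2 + 1)) (by positivity)
  obtain ⟨m, hm⟩ := exists_mean_filter (atTop : Filter (Finset H × ℕ))
  have np : ∀ i, ‖p i‖ ≤ 1 := fun i => (pp i).norm_le
  have b : ∀ x : vN S, BV fun i => T i x := fun x => ⟨η * ‖x‖ + 1 * ‖x‖ * 1, fun i => by
    have e1 := norm_add_le (T i x - p i * x * p i) (p i * x * p i)
    rw [sub_add_cancel] at e1
    refine e1.trans (add_le_add (hT2 i x) ((norm_mul_le _ _).trans (mul_le_mul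
      ((norm_mul_le _ _).trans (by gcongr; exacts [np i, le_rfl])) (np i) (norm_nonneg _)
      (by positivity))))⟩
  refine ⟨{ toFun := fun x => om m fun i => T i x
            map_add' := fun x y => ?_
            map_smul' := fun a x => ?_ }, fun x => om_mem _ (b x) fun i => hT1 i x, fun x => ?_⟩
  · rw [← sub_eq_iff_eq_add, ← om_sub _ (b _) (b _)]
    simp
  · simpa using om_sum m (univ : Finset Unit) (fun _ => a) (F := fun _ i => T i x) fun _ => b x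
  change ‖om m (fun i => T i x) - x‖ ≤ _
  rw [← om_const m (x : H →L[ℂ] H), ← om_sub _ (b x) (BV.const _)]
  have b2 := (b x).sub (BV.const (x : H →L[ℂ] H))
  refine ContinuousLinearMap.opNorm_le_bound _ (by positivity) fun ζ =>
    le_of_forall_pos_le_add fun ε hε => ?_
  set y := om m (fun i => T i x - (x : H →L[ℂ] H)) ζ
  have key : ∀ ε : ℝ, 0 < ε → ‖y‖ ^ 2 ≤ ‖y‖ * (η * ‖x‖ * ‖ζ‖) + ε * (‖x‖ * (‖ζ‖ + ‖y‖)) := by
    intro ε hε
    rw [← inner_self_eq_norm_sq (𝕜 := ℂ)]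
    refine (Complex.re_le_norm _).trans ?_
    nth_rewrite 2 [show y = om m (fun i => T i x - (x : H →L[ℂ] H)) ζ from rfl]
    rw [inner_om _ b2]
    refine hm _ ((b2.app ζ).inner y) _ ?_
    obtain ⟨N, hN⟩ := exists_nat_one_div_lt hε
    filter_upwards [eventually_ge_atTop (({y, ζ} : Finset H), N)] with i hi
    have hi2 : (1 : ℝ) / (i.2 + 1) ≤ ε :=
      (one_div_le_one_div_of_le (by positivity) (by have := hi.2; gcongr)).trans hN.le
    have y1 := (hp i y (hi.1 (by simp))).trans hi2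
    have y2 := (hp i ζ (hi.1 (by simp))).trans hi2
    have e : ⟪y, (T i x - x) ζ⟫_ℂ = ⟪y, (T i x - p i * x * p i) ζ⟫_ℂ +
        ⟪p i y - y, (x : H →L[ℂ] H) (p i ζ)⟫_ℂ + ⟪y, (x : H →L[ℂ] H) (p i ζ - ζ)⟫_ℂ := by
      have := (pp i).isSelfAdjoint.isSymmetric y ((x : H →L[ℂ] H) (p i ζ))
      simp only [ContinuousLinearMap.coe_coe] at this
      simp only [sub_apply, mul_apply_eq_comp, inner_sub_right, inner_sub_left, map_sub, this]
      ring
    have z1 : ‖p i ζ‖ ≤ 1 * ‖ζ‖ := (p i).le_of_opNorm_le (np i) ζ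
    have n1 : ‖(x : H →L[ℂ] H) (p i ζ)‖ ≤ ‖x‖ * ‖ζ‖ :=
      ((x : H →L[ℂ] H).le_opNorm _).trans (by rw [one_mul] at z1; gcongr; rfl)
    have n2 : ‖(x : H →L[ℂ] H) (p i ζ - ζ)‖ ≤ ‖x‖ * ε :=
      ((x : H →L[ℂ] H).le_opNorm _).trans (by gcongr; rfl)
    have n3 := (T i x - p i * x * p i).le_of_opNorm_le (hT2 i x) ζ
    rw [e]
    refine norm_add₃_le.trans ?_
    have i1 := (norm_inner_le_norm (𝕜 := ℂ) y _).trans
      (mul_le_mul_of_nonneg_left n3 (norm_nonneg _))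
    have i2 := (norm_inner_le_norm (𝕜 := ℂ) _ _).trans (mul_le_mul y1 n1 (norm_nonneg _) hε.le)
    have i3 := (norm_inner_le_norm (𝕜 := ℂ) y _).trans
      (mul_le_mul_of_nonneg_left n2 (norm_nonneg _))
    linarith
  have k2 : ‖y‖ ^ 2 ≤ ‖y‖ * (η * ‖x‖ * ‖ζ‖) :=
    P104.B.le_of_forall_add (c := ‖x‖ * (‖ζ‖ + ‖y‖)) key
  have : 0 ≤ η * ‖x‖ * ‖ζ‖ := by positivity
  by_contra hc
  push Not at hc
  nlinarith

end Vale.Agent.P096
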