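import Vale.Agent.P096.PartLB
import Vale.Agent.P096.PartLC

/-! Lifting on a good corner. -/

namespace Vale.Agent.P096

open scoped InnerProductSpace ComplexOrder
open Vale.Agent.P104 Vale.Agent.P082 Finset Filter LB

variable {H : Type*} [NormedAddCommGroup H] [InnerProductSpace ℂ H] [CompleteSpace H]
variable {S S' : Set (H →L[ℂ] H)}

theorem near_proj {γ : ℝ} (h0 : 0 ≤ γ) (hγ : γ ≤ 1 / 100) (h : NearIn S' S γ) {p : H →L[ℂ] H}
    (hp : p ∈ vN S') (pp : IsStarProjection p) :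
    ∃ p' ∈ vN S, IsStarProjection p' ∧ ‖p' - p‖ ≤ 9 * γ := by
  obtain ⟨y, hy, h1⟩ := h p hp
  have np := pp.norm_le
  have sp : star p = p := pp.isSelfAdjoint
  have h2 : ‖y - p‖ ≤ γ := (norm_sub_rev _ _).trans_le (h1.trans (mul_le_of_le_one_right h0 np))
  set a := (2⁻¹ : ℂ) • (y + star y) with ha
  have am : a ∈ vN S := SMulMemClass.smul_mem _ (add_mem hy (star_mem hy))
  have sa : IsSelfAdjoint a := by
    rw [IsSelfAdjoint, ha, star_smul, star_add, star_star, add_comm]; simp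
  have h3 : ‖a - p‖ ≤ γ := by
    have e : a - p = (2⁻¹ : ℂ) • ((y - p) + star (y - p)) := by
      rw [star_sub, sp, ha]; module
    have := norm_add_le (y - p) (star (y - p))
    rw [norm_star] at this
    rw [e, norm_smul, norm_inv, Complex.norm_two]
    linarith
  have h4 : ‖a * a - a‖ ≤ 3 * γ + γ * γ := by
    have e : a * a - a = (a - p) * (a - p) + ((a - p) * p + p * (a - p) - (a - p)) := by
      have := pp.isIdempotentElem.eq
      rw [sub_mul a p p, mul_sub p a p, sub_mul, mul_sub, mul_sub, this]; abel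
    have e1 := norm_sub_le ((a - p) * p + p * (a - p)) (a - p)
    have e2 := norm_add_le ((a - p) * p) (p * (a - p))
    have e3 := mul_le h3 np
    have e4 := mul_le np h3
    have e5 := mul_le h3 h3
    rw [e]
    exact (norm_add_le _ _).trans (by linarith)
  have h5 : ∀ t ∈ spectrum ℝ a, |t * t - t| ≤ 4 * γ := fun t ht => by
    have e : cfc (fun t : ℝ => t * t - t) a = a * a - a := by
      rw [cfc_sub _ _ a, cfc_mul _ _ a, cfc_id' ℝ a]
    have := norm_apply_le_norm_cfc (fun t : ℝ => t * t - t) a ht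
    rw [e, Real.norm_eq_abs] at this
    nlinarith
  let f : ℝ → ℝ := fun t => max 0 (min 1 (3 * t - 1))
  have cf : Continuous f := by fun_prop
  have h6 : ∀ t ∈ spectrum ℝ a, (f t = 0 ∧ |t| ≤ 8 * γ) ∨ (f t = 1 ∧ |1 - t| ≤ 8 * γ) := by
    intro t ht
    obtain ⟨b1, b2⟩ := abs_le.1 (h5 t ht)
    by_cases c : t ≤ 1 / 2
    · have c1 : t ≤ 8 * γ := by nlinarith
      have c2 : -(8 * γ) ≤ t := by nlinarith
      exact Or.inl ⟨max_eq_left (min_le_of_right_le (by linarith)), abs_le.2 ⟨c2, c1⟩⟩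
    · push Not at c
      have c1 : 1 - t ≤ 8 * γ := by nlinarith
      have c2 : -(8 * γ) ≤ 1 - t := by nlinarith
      exact Or.inr ⟨by simp only [f]; rw [min_eq_left (by linarith)]; norm_num,
        abs_le.2 ⟨c2, c1⟩⟩
  refine ⟨cfc f a, cfc_mem_vN am f, ⟨?_, cfc_predicate f a⟩, ?_⟩
  · rw [IsIdempotentElem, ← cfc_mul _ _ a]
    refine cfc_congr fun t ht => ?_
    rcases h6 t ht with h | h <;> simp [h.1]
  · have e : cfc f a - a = cfc (fun t => f t - t) a := by rw [cfc_sub _ _ a, cfc_id' ℝ a]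
    have e2 : ‖cfc f a - a‖ ≤ 8 * γ := by
      rw [e]
      refine norm_cfc_le (by positivity) fun t ht => ?_
      rcases h6 t ht with h | h <;> simpa [h.1] using h.2
    linarith [norm_sub_le_norm_sub_add_norm_sub (cfc f a) a p]

/-- Pinching along a projection. -/
noncomputable def pin (p : H →L[ℂ] H) : (H →L[ℂ] H) →ₗ[ℂ] (H →L[ℂ] H) where
  toFun x := p * x * p + (1 - p) * x * (1 - p)
  map_add' x y := by noncomm_ring
  map_smul' a x := by simp

lemma pin_apply (p x : H →L[ℂ] H) : pin p x = p * x * p + (1 - p) * x * (1 - p) := rfl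

lemma mem_ins {p x : H →L[ℂ] H} (pp : IsStarProjection p) :
    x ∈ vN (S ∪ {p}) ↔ x ∈ vN S ∧ p * x = x * p := by
  have sp : star p = p := pp.isSelfAdjoint
  simp only [P104.mem_vN, Set.mem_union, Set.mem_singleton_iff, or_imp, forall_and,
    forall_eq, sp]
  tauto

lemma pin_mem {p x : H →L[ℂ] H} (pp : IsStarProjection p) (hp : p ∈ vN S) (hx : x ∈ vN S) :
    pin p x ∈ vN (S ∪ {p}) := by
  have e := pp.isIdempotentElem.eq
  have h1 := sub_mem (one_mem _) hp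
  refine (mem_ins pp).2 ⟨add_mem (mul_mem (mul_mem hp hx) hp) (mul_mem (mul_mem h1 hx) h1), ?_⟩
  have e1 : p * (1 - p) = 0 := by rw [mul_sub, e]; simp
  have e2 : (1 - p) * p = 0 := by rw [sub_mul, e]; simp
  rw [pin_apply, mul_add, add_mul, ← mul_assoc, ← mul_assoc, ← mul_assoc, ← mul_assoc, e, e1,
    mul_assoc _ p p, e, mul_assoc _ (1 - p) p, e2]
  simp

lemma norm_one_sub {p : H →L[ℂ] H} (pp : IsStarProjection p) : ‖1 - p‖ ≤ 1 := pp.one_sub.norm_le

lemma norm_pin {p : H →L[ℂ] H} (pp : IsStarProjection p) (x : H →L[ℂ] H) :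
    ‖pin p x‖ ≤ 2 * ‖x‖ :=
  (norm_add_le _ _).trans (by
    linarith [mul_le (mul_le pp.norm_le (le_refl ‖x‖)) pp.norm_le,
      mul_le (mul_le (norm_one_sub pp) (le_refl ‖x‖)) (norm_one_sub pp)])

lemma norm_cut {p q : H →L[ℂ] H} (hp : ‖p‖ ≤ 1) (hq : ‖q‖ ≤ 1) {ε : ℝ} (h : ‖p - q‖ ≤ ε)
    (x : H →L[ℂ] H) : ‖p * x * p - q * x * q‖ ≤ 2 * ε * ‖x‖ := by
  have e : p * x * p - q * x * q = (p - q) * x * p + q * x * (p - q) := by noncomm_ring
  rw [e]
  exact (norm_add_le _ _).trans (by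
    linarith [mul_le (mul_le h (le_refl ‖x‖)) hp, mul_le (mul_le hq (le_refl ‖x‖)) h])

theorem lift_corner {γ : ℝ} (h0 : 0 ≤ γ) (hγ : γ ≤ 1 / 10 ^ 10) (h : NearIn S S' γ)
    (h' : NearIn S' S γ) {p : H →L[ℂ] H} (hp : GoodP S' p) :
    ∃ T : vN S →ₗ[ℂ] (H →L[ℂ] H), (∀ x, T x ∈ vN S') ∧
      ∀ x, ‖T x - p * (x : H →L[ℂ] H) * p‖ ≤ 10 ^ 6 * γ * ‖x‖ := by
  obtain ⟨hp, pp, ι, _, α, β, hg⟩ := hp
  obtain ⟨q, hq, pq, hpq⟩ := near_proj h0 (hγ.trans (by norm_num)) h' hp pp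
  have e := pp.isIdempotentElem.eq
  have eq := pq.isIdempotentElem.eq
  have sp : star p = p := pp.isSelfAdjoint
  have hn : NearIn (S ∪ {q}) (S' ∪ {p}) (40 * γ) := fun x hx => by
    obtain ⟨hx, cx⟩ := (mem_ins pq).1 hx
    obtain ⟨y, hy, h1⟩ := h x hx
    refine ⟨pin p y, pin_mem pp hp hy, ?_⟩
    have e1 : x - pin p y = pin p (x - y) + (q * x * q - p * x * p) +
        ((1 - q) * x * (1 - q) - (1 - p) * x * (1 - p)) := by
      have : q * x * q = x * q := by rw [cx, mul_assoc, eq]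
      rw [map_sub, pin_apply p x, sub_mul 1 q x, sub_mul (1 * x), mul_sub (q * x), this, cx]
      noncomm_ring
    have e2 := add3 (norm_pin pp (x - y)) (norm_cut pq.norm_le pp.norm_le hpq x)
      (norm_cut (norm_one_sub pq) (norm_one_sub pp) (ε := 9 * γ)
        (by rwa [sub_sub_sub_cancel_left, norm_sub_rev]) x) e1
    nlinarith [norm_nonneg x]
  have cp : IsCentral (S' ∪ {p}) p :=
    ⟨(mem_ins pp).2 ⟨hp, rfl⟩, pp, fun x hx => ((mem_ins pp).1 hx).2⟩
  have cut : ∀ d ∈ vN (S' ∪ {p}), d * p ∈ vN S' ∧ d * p * p = d * p ∧ p * (d * p) = d * p :=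
    fun d hd => ⟨mul_mem ((mem_ins pp).1 hd).1 hp, by rw [mul_assoc, e],
      by rw [← mul_assoc, cp.2.2 d hd, mul_assoc, e]⟩
  obtain ⟨s, s1, s2, s3⟩ := sel_lift cp (fun i => p (α i)) (fun d hd b hb => by
      obtain ⟨a1, a2, a3⟩ := cut _ (mul_mem hd hb)
      obtain ⟨b1, b2, b3⟩ := cut d hd
      have c1 := (hg _ a1 a2 a3).1
      have c2 := (hg _ (star_mem b1) (by simpa [sp] using congrArg star b3)
        (by simpa [sp] using congrArg star b2)).2.1
      have c3 : ∑ i, ‖star (d * b * p) (β i)‖ ^ 2 ≤ ‖b‖ ^ 2 * ∑ i, ‖star (d * p) (β i)‖ ^ 2 := by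
        rw [mul_assoc, ← cp.2.2 b hb, ← mul_assoc, star_mul, ← ev_sq, ← ev_sq, ← mul_pow,
          ← norm_star b]
        exact pow_le_pow_left₀ (norm_nonneg _) (ev_mul _ _ _) 2
      rw [star_star] at c2
      change ∑ i, ‖(d * b * p) (α i)‖ ^ 2 ≤ _ * ∑ i, ‖(d * p) (α i)‖ ^ 2
      nlinarith [mul_le_mul_of_nonneg_left c2 (sq_nonneg ‖b‖)])
    (fun d hd h => let ⟨b1, b2, b3⟩ := cut d hd; (hg _ b1 b2 b3).2.2 h)
    (by positivity) (by linarith) hn
  obtain ⟨T, T1, T2⟩ := lin_of_sel s s1 s2 s3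
  let P : vN S →ₗ[ℂ] vN (S ∪ {q}) :=
    { toFun := fun x => ⟨pin q x, pin_mem pq hq x.2⟩
      map_add' := fun x y => Subtype.ext (map_add (pin q) _ _)
      map_smul' := fun a x => Subtype.ext (map_smul (pin q) _ _) }
  refine ⟨T ∘ₗ P, fun x => ((mem_ins pp).1 (T1 _)).1, fun x => ?_⟩
  have n1 : ‖pin q x‖ ≤ 2 * ‖x‖ := norm_pin pq x
  have e1 : T (P x) - p * x * p = (T (P x) - pin q x * p) + pin q x * (p - q) +
      (q * x * q - p * x * p) := by
    have e2 : (1 - q) * q = 0 := by rw [sub_mul, eq]; simp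
    have : pin q x * q = q * x * q := by
      rw [pin_apply, add_mul, mul_assoc _ q q, eq, mul_assoc _ (1 - q) q, e2]; simp
    rw [mul_sub, this]; abel
  have e2 := add3 ((T2 (P x)).trans (mul_le_mul_of_nonneg_left n1 (by positivity)))
    (mul_le n1 ((norm_sub_rev _ _).trans_le hpq)) (norm_cut pq.norm_le pp.norm_le hpq x) e1
  change ‖T (P x) - _‖ ≤ _
  have : ‖(x : H →L[ℂ] H)‖ = ‖x‖ := rfl
  nlinarith [mul_nonneg h0 (norm_nonneg x)]

end Vale.Agent.P096
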