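import Vale.Agent.P096.DefsL
import Vale.Agent.P082.PartT

/-! P096 parts LF2a, LF2b, LF2c: amplification and gluing of good projections. -/

namespace Vale.Agent.P096

open scoped InnerProductSpace ComplexOrder ComplexConjugate
open Vale.Agent.P104 Vale.Agent.P104.C Vale.Agent.P104.D Vale.Agent.P082
open Vale.Agent.P082.T

variable {H : Type*} [NormedAddCommGroup H] [InnerProductSpace ℂ H] [CompleteSpace H]
variable {S : Set (H →L[ℂ] H)}

namespace LF2

lemma norm_split {p y : H →L[ℂ] H} {k : ℕ} {w : Fin k → H →L[ℂ] H}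
    (hs : ∑ l, w l * star (w l) = p) (h : p * y = y) (ζ : H) :
    ‖y ζ‖ ^ 2 = ∑ m, ‖star (w m) (y ζ)‖ ^ 2 := by
  have e : qf p (y ζ) = ‖y ζ‖ ^ 2 := by
    rw [qf, ← mul_apply_eq_comp, h, inner_self_eq_norm_sq_to_K]
    norm_cast
  rw [← e, ← hs, qf_sum]
  simp only [qf_mul_star]

lemma amp_half {g p : H →L[ℂ] H} (hsg : star g = g) (hsp : star p = p) {k : ℕ}
    {w : Fin k → H →L[ℂ] H} (hw : ∀ l, w l ∈ vN S ∧ w l * g = w l)
    (hs : ∑ l, w l * star (w l) = p) {ι : Type} [Fintype ι] {a b : ι → H}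
    (h : ∀ y ∈ vN S, y * g = y → g * y = y →
      ∑ i, ‖y (a i)‖ ^ 2 ≤ 2 * ∑ i, ‖star y (b i)‖ ^ 2)
    {y : H →L[ℂ] H} (hy : y ∈ vN S) (y1 : y * p = y) (y2 : p * y = y) :
    ∑ x : Fin k × ι, ‖y (w x.1 (a x.2))‖ ^ 2 ≤
      2 * ∑ x : Fin k × ι, ‖star y (w x.1 (b x.2))‖ ^ 2 := by
  simp only [Fintype.sum_prod_type, norm_split hs y2, norm_split hs (star_right hsp y1)]
  have key : ∀ l m, ∑ i, ‖star (w m) (y (w l (a i)))‖ ^ 2 ≤
      2 * ∑ i, ‖star (w l) (star y (w m (b i)))‖ ^ 2 := fun l m => by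
    have := h (star (w m) * y * w l) (mul_mem (mul_mem (star_mem (hw m).1) hy) (hw l).1)
      (by rw [mul_assoc, (hw l).2]) (by rw [← mul_assoc, ← mul_assoc, star_right hsg (hw m).2])
    simpa only [star_mul, star_star, mul_apply_eq_comp] using this
  calc _ = ∑ l, ∑ m, ∑ i, ‖star (w m) (y (w l (a i)))‖ ^ 2 :=
        Finset.sum_congr rfl fun l _ => Finset.sum_comm
    _ ≤ ∑ l, ∑ m, 2 * ∑ i, ‖star (w l) (star y (w m (b i)))‖ ^ 2 :=
        Finset.sum_le_sum fun l _ => Finset.sum_le_sum fun m _ => key l m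
    _ = _ := by
        rw [Finset.sum_comm, Finset.mul_sum]
        refine Finset.sum_congr rfl fun m _ => ?_
        rw [← Finset.mul_sum, Finset.sum_comm]

lemma cut {p g c y : H →L[ℂ] H} (hc : IsCentral S c) (hg : g ∈ vN S) (hy : y ∈ vN S)
    (hp : p ∈ vN S) (h : p * c = g * c) (y1 : y * p = y) (y2 : p * y = y) :
    y * c * g = y * c ∧ g * (y * c) = y * c := by
  constructor
  · rw [mul_assoc, hc.2.2 g hg, ← h, ← mul_assoc, y1]
  · rw [← hc.2.2 y hy, ← mul_assoc, ← h, ← hc.2.2 p hp, mul_assoc, y2]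

lemma central_compl {c : H →L[ℂ] H} (hc : IsCentral S c) : IsCentral S (1 - c) :=
  ⟨sub_mem (one_mem _) hc.1, hc.2.1.one_sub, fun x hx => by
    rw [sub_mul, mul_sub, one_mul, mul_one, hc.2.2 x hx]⟩

lemma star_cut {c y : H →L[ℂ] H} (hc : IsCentral S c) (hy : y ∈ vN S) (ζ : H) :
    star (y * c) ζ = star y (c ζ) := by
  rw [← hc.2.2 y hy, star_mul, hc.2.1.isSelfAdjoint.star_eq, mul_apply_eq_comp]

end LF2

open LF2

theorem good_amp {g p : H →L[ℂ] H} (hg : GoodP S g) (pp : IsStarProjection p) {k : ℕ}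
    (w : Fin k → H →L[ℂ] H) (hw : ∀ l, w l ∈ vN S ∧ w l * g = w l)
    (hs : ∑ l, w l * star (w l) = p) : GoodP S p := by
  obtain ⟨-, pg, ι, _, α, β, h⟩ := hg
  have hsg : star g = g := pg.isSelfAdjoint
  have hsp : star p = p := pp.isSelfAdjoint
  refine ⟨hs ▸ sum_mem fun l _ => mul_mem (hw l).1 (star_mem (hw l).1), pp, Fin k × ι,
    inferInstance, fun x => w x.1 (α x.2), fun x => w x.1 (β x.2), fun y hy y1 y2 =>
    ⟨amp_half hsg hsp hw hs (fun y a b c => (h y a b c).1) hy y1 y2,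
      amp_half hsg hsp hw hs (fun y a b c => (h y a b c).2.1) hy y1 y2, fun h0 => ?_⟩⟩
  have key : ∀ m l, star (w m) * y * w l = 0 := fun m l =>
    (h _ (mul_mem (mul_mem (star_mem (hw m).1) hy) (hw l).1) (by rw [mul_assoc, (hw l).2])
      (by rw [← mul_assoc, ← mul_assoc, star_right hsg (hw m).2])).2.2 fun i => by
        rw [mul_apply_eq_comp, mul_apply_eq_comp, h0 (l, i), map_zero]
  rw [← y1, ← y2, ← hs, Finset.sum_mul, Finset.sum_mul]
  refine Finset.sum_eq_zero fun m _ => ?_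
  rw [Finset.mul_sum]
  refine Finset.sum_eq_zero fun l _ => ?_
  rw [mul_assoc (w m), ← mul_assoc, mul_assoc (w m), key, mul_zero, zero_mul]

theorem exists_amp {g : H →L[ℂ] H} (hg : g ∈ vN S) (pg : IsStarProjection g)
    (Y : Finset (H →L[ℂ] H))
    (hY : ∀ y ∈ Y, y ∈ vN S) : ∃ (k : ℕ) (w : Fin k → H →L[ℂ] H),
      (∀ l, w l ∈ vN S ∧ w l * g = w l) ∧ IsStarProjection (∑ l, w l * star (w l)) ∧
      ∀ y ∈ Y, (∑ l, w l * star (w l)) * (y * g) = y * g := by
  classical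
  induction Y using Finset.induction_on with
  | empty => exact ⟨0, Fin.elim0, fun l => l.elim0, by simp, by simp⟩
  | insert y Y _ ih =>
    obtain ⟨k, w, h1, h2, h3⟩ := ih fun y hy => hY y (Finset.mem_insert_of_mem hy)
    set P := ∑ l, w l * star (w l) with hP
    have hPM : P ∈ vN S := sum_mem fun l _ => mul_mem (h1 l).1 (star_mem (h1 l).1)
    have hPP : P * P = P := h2.isIdempotentElem
    have hsP : star P = P := h2.isSelfAdjoint
    obtain ⟨v, hv, b, -, v1, -, v2, -, v3, v4⟩ := polar (S := S) (y := (1 - P) * (y * g))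
      (mul_mem (sub_mem (one_mem _) hPM) (mul_mem (hY y (Finset.mem_insert_self _ _)) hg))
    have a1 : v * g = v := v3 g pg.isSelfAdjoint (by
      rw [mul_assoc, mul_assoc, pg.isIdempotentElem.eq])
    have a2 : (1 - P) * v = v := v4 _ (by rw [← mul_assoc, h2.one_sub.isIdempotentElem.eq])
    have a3 : P * v = 0 := by rw [← a2, ← mul_assoc, mul_sub, mul_one, hPP, sub_self, zero_mul]
    have a4 : star v * P = 0 := by
      have := congrArg star a3
      rwa [star_mul, hsP, star_zero] at this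
    have e : ∑ l : Fin (k + 1), (Fin.cons v w : Fin (k + 1) → H →L[ℂ] H) l *
        star ((Fin.cons v w : Fin (k + 1) → H →L[ℂ] H) l) = v * star v + P := by
      rw [Fin.sum_univ_succ]; rfl
    refine ⟨k + 1, Fin.cons v w, fun l => Fin.cases ⟨hv, a1⟩ h1 l, ?_, fun z hz => ?_⟩
    · rw [e]
      exact (proj_rng v1).add h2 (by rw [mul_assoc, a4, mul_zero])
    · rw [e, add_mul]
      rcases Finset.mem_insert.1 hz with rfl | hz
      · have : v * star v * (z * g) = (1 - P) * (z * g) := by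
          have b1 : star v * (1 - P) = star v := by rw [mul_sub, mul_one, a4, sub_zero]
          rw [← b1, mul_assoc, mul_assoc, ← v2, ← mul_assoc, ← mul_assoc, v1]
        rw [this, sub_mul, one_mul, sub_add_cancel]
      · rw [h3 z hz, ← h3 z hz, mul_assoc, ← mul_assoc (star v), a4, zero_mul, mul_zero, zero_add]

theorem good_glue {g g' c : H →L[ℂ] H} (hg : GoodP S g) (hg' : GoodP S g') (hc : IsCentral S c) :
    GoodP S (g * c + g' * (1 - c)) := by
  obtain ⟨gM, pg, ι, _, α, β, h⟩ := hg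
  obtain ⟨gM', pg', ι', _, α', β', h'⟩ := hg'
  have hd := central_compl hc
  have hcc : c * c = c := hc.2.1.isIdempotentElem
  have hdc : (1 - c) * c = 0 := by rw [sub_mul, one_mul, hcc, sub_self]
  have hcd : c * (1 - c) = 0 := by rw [mul_sub, mul_one, hcc, sub_self]
  have hp : g * c + g' * (1 - c) ∈ vN S := add_mem (mul_mem gM hc.1) (mul_mem gM' hd.1)
  refine ⟨hp, ?_, ι ⊕ ι', inferInstance, Sum.elim (fun i => c (α i)) (fun i => (1 - c) (α' i)),
    Sum.elim (fun i => c (β i)) (fun i => (1 - c) (β' i)), fun y hy y1 y2 => ?_⟩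
  · refine (proj_mul pg hc.2.1 (hc.2.2 g gM).symm).add
      (proj_mul pg' hd.2.1 (hd.2.2 g' gM').symm) ?_
    rw [← hd.2.2 g' gM', mul_assoc, ← mul_assoc c, hcd, zero_mul, mul_zero]
  obtain ⟨a1, a2⟩ := cut hc gM hy hp
    (by rw [add_mul, mul_assoc, hcc, mul_assoc, hdc, mul_zero, add_zero]) y1 y2
  obtain ⟨b1, b2⟩ := cut hd gM' hy hp (by
    rw [add_mul, mul_assoc, hcd, mul_assoc, hd.2.1.isIdempotentElem.eq, mul_zero, zero_add]) y1 y2
  obtain ⟨k1, k2, k3⟩ := h _ (mul_mem hy hc.1) a1 a2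
  obtain ⟨l1, l2, l3⟩ := h' _ (mul_mem hy hd.1) b1 b2
  simp only [star_cut hc hy, star_cut hd hy, mul_apply_eq_comp] at k1 k2 k3 l1 l2 l3
  simp only [Fintype.sum_sum_type, Sum.elim_inl, Sum.elim_inr]
  refine ⟨by linarith, by linarith, fun h0 => ?_⟩
  have e1 := k3 fun i => h0 (.inl i)
  have e2 := l3 fun i => h0 (.inr i)
  rw [mul_sub, mul_one, e1, sub_zero] at e2
  exact e2

end Vale.Agent.P096
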