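import Vale.Agent.P096.PartLF1b
import Vale.Agent.P096.PartLF2
import Vale.Agent.P104.E3

/-! P096 part LF3: good projections approximate the identity. -/

namespace Vale.Agent.P096

open scoped InnerProductSpace ComplexOrder ComplexConjugate
open Vale.Agent.P104 Vale.Agent.P082
open Vale.Agent.P104.E (U mem_U central_U cover_mul clos_inv U_inv_M exists_gen)

variable {H : Type*} [NormedAddCommGroup H] [InnerProductSpace ℂ H] [CompleteSpace H]
variable {S : Set (H →L[ℂ] H)}

namespace LF3

theorem common {e e' : H →L[ℂ] H} (he : GoodP S e) (he' : GoodP S e') :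
    ∃ e'', GoodP S e'' ∧ (U S {e}).topologicalClosure ≤ (U S {e''}).topologicalClosure ∧
      (U S {e'}).topologicalClosure ≤ (U S {e''}).topologicalClosure := by
  have hc : IsCentral S (U S {e}).topologicalClosure.starProjection :=
    central_U fun x hx => by rw [Set.mem_singleton_iff.1 hx]; exact he.1
  have hce : (U S {e}).topologicalClosure.starProjection * e = e := cover_mul rfl
  have hg := good_glue he he' hc
  rw [← hc.2.2 e he.1, hce] at hg
  set c := (U S {e}).topologicalClosure.starProjection with hcd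
  have hd := LF2.central_compl hc
  set d := 1 - c with hd'
  have hdd : d * d = d := hd.2.1.isIdempotentElem
  have hde : d * e = 0 := by rw [hd', sub_mul, one_mul, hce, sub_self]
  have hee : e * e = e := he.2.1.isIdempotentElem
  have hle : (U S {e}).topologicalClosure ≤ (U S {e + e' * d}).topologicalClosure := by
    refine Submodule.topologicalClosure_mono (Submodule.span_le.2 ?_)
    rintro _ ⟨e1, he1, x, hx, α, rfl⟩
    rw [Set.mem_singleton_iff.1 he1]
    have a1 : e * (e + e' * d) = e := by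
      rw [mul_add, hee, ← hd.2.2 _ he'.1, ← mul_assoc, ← hd.2.2 _ he.1, hde, zero_mul, add_zero]
    have : x (e α) = (x * e) ((e + e' * d) α) := by
      conv_lhs => rw [← a1]
      rfl
    rw [this]
    exact mem_U (Set.mem_singleton _) (mul_mem hx he.1) α
  refine ⟨e + e' * d, hg, hle, ?_⟩
  refine Submodule.topologicalClosure_minimal _ (Submodule.span_le.2 ?_)
    (Submodule.isClosed_topologicalClosure _)
  rintro _ ⟨e1, he1, x, hx, α, rfl⟩
  rw [Set.mem_singleton_iff.1 he1]
  have a1 : d * (e + e' * d) = e' * d := by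
    rw [mul_add, hde, zero_add, ← mul_assoc, hd.2.2 _ he'.1, mul_assoc, hdd]
  have a2 : x (e' α) = (x * e') (c α) + (x * d) ((e + e' * d) α) := by
    have : x * e' = x * e' * c + x * d * (e + e' * d) := by
      rw [mul_assoc x d, a1, hd']; noncomm_ring
    conv_lhs => rw [← mul_apply_eq_comp, this]
    rfl
  rw [a2]
  refine add_mem (hle ?_) (Submodule.le_topologicalClosure _
    (mem_U (Set.mem_singleton _) (mul_mem hx hd.1) α))
  exact clos_inv (U_inv_M (mul_mem hx he'.1)) (Submodule.starProjection_apply_mem _ α)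

theorem good_zero : GoodP S 0 :=
  ⟨zero_mem _, IsStarProjection.zero _, Unit, inferInstance, 0, 0, fun y _ h _ =>
    ⟨by simp, by simp, fun _ => by rw [← h, mul_zero]⟩⟩

theorem exists_one {v : H} (hv : v ∈ U S {e | GoodP S e}) :
    ∃ e, GoodP S e ∧ v ∈ (U S {e}).topologicalClosure := by
  induction hv using Submodule.span_induction with
  | mem v hv =>
    obtain ⟨e, he, x, hx, α, rfl⟩ := hv
    exact ⟨e, he, Submodule.le_topologicalClosure _ (mem_U (Set.mem_singleton e) hx α)⟩
  | zero => exact ⟨0, good_zero, zero_mem _⟩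
  | add v w _ _ h1 h2 =>
    obtain ⟨e, he, h1⟩ := h1
    obtain ⟨e', he', h2⟩ := h2
    obtain ⟨e'', h, a1, a2⟩ := common he he'
    exact ⟨e'', h, add_mem (a1 h1) (a2 h2)⟩
  | smul c v _ h1 =>
    obtain ⟨e, he, h1⟩ := h1
    exact ⟨e, he, Submodule.smul_mem _ _ h1⟩

theorem exists_fin (v : H → H) (hv : ∀ i, v i ∈ U S {e | GoodP S e})
    (F : Finset H) : ∃ e, GoodP S e ∧ ∀ i ∈ F, v i ∈ (U S {e}).topologicalClosure := by
  classical
  induction F using Finset.induction_on with
  | empty => exact ⟨0, good_zero, by simp⟩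
  | insert a F _ ih =>
    obtain ⟨e, he, h1⟩ := ih
    obtain ⟨e', he', h2⟩ := exists_one (hv a)
    obtain ⟨e'', h, a1, a2⟩ := common he he'
    refine ⟨e'', h, fun i hi => ?_⟩
    rcases Finset.mem_insert.1 hi with rfl | hi
    · exact a2 h2
    · exact a1 (h1 i hi)

theorem mem_all (hS : SF S) (ζ : H) : ζ ∈ (U S {e | GoodP S e}).topologicalClosure := by
  have hc : IsCentral S (U S {e | GoodP S e}).topologicalClosure.starProjection :=
    central_U fun x hx => hx.1
  have hd := LF2.central_compl hc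
  have h0 : 1 - (U S {e | GoodP S e}).topologicalClosure.starProjection = 0 := by
    by_contra h
    obtain ⟨q, hq, pq, q0, q1, q2⟩ := hS _ hd h
    obtain ⟨g, hg, g0, g1⟩ := good_of_fin hq pq q0 q2
    apply g0
    have e := cover_mul (S := S) (E := {e | GoodP S e}) hg
    rw [← g1, ← q1, ← mul_assoc, g1, ← hd.2.2 g hg.1, sub_mul, one_mul, e, sub_self]
  rw [sub_eq_zero] at h0
  have := Submodule.starProjection_apply_mem (U S {e | GoodP S e}).topologicalClosure ζ
  rwa [← h0] at this

end LF3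

open LF3 in
theorem good_dense (hS : SF S) (F : Finset H) {ε : ℝ} (hε : 0 < ε) :
    ∃ p, GoodP S p ∧ ∀ ζ ∈ F, ‖p ζ - ζ‖ ≤ ε := by
  classical
  have hδ : 0 < ε / 2 := by positivity
  choose v hv hv' using fun i => Metric.mem_closure_iff.1 (mem_all hS i) _ hδ
  obtain ⟨e, he, h1⟩ := exists_fin v hv F
  choose w hw hw' using fun i : F => Metric.mem_closure_iff.1 (h1 i i.2) _ hδ
  choose Y C hY hC hg using fun i => exists_gen (hw i)
  obtain ⟨k, u, u1, u2, u3⟩ := exists_amp he.1 he.2.1 (Finset.univ.biUnion Y) fun y hy => by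
    obtain ⟨i, _, hi⟩ := Finset.mem_biUnion.1 hy
    exact hY i y hi
  refine ⟨_, good_amp he u2 u u1 rfl, fun ζ hζ => ?_⟩
  set p := ∑ l, u l * star (u l) with hp
  have a1 := hg ⟨ζ, hζ⟩ (1 - p) 0 le_rfl fun y hy α => by
    have := u3 y (Finset.mem_biUnion.2 ⟨_, Finset.mem_univ _, hy⟩)
    rw [← mul_apply_eq_comp y, ← mul_apply_eq_comp, sub_mul, this, one_mul, sub_self]
    simp
  rw [zero_mul, norm_le_zero_iff] at a1
  have a2 : p ζ - ζ = -((1 - p) (ζ - w ⟨ζ, hζ⟩)) := by
    rw [map_sub, a1, sub_zero, sub_apply, one_apply_eq_self, neg_sub]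
  have a3 : ‖(1 - p) (ζ - w ⟨ζ, hζ⟩)‖ ≤ ‖ζ - w ⟨ζ, hζ⟩‖ := T.norm_pi_le (by
    rw [u2.one_sub.isSelfAdjoint.star_eq, u2.one_sub.isIdempotentElem.eq,
      u2.one_sub.isIdempotentElem.eq]) _
  have a4 := dist_triangle ζ (v ζ) (w ⟨ζ, hζ⟩)
  have a5 := hv' ζ
  have a6 := hw' ⟨ζ, hζ⟩
  rw [a2, norm_neg]
  rw [dist_eq_norm] at a4
  simp only at a6
  linarith

end Vale.Agent.P096
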