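import Vale.Agent.P096.Fin1
import Vale.Agent.P096.KS
import Vale.Agent.P096.PartLD
import Vale.Agent.P096.PartLF3

/-! The semifinite case. -/

namespace Vale.Agent.P096

open Vale.Agent.P104

variable {H : Type*} [NormedAddCommGroup H] [InnerProductSpace ℂ H] [CompleteSpace H]

theorem lift_sf' {S S' : Set (H →L[ℂ] H)} (hS : SF S') {γ : ℝ} (h0 : 0 ≤ γ)
    (hγ : γ ≤ 1 / 10 ^ 10) (h : NearIn S S' γ) (h' : NearIn S' S γ) :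
    ∃ T : vN S →ₗ[ℂ] (H →L[ℂ] H), (∀ x, T x ∈ vN S') ∧
      ∀ x, ‖T x - (x : H →L[ℂ] H)‖ ≤ 10 ^ 6 * γ * ‖x‖ :=
  lift_limit (by positivity) fun F _ hε =>
    let ⟨p, hp, h1⟩ := good_dense hS F hε
    ⟨p, hp.2.1, h1, lift_corner h0 hγ h h' hp⟩

theorem conj_sf {M N : VonNeumannAlgebra H} (hN : Semifinite (ops N)) {γ : ℝ} (h0 : 0 ≤ γ)
    (hγ : γ ≤ 1 / 10 ^ 14) (h1 : ∀ x ∈ M, ∃ y ∈ N, ‖x - y‖ ≤ γ * ‖x‖)
    (h2 : ∀ y ∈ N, ∃ x ∈ M, ‖y - x‖ ≤ γ * ‖y‖) :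
    ∃ u ∈ unitary (H →L[ℂ] H), ‖u - 1‖ ≤ 10 ^ 13 * γ ∧ (∀ x ∈ M, u * x * star u ∈ N) ∧
      ∀ y ∈ N, star u * y * u ∈ M := by
  have hS : SF (Set.centralizer (N : Set (H →L[ℂ] H))) := fun c hc c0 => by
    obtain ⟨q, ⟨q1, q2, q3⟩, q4, q5⟩ := hN c ((mem_iff N c).2 hc.1) hc.2.1
      (fun x hx => hc.2.2 x ((mem_iff N x).1 hx)) c0
    exact ⟨q, (mem_iff N q).1 q1, q2, q4, q5, fun v hv => q3 v ((mem_iff N v).2 hv)⟩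
  simp only [mem_iff M, mem_iff N] at h1 h2 ⊢
  obtain ⟨T, t1, t2⟩ := lift_sf' hS h0 (hγ.trans (by norm_num)) h1 h2
  obtain ⟨u, hu, c1, c2⟩ := conj_of_lift (η := 10 ^ 6 * γ) (by positivity)
    (by norm_num at hγ ⊢; linarith) T t1 t2 fun y hy => (h2 y hy).imp fun x h =>
      ⟨h.1, h.2.trans (mul_le_mul_of_nonneg_right (by linarith) (norm_nonneg _))⟩
  exact ⟨u, hu, c1.trans_eq (by ring), c2⟩

end Vale.Agent.P096
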