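import Vale.Agent.P096.DefsL

/-! Vector and operator valued means, and the parallelogram lemma for absorbing means. -/

namespace Vale.Agent.P096.LB

open scoped InnerProductSpace ComplexOrder
open Vale.Agent.P104 Vale.Agent.P082 Finset

variable {Γ : Type*} {E E' : Type*} [NormedAddCommGroup E] [InnerProductSpace ℂ E]
  [CompleteSpace E] [NormedAddCommGroup E'] [InnerProductSpace ℂ E'] [CompleteSpace E']

/-- Bounded functions into a normed group. -/
def BV {X : Type*} [NormedAddCommGroup X] (F : Γ → X) : Prop := ∃ C : ℝ, ∀ g, ‖F g‖ ≤ C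

section bv
variable {X : Type*} [NormedAddCommGroup X]

lemma BV.add {F G : Γ → X} (hF : BV F) (hG : BV G) : BV fun g => F g + G g := by
  obtain ⟨C, hC⟩ := hF; obtain ⟨D, hD⟩ := hG
  exact ⟨C + D, fun x => (norm_add_le _ _).trans (add_le_add (hC x) (hD x))⟩

lemma BV.sub {F G : Γ → X} (hF : BV F) (hG : BV G) : BV fun g => F g - G g := by
  obtain ⟨C, hC⟩ := hF; obtain ⟨D, hD⟩ := hG
  exact ⟨C + D, fun x => (norm_sub_le _ _).trans (add_le_add (hC x) (hD x))⟩

lemma BV.const (c : X) : BV fun _ : Γ => c := ⟨‖c‖, fun _ => le_rfl⟩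

lemma BV.sum {ι : Type*} (s : Finset ι) {f : ι → Γ → X} (hf : ∀ i ∈ s, BV (f i)) :
    BV fun x => ∑ i ∈ s, f i x := by
  classical
  induction s using Finset.induction_on with
  | empty => simpa using BV.const (0 : X)
  | insert a s ha ih =>
    simp only [sum_insert ha]
    exact (hf a (mem_insert_self _ _)).add (ih fun i hi => hf i (mem_insert_of_mem hi))

lemma BV.smul [NormedSpace ℂ X] (c : ℂ) {F : Γ → X} (hF : BV F) : BV fun g => c • F g := by
  obtain ⟨C, hC⟩ := hF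
  exact ⟨‖c‖ * C, fun x => by rw [norm_smul]; gcongr; exact hC x⟩

lemma BV.mul {R : Type*} [NormedRing R] {F G : Γ → R} (hF : BV F) (hG : BV G) :
    BV fun g => F g * G g := by
  obtain ⟨C, hC⟩ := hF; obtain ⟨D, hD⟩ := hG
  exact ⟨C * D, fun x => (norm_mul_le _ _).trans
    (mul_le_mul (hC x) (hD x) (norm_nonneg _) ((norm_nonneg _).trans (hC x)))⟩

lemma BV.ofReal {f : Γ → ℝ} (hf : BV f) : Bd fun g => (f g : ℂ) :=
  let ⟨C, hC⟩ := hf; ⟨C, fun g => by simpa using hC g⟩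

lemma BV.norm {F : Γ → X} (hF : BV F) : BV fun g => ‖F g‖ :=
  let ⟨C, hC⟩ := hF; ⟨C, fun g => by simpa using hC g⟩

lemma BV.sq {f : Γ → ℝ} (hf : BV f) : BV fun g => f g ^ 2 := by
  simpa [_root_.sq] using hf.mul hf

end bv

omit [CompleteSpace E] in
lemma BV.inner {F : Γ → E} (hF : BV F) (η : E) : Bd fun g => ⟪η, F g⟫_ℂ :=
  let ⟨_, hC⟩ := hF; bd_inner hC η

/-- Real part of the mean of a real function. -/
noncomputable def rI (m : Mean Γ) (f : Γ → ℝ) : ℝ := (m.I fun g => (f g : ℂ)).re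

lemma rI_mono (m : Mean Γ) {f f' : Γ → ℝ} (hf : BV f) (hf' : BV f') (h : ∀ g, f g ≤ f' g) :
    rI m f ≤ rI m f' := re_mono m hf.ofReal hf'.ofReal (by simpa using h)

lemma rI_const (m : Mean Γ) (c : ℝ) : rI m (fun _ => c) = c := by simp [rI, m.const]

lemma rI_add (m : Mean Γ) {f f' : Γ → ℝ} (hf : BV f) (hf' : BV f') :
    rI m (fun g => f g + f' g) = rI m f + rI m f' := by
  simp only [rI, Complex.ofReal_add, m.add _ _ hf.ofReal hf'.ofReal, Complex.add_re]

lemma rI_mul (m : Mean Γ) (c : ℝ) {f : Γ → ℝ} (hf : BV f) :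
    rI m (fun g => c * f g) = c * rI m f := by
  simp only [rI, Complex.ofReal_mul, m.smul _ _ hf.ofReal, Complex.re_ofReal_mul]

lemma rI_sum (m : Mean Γ) {ι : Type*} (s : Finset ι) {f : ι → Γ → ℝ} (hf : ∀ i ∈ s, BV (f i)) :
    rI m (fun g => ∑ i ∈ s, f i g) = ∑ i ∈ s, rI m (f i) := by
  simp only [rI, Complex.ofReal_sum, m.sum s fun i hi => (hf i hi).ofReal, Complex.re_sum]

lemma I_ofReal (m : Mean Γ) {f : Γ → ℝ} (hf : BV f) : m.I (fun g => (f g : ℂ)) = rI m f :=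
  Complex.ext (by simp [rI]) (by simpa using im_zero m hf.ofReal (by simp))

lemma bv_rI {Δ : Type*} (m : Mean Γ) {f : Δ → Γ → ℝ} {C : ℝ} (hf : ∀ d g, ‖f d g‖ ≤ C) :
    BV fun d => rI m (f d) :=
  ⟨C, fun d => (Complex.abs_re_le_norm _).trans (m.norm_le _ _ (by simpa using hf d))⟩

lemma rI_of_sq (m : Mean Γ) {f : Γ → ℝ} (hf : BV f) (h : rI m (fun g => f g ^ 2) ≤ 0) :
    rI m f ≤ 0 := by
  refine le_of_forall_pos_le_add fun ε hε => ?_
  have h1 := rI_mono m hf ((BV.const ε).add ((BV.const ε⁻¹).mul hf.sq)) fun g => by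
    have e : ε⁻¹ * f g ^ 2 = f g ^ 2 / ε := by ring
    have : f g - ε ≤ f g ^ 2 / ε := by
      rw [le_div_iff₀ hε]; nlinarith [sq_nonneg (f g - ε), sq_nonneg (f g)]
    linarith
  rw [rI_add m (BV.const ε) ((BV.const ε⁻¹).mul hf.sq), rI_const, rI_mul m _ hf.sq] at h1
  nlinarith [inv_pos.2 hε]

open Classical in
/-- Weak mean of a vector valued function. -/
noncomputable def vm (m : Mean Γ) (F : Γ → E) : E :=
  if h : BV F then (exists_vec m F h.choose h.choose_spec).choose else 0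

lemma inner_vm (m : Mean Γ) {F : Γ → E} (hF : BV F) (η : E) :
    ⟪η, vm m F⟫_ℂ = m.I fun g => ⟪η, F g⟫_ℂ := by
  rw [vm, dif_pos hF]
  exact (exists_vec m F hF.choose hF.choose_spec).choose_spec.1 η

omit [CompleteSpace E] in
lemma norm_le_of_re {x : E} {C : ℝ} (hC : 0 ≤ C) (h : (⟪x, x⟫_ℂ).re ≤ ‖x‖ * C) : ‖x‖ ≤ C := by
  have e : (⟪x, x⟫_ℂ).re = ‖x‖ ^ 2 := inner_self_eq_norm_sq (𝕜 := ℂ) x
  by_contra hc
  push Not at hc
  nlinarith

lemma norm_vm_le_rI (m : Mean Γ) {F : Γ → E} (hF : BV F) {f : Γ → ℝ} (hf : BV f)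
    (h : ∀ g, ‖F g‖ ≤ f g) : ‖vm m F‖ ≤ rI m f := by
  refine norm_le_of_re ?_ ?_
  · rw [← rI_const m 0]
    exact rI_mono m (BV.const _) hf fun g => (norm_nonneg _).trans (h g)
  · rw [inner_vm m hF, ← rI_mul m _ hf]
    refine re_mono m (hF.inner _) ((BV.const _).mul hf).ofReal fun g => ?_
    rw [Complex.ofReal_re]
    exact (Complex.re_le_norm _).trans ((norm_inner_le_norm _ _).trans 
      (mul_le_mul_of_nonneg_left (h g) (norm_nonneg _)))

lemma norm_vm_le (m : Mean Γ) {F : Γ → E} {C : ℝ} (h : ∀ g, ‖F g‖ ≤ C) : ‖vm m F‖ ≤ C := by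
  simpa [rI_const] using norm_vm_le_rI m ⟨C, h⟩ (BV.const C) h

lemma sq_vm_le (m : Mean Γ) {F : Γ → E} (hF : BV F) :
    ‖vm m F‖ ^ 2 ≤ rI m fun g => ‖F g‖ ^ 2 := by
  simpa [rI] using jensen m (fun _ : Unit => F) (fun _ => vm m F) (fun _ => hF)
    fun _ η => inner_vm m hF η

/-- The parallelogram lemma. -/
theorem de [Monoid Γ] {e : Mean Γ} (he : Absorbs e Set.univ) {W : Γ → E} (hW : BV W) (U : Γ) :
    rI e (fun k => ‖vm e (fun q => W (q * (U * k))) - vm e (fun q => W (q * k))‖) ≤ 0 := by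
  obtain ⟨C, hC⟩ := hW
  have ab : ∀ (v : Γ) (χ : Γ → ℂ), Bd χ → e.I (fun k => e.I fun κ => χ (κ * (v * k))) = e.I χ :=
    fun v χ hχ => by
      have := he (Mean.dirac v) trivial χ hχ
      obtain ⟨D, hD⟩ := hχ
      have h1 : ∀ k, (Mean.dirac v).I (fun w => e.I fun κ => χ (κ * w * k)) =
          e.I fun κ => χ (κ * v * k) := fun k =>
        Mean.dirac_I v ⟨D, fun _ => e.norm_le _ _ fun _ => hD _⟩
      simp only [h1] at this
      simpa only [mul_assoc] using this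
  have abr : ∀ (v : Γ) (f : Γ → ℝ), BV f → rI e (fun k => rI e fun κ => f (κ * (v * k))) = rI e f :=
    fun v f hf => by
      have h1 : ∀ k, BV fun κ => f (κ * (v * k)) := fun k => let ⟨D, hD⟩ := hf; ⟨D, fun _ => hD _⟩
      rw [rI, rI, ← ab v _ hf.ofReal]
      simp only [I_ofReal e (h1 _)]
  set w : Γ → E := fun g => vm e fun q => W (q * g) with hw
  have nw : ∀ g, ‖w g‖ ≤ C := fun g => norm_vm_le e fun _ => hC _
  have bw : ∀ φ : Γ → Γ, BV fun k => w (φ k) := fun φ => ⟨C, fun _ => nw _⟩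
  have h1 : ∀ v g, vm e (fun k => w (v * (k * g))) = w g := fun v g =>
    ext_inner_left ℂ fun η => by
      have b : ∀ g, BV fun q => W (q * g) := fun g => ⟨C, fun _ => hC _⟩
      rw [inner_vm e (bw _), hw, inner_vm e (b g), ← ab v _ ((b g).inner η)]
      simp only [inner_vm e (b _), mul_assoc]
  have h2 : ∀ v, rI e (fun k => ‖w (v * k)‖ ^ 2) ≤ rI e fun k => ‖w k‖ ^ 2 := fun v => by
    rw [← abr v _ (bw fun k => k).norm.sq]
    refine rI_mono e (bw _).norm.sq (bv_rI e (C := C ^ 2) fun d g => ?_) fun k => ?_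
    · rw [Real.norm_of_nonneg (by positivity)]
      exact pow_le_pow_left₀ (norm_nonneg _) (nw _) 2
    · have := sq_vm_le e (bw fun κ => 1 * (κ * (v * k)))
      rw [h1] at this
      simpa using this
  have bz : ∀ φ : Γ → Γ, BV fun k => w (U * φ k) + w (φ k) := fun φ => (bw _).add (bw _)
  have h3 : 4 * rI e (fun k => ‖w k‖ ^ 2) ≤ rI e fun k => ‖w (U * k) + w k‖ ^ 2 := by
    rw [← abr 1 _ (bz fun k => k).norm.sq, ← rI_mul e _ (bw fun k => k).norm.sq]
    refine rI_mono e ((BV.const _).mul (bw _).norm.sq)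
      (bv_rI e (C := (C + C) ^ 2) fun d g => ?_) fun g => ?_
    · rw [Real.norm_of_nonneg (by positivity)]
      exact pow_le_pow_left₀ (norm_nonneg _) ((norm_add_le _ _).trans (add_le_add (nw _) (nw _))) 2
    · have := sq_vm_le e (bz fun κ => κ * g)
      have e1 : vm e (fun k => w (U * (k * g)) + w (k * g)) = (2 : ℂ) • w g :=
        ext_inner_left ℂ fun η => by
          have := h1 1 g
          simp only [one_mul] at this
          rw [inner_vm e (bz _), two_smul, inner_add_right]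
          simp only [inner_add_right]
          rw [e.add _ _ ((bw _).inner η) ((bw _).inner η), ← inner_vm e (bw _),
            ← inner_vm e (bw _), h1, this]
      rw [e1, norm_smul, mul_pow] at this
      norm_num at this
      simpa using this
  have bd : BV fun k => w (U * k) - w k := (bw _).sub (bw fun k => k)
  refine rI_of_sq e bd.norm ?_
  have h4 : rI e (fun k => ‖w (U * k) + w k‖ ^ 2 + ‖w (U * k) - w k‖ ^ 2) =
      rI e fun k => 2 * (‖w (U * k)‖ ^ 2 + ‖w k‖ ^ 2) := by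
    congr 1; funext k
    have := parallelogram_law_with_norm ℂ (w (U * k)) (w k)
    nlinarith
  rw [rI_add e (bz fun k => k).norm.sq bd.norm.sq, rI_mul e _ ((bw _).norm.sq.add (bw fun k => k).norm.sq),
    rI_add e (bw _).norm.sq (bw fun k => k).norm.sq] at h4
  have := h2 U
  change rI e (fun k => ‖w (U * k) - w k‖ ^ 2) ≤ 0
  linarith

open Classical in
/-- Weak mean of an operator valued function. -/
noncomputable def om (m : Mean Γ) (F : Γ → E →L[ℂ] E) : E →L[ℂ] E :=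
  if h : BV F then (exists_op m F h.choose h.choose_spec).choose else 0

lemma inner_om (m : Mean Γ) {F : Γ → E →L[ℂ] E} (hF : BV F) (ξ η : E) :
    ⟪η, om m F ξ⟫_ℂ = m.I fun g => ⟪η, F g ξ⟫_ℂ := by
  rw [om, dif_pos hF]
  exact (exists_op m F hF.choose hF.choose_spec).choose_spec.1 ξ η

omit [CompleteSpace E] in
lemma BV.app {F : Γ → E →L[ℂ] E} (hF : BV F) (ξ : E) : BV fun g => F g ξ :=
  let ⟨C, hC⟩ := hF; ⟨C * ‖ξ‖, fun g => (F g).le_of_opNorm_le (hC g) ξ⟩

omit [CompleteSpace E] in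
lemma op_ext {a b : E →L[ℂ] E} (h : ∀ ξ η, ⟪η, a ξ⟫_ℂ = ⟪η, b ξ⟫_ℂ) : a = b :=
  ContinuousLinearMap.ext fun ξ => ext_inner_left ℂ (h ξ)

lemma norm_om_le (m : Mean Γ) {F : Γ → E →L[ℂ] E} {C : ℝ} (h : ∀ g, ‖F g‖ ≤ C) :
    ‖om m F‖ ≤ C := by
  obtain ⟨T, h1, h2⟩ := exists_op m F C h
  rwa [show om m F = T from op_ext fun ξ η => by rw [inner_om m ⟨C, h⟩, h1]]

lemma om_mem {S : Set (E →L[ℂ] E)} (m : Mean Γ) {F : Γ → E →L[ℂ] E} (hF : BV F)
    (h : ∀ g, F g ∈ vN S) : om m F ∈ vN S :=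
  let ⟨C, hC⟩ := id hF; mem_vN_of_mean m F C hC h (inner_om m hF)

lemma om_const (m : Mean Γ) (a : E →L[ℂ] E) : om m (fun _ => a) = a :=
  op_ext fun ξ η => by rw [inner_om m (BV.const a), m.const]

lemma om_sub (m : Mean Γ) {F G : Γ → E →L[ℂ] E} (hF : BV F) (hG : BV G) :
    om m (fun g => F g - G g) = om m F - om m G := op_ext fun ξ η => by
  rw [inner_om m (hF.sub hG), sub_apply, inner_sub_right, inner_om m hF, inner_om m hG,
    ← m.sub ((hF.app ξ).inner η) ((hG.app ξ).inner η)]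
  simp only [sub_apply, inner_sub_right]

lemma om_sum (m : Mean Γ) {ι : Type*} (s : Finset ι) (c : ι → ℂ) {F : ι → Γ → E →L[ℂ] E}
    (hF : ∀ i, BV (F i)) : om m (fun g => ∑ i ∈ s, c i • F i g) = ∑ i ∈ s, c i • om m (F i) :=
  op_ext fun ξ η => by
    rw [inner_om m (BV.sum s fun i _ => (hF i).smul _)]
    simp only [ContinuousLinearMap.sum_apply, smul_apply, inner_sum, inner_smul_right]
    rw [m.sum s fun i _ => (((hF i).app ξ).inner η).smul _]
    exact sum_congr rfl fun i _ => by rw [m.smul _ _ (((hF i).app ξ).inner η), inner_om m (hF i)]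

lemma mul_om (m : Mean Γ) (a : E →L[ℂ] E) {F : Γ → E →L[ℂ] E} (hF : BV F) :
    a * om m F = om m fun g => a * F g := op_ext fun ξ η => by
  rw [inner_om m ((BV.const a).mul hF), mul_apply_eq_comp,
    ← ContinuousLinearMap.adjoint_inner_left, inner_om m hF]
  simp only [mul_apply_eq_comp, ContinuousLinearMap.adjoint_inner_left]

lemma om_mul (m : Mean Γ) (a : E →L[ℂ] E) {F : Γ → E →L[ℂ] E} (hF : BV F) :
    om m F * a = om m fun g => F g * a := op_ext fun ξ η => by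
  rw [inner_om m (hF.mul (BV.const a)), mul_apply_eq_comp, inner_om m hF]
  rfl

section ev
variable {ι : Type} [Fintype ι]

/-- Evaluation at a finite family of vectors. -/
def ev (α : ι → E) : (E →L[ℂ] E) →ₗ[ℂ] PiLp 2 fun _ : ι => E where
  toFun x := WithLp.toLp 2 fun i => x (α i)
  map_add' _ _ := rfl
  map_smul' _ _ := rfl

omit [CompleteSpace E] in
lemma ev_sq (α : ι → E) (x : E →L[ℂ] E) : ‖ev α x‖ ^ 2 = ∑ i, ‖x (α i)‖ ^ 2 :=
  PiLp.norm_sq_eq_of_L2 _ _

omit [CompleteSpace E] in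
lemma ev_mul (α : ι → E) (x d : E →L[ℂ] E) : ‖ev α (x * d)‖ ≤ ‖x‖ * ‖ev α d‖ := by
  refine le_of_sq_le_sq ?_ (by positivity)
  rw [mul_pow, ev_sq, ev_sq, mul_sum]
  refine sum_le_sum fun i _ => ?_
  rw [← mul_pow]
  exact pow_le_pow_left₀ (norm_nonneg _) (x.le_opNorm _) 2

omit [CompleteSpace E] in
lemma BV.ev (α : ι → E) {F : Γ → E →L[ℂ] E} (hF : BV F) : BV fun g => ev α (F g) :=
  let ⟨C, hC⟩ := hF
  ⟨C * ‖LB.ev α 1‖, fun g => by
    have := ev_mul α (F g) 1
    rw [mul_one] at this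
    exact this.trans (by gcongr; exact hC g)⟩

lemma ev_om (α : ι → E) (m : Mean Γ) {F : Γ → E →L[ℂ] E} (hF : BV F) :
    ev α (om m F) = vm m fun g => ev α (F g) := ext_inner_left ℂ fun η => by
  rw [inner_vm m (hF.ev α)]
  simp only [PiLp.inner_apply]
  change ∑ i, ⟪η i, om m F (α i)⟫_ℂ = m.I fun g => ∑ i, ⟪η i, F g (α i)⟫_ℂ
  rw [m.sum _ fun i _ => (hF.app (α i)).inner (η i)]
  exact sum_congr rfl fun i _ => inner_om m hF _ _

end ev

end Vale.Agent.P096.LB
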