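import Vale.Agent.P082.Cob

/-! Newton iteration for perturbed multiplications. -/

namespace Vale.Agent.P096.N

open Vale.Agent.P082

section cob
variable {R : Type*} [Ring R]

theorem cob1 (g : (Fin 1 → R) → R) (a : Fin 2 → R) :
    cob 1 g a = a 0 * g ![a 1] - g ![a 0 * a 1] + g ![a 0] * a 1 := by
  have e1 : Fin.tail a = ![a 1] := by funext i; fin_cases i; rfl
  have e2 : Fin.init a = ![a 0] := by funext i; fin_cases i; rfl
  have e3 : Fin.contractNth (0 : Fin 1).castSucc (· * ·) a = ![a 0 * a 1] := by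
    funext i; fin_cases i; rfl
  simp only [cob, Fin.sum_univ_succ, Fin.sum_univ_zero, e1, e2, e3]
  simp [sub_eq_add_neg]

theorem cob2 (g : (Fin 2 → R) → R) (a : Fin 3 → R) :
    cob 2 g a = a 0 * g ![a 1, a 2] - g ![a 0 * a 1, a 2] + g ![a 0, a 1 * a 2] -
      g ![a 0, a 1] * a 2 := by
  have e1 : Fin.tail a = ![a 1, a 2] := by funext i; fin_cases i <;> rfl
  have e2 : Fin.init a = ![a 0, a 1] := by funext i; fin_cases i <;> rfl
  have e3 : Fin.contractNth (0 : Fin 2).castSucc (· * ·) a = ![a 0 * a 1, a 2] := by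
    funext i; fin_cases i <;> rfl
  have e4 : Fin.contractNth (1 : Fin 2).castSucc (· * ·) a = ![a 0, a 1 * a 2] := by
    funext i; fin_cases i <;> rfl
  simp only [cob, Fin.sum_univ_two, e1, e2, e3, e4]
  norm_num [sub_eq_add_neg, add_assoc]
  rfl

theorem cob3 (g : (Fin 3 → R) → R) (a : Fin 4 → R) :
    cob 3 g a = a 0 * g ![a 1, a 2, a 3] - g ![a 0 * a 1, a 2, a 3] + g ![a 0, a 1 * a 2, a 3] -
      g ![a 0, a 1, a 2 * a 3] + g ![a 0, a 1, a 2] * a 3 := by
  have e1 : Fin.tail a = ![a 1, a 2, a 3] := by funext i; fin_cases i <;> rfl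
  have e2 : Fin.init a = ![a 0, a 1, a 2] := by funext i; fin_cases i <;> rfl
  have e3 : Fin.contractNth (0 : Fin 3).castSucc (· * ·) a = ![a 0 * a 1, a 2, a 3] := by
    funext i; fin_cases i <;> rfl
  have e4 : Fin.contractNth (1 : Fin 3).castSucc (· * ·) a = ![a 0, a 1 * a 2, a 3] := by
    funext i; fin_cases i <;> rfl
  have e5 : Fin.contractNth (2 : Fin 3).castSucc (· * ·) a = ![a 0, a 1, a 2 * a 3] := by
    funext i; fin_cases i <;> rfl
  simp only [cob, Fin.sum_univ_three, e1, e2, e3, e4, e5]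
  norm_num [sub_eq_add_neg, add_assoc]
  rfl

end cob

variable {A : Type*} [CStarAlgebra A]

/-- quantitative vanishing in one degree -/
def QV (A : Type*) [CStarAlgebra A] (k : ℕ) : Prop :=
  ∀ φ : ContinuousMultilinearMap ℂ (fun _ : Fin (k + 1) => A) A, (∀ a, cob (k + 1) φ a = 0) →
    ∃ g : ContinuousMultilinearMap ℂ (fun _ : Fin k => A) A,
      ‖g‖ ≤ (k + 4) * ‖φ‖ ∧ ∀ a, φ a = cob k g a

/-- bilinear maps -/
structure Bil (f : A → A → A) : Prop where
  a1 : ∀ x y b, f (x + y) b = f x b + f y b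
  s1 : ∀ (c : ℂ) x b, f (c • x) b = c • f x b
  a2 : ∀ a x y, f a (x + y) = f a x + f a y
  s2 : ∀ (c : ℂ) a x, f a (c • x) = c • f a x

theorem Bil.n1 {f : A → A → A} (h : Bil f) (x y b : A) : f (x - y) b = f x b - f y b := by
  rw [sub_eq_add_neg, h.a1, ← neg_one_smul ℂ y, h.s1, neg_one_smul, sub_eq_add_neg]

theorem Bil.n2 {f : A → A → A} (h : Bil f) (a x y : A) : f a (x - y) = f a x - f a y := by
  rw [sub_eq_add_neg, h.a2, ← neg_one_smul ℂ y, h.s2, neg_one_smul, sub_eq_add_neg]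

theorem exists2 {f : A → A → A} (h : Bil f) {c : ℝ} (hc : 0 ≤ c)
    (hb : ∀ a b, ‖f a b‖ ≤ c * ‖a‖ * ‖b‖) :
    ∃ F : ContinuousMultilinearMap ℂ (fun _ : Fin 2 => A) A, ‖F‖ ≤ c ∧
      ∀ a, F a = f (a 0) (a 1) := by
  let G : MultilinearMap ℂ (fun _ : Fin 2 => A) A :=
    { toFun := fun a => f (a 0) (a 1)
      map_update_add' := fun a i x y => by fin_cases i <;> simp [h.a1, h.a2]
      map_update_smul' := fun a i c x => by fin_cases i <;> simp [h.s1, h.s2] }
  have hG : ∀ a, ‖G a‖ ≤ c * ∏ i, ‖a i‖ := fun a => by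
    rw [Fin.prod_univ_two, ← mul_assoc]; exact hb _ _
  exact ⟨G.mkContinuous c hG, G.mkContinuous_norm_le hc hG, fun a => rfl⟩

/-- the coboundary of a bilinear map -/
def d2 (f : A → A → A) (a b c : A) : A := a * f b c - f (a * b) c + f a (b * c) - f a b * c

theorem exists3 {f : A → A → A} (h : Bil f) {c : ℝ} (hc : 0 ≤ c)
    (hb : ∀ a b e, ‖d2 f a b e‖ ≤ c * ‖a‖ * ‖b‖ * ‖e‖) :
    ∃ F : ContinuousMultilinearMap ℂ (fun _ : Fin 3 => A) A, ‖F‖ ≤ c ∧
      ∀ a, F a = d2 f (a 0) (a 1) (a 2) := by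
  let G : MultilinearMap ℂ (fun _ : Fin 3 => A) A :=
    { toFun := fun a => d2 f (a 0) (a 1) (a 2)
      map_update_add' := by
        intro inst a i x y
        obtain rfl : inst = instDecidableEqFin 3 := Subsingleton.elim _ _
        fin_cases i <;> simp [d2, h.a1, h.a2, mul_add, add_mul] <;> abel
      map_update_smul' := by
        intro inst a i c x
        obtain rfl : inst = instDecidableEqFin 3 := Subsingleton.elim _ _
        fin_cases i <;> simp [d2, h.s1, h.s2, smul_add, smul_sub] }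
  have hG : ∀ a, ‖G a‖ ≤ c * ∏ i, ‖a i‖ := fun a => by
    rw [Fin.prod_univ_three, ← mul_assoc, ← mul_assoc]; exact hb _ _ _
  exact ⟨G.mkContinuous c hG, G.mkContinuous_norm_le hc hG, fun a => rfl⟩

theorem approx (q1 : QV A 1) (q2 : QV A 2) {f : A → A → A} (h : Bil f) {c ε : ℝ} (hc : 0 ≤ c)
    (hε : 0 ≤ ε) (hb : ∀ a b, ‖f a b‖ ≤ c * ‖a‖ * ‖b‖)
    (hd : ∀ a b e, ‖d2 f a b e‖ ≤ ε * ‖a‖ * ‖b‖ * ‖e‖) :
    ∃ g : A →L[ℂ] A, ‖g‖ ≤ 5 * (c + 6 * ε) ∧
      ∀ a b, ‖f a b - (a * g b - g (a * b) + g a * b)‖ ≤ 6 * ε * ‖a‖ * ‖b‖ := by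
  obtain ⟨F, nF, hF⟩ := exists2 h hc hb
  obtain ⟨Q, nQ, hQ⟩ := exists3 h hε hd
  obtain ⟨F1, n1, h1⟩ := q2 Q fun a => by
    rw [cob3]
    simp only [hQ, d2, Matrix.cons_val_zero, Matrix.cons_val_one, Matrix.cons_val, mul_assoc,
      mul_add, mul_sub, add_mul, sub_mul]
    abel
  obtain ⟨G, n2, h2⟩ := q1 (F - F1) fun a => by
    have := h1 a
    rw [cob2, hQ, d2] at this
    rw [cob2]
    simp only [sub_apply, hF, Matrix.cons_val_zero, Matrix.cons_val_one,
      mul_sub, sub_mul]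
    rw [← sub_eq_zero] at this
    rw [← this]
    abel
  have m1 : ‖F1‖ ≤ 6 * ε := n1.trans (by push_cast; linarith)
  refine ⟨continuousMultilinearCurryFin1 ℂ A A G, ?_, fun a b => ?_⟩
  · rw [LinearIsometryEquiv.norm_map]
    refine n2.trans ?_
    have := norm_sub_le F F1
    push_cast
    linarith
  · have e : ∀ x, continuousMultilinearCurryFin1 ℂ A A G x = G ![x] := fun x => by
      rw [continuousMultilinearCurryFin1_apply]
      congr 1
      funext i
      fin_cases i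
      rfl
    have := h2 ![a, b]
    rw [cob1, sub_apply, hF] at this
    simp only [Matrix.cons_val_zero, Matrix.cons_val_one] at this
    simp only [e]
    rw [← this, sub_sub_cancel]
    refine (F1.le_opNorm _).trans ?_
    rw [Fin.prod_univ_two, mul_assoc (6 * ε)]
    exact mul_le_mul_of_nonneg_right m1 (by positivity)

theorem symm {f : A → A → A} (hs : ∀ a b, star (f a b) = f (star b) (star a)) (g : A →L[ℂ] A)
    {ε : ℝ} (hg : ∀ a b, ‖f a b - (a * g b - g (a * b) + g a * b)‖ ≤ ε * ‖a‖ * ‖b‖) :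
    ∃ h : A →L[ℂ] A, ‖h‖ ≤ ‖g‖ ∧ (∀ a, h (star a) = star (h a)) ∧
      ∀ a b, ‖f a b - (a * h b - h (a * b) + h a * b)‖ ≤ ε * ‖a‖ * ‖b‖ := by
  let h0 : A →ₗ[ℂ] A :=
    { toFun := fun a => (2⁻¹ : ℂ) • (g a + star (g (star a)))
      map_add' := fun a b => by simp only [star_add, map_add, smul_add]; abel
      map_smul' := fun c a => by
        simp only [star_smul, map_smul, star_star, RingHom.id_apply, ← smul_add]
        rw [smul_comm] }
  have hb : ∀ a, ‖h0 a‖ ≤ ‖g‖ * ‖a‖ := fun a => by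
    change ‖(2⁻¹ : ℂ) • (g a + star (g (star a)))‖ ≤ _
    have h1 := g.le_opNorm a
    have h2 := g.le_opNorm (star a)
    have h3 := norm_add_le (g a) (star (g (star a)))
    rw [norm_star] at h2 h3
    rw [norm_smul, norm_inv, Complex.norm_two]
    linarith
  have e : ∀ a, h0.mkContinuous _ hb a = (2⁻¹ : ℂ) • (g a + star (g (star a))) := fun a => rfl
  refine ⟨h0.mkContinuous _ hb, h0.mkContinuous_norm_le (norm_nonneg _) hb, fun a => ?_,
    fun a b => ?_⟩
  · simp only [e, star_star, star_smul, star_add, add_comm]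
    simp
  · have h1 := hg a b
    have h2 := hg (star b) (star a)
    rw [← norm_star, norm_star a, norm_star b] at h2
    have e2 : f a b - (a * h0.mkContinuous _ hb b - h0.mkContinuous _ hb (a * b) +
        h0.mkContinuous _ hb a * b) = (2⁻¹ : ℂ) • ((f a b - (a * g b - g (a * b) + g a * b)) +
        star (f (star b) (star a) - (star b * g (star a) - g (star b * star a) +
          g (star b) * star a))) := by
      simp only [e, ← hs, star_sub, star_add, star_mul, star_star, mul_smul_comm, smul_mul_assoc,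
        mul_add, add_mul]
      module
    rw [e2, norm_smul, norm_inv, Complex.norm_two]
    have h3 := norm_add_le (f a b - (a * g b - g (a * b) + g a * b))
      (star (f (star b) (star a) - (star b * g (star a) - g (star b * star a) +
          g (star b) * star a)))
    linarith

theorem step0 (q1 : QV A 1) (q2 : QV A 2) {m : A → A → A} (hm : Bil m)
    (ha : ∀ a b c, m (m a b) c = m a (m b c)) (hs : ∀ a b, star (m a b) = m (star b) (star a))
    {φ : ℝ} (h0 : 0 ≤ φ) (h1 : φ ≤ 1 / 60) (hb : ∀ a b, ‖m a b - a * b‖ ≤ φ * ‖a‖ * ‖b‖) :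
    ∃ h : A →L[ℂ] A, ‖h‖ ≤ 6 * φ ∧ (∀ a, h (star a) = star (h a)) ∧
      ∀ a b, ‖m (a - h a) (b - h b) - (a * b - h (a * b))‖ ≤ 61 * φ ^ 2 * ‖a‖ * ‖b‖ := by
  obtain ⟨f, hf⟩ : ∃ f : A → A → A, ∀ a b, f a b = m a b - a * b := ⟨_, fun _ _ => rfl⟩
  have hf' : ∀ a b, m a b = a * b + f a b := fun a b => by rw [hf]; abel
  have fb : Bil f :=
    ⟨fun x y b => by simp only [hf, hm.a1, add_mul]; abel,
      fun c x b => by simp only [hf, hm.s1, smul_mul_assoc, smul_sub],
      fun a x y => by simp only [hf, hm.a2, mul_add]; abel,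
      fun c a x => by simp only [hf, hm.s2, mul_smul_comm, smul_sub]⟩
  simp only [← hf] at hb
  have hd : ∀ a b e, ‖d2 f a b e‖ ≤ 2 * φ ^ 2 * ‖a‖ * ‖b‖ * ‖e‖ := fun a b e => by
    have e1 : d2 f a b e = f (f a b) e - f a (f b e) := by
      have := ha a b e
      simp only [hf', fb.a1, fb.a2, add_mul, mul_add, mul_assoc] at this
      rw [← sub_eq_zero] at this
      rw [← sub_eq_zero, ← neg_eq_zero, ← this, d2]
      abel
    have e2 : ‖f (f a b) e‖ ≤ φ * (φ * ‖a‖ * ‖b‖) * ‖e‖ := (hb _ _).trans (by gcongr; exact hb _ _)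
    have e3 : ‖f a (f b e)‖ ≤ φ * ‖a‖ * (φ * ‖b‖ * ‖e‖) := (hb _ _).trans (by gcongr; exact hb _ _)
    rw [e1]
    refine (norm_sub_le _ _).trans ?_
    linarith
  obtain ⟨g, ng, hg⟩ := approx q1 q2 fb h0 (by positivity) hb hd
  obtain ⟨h, nh, sh, hh⟩ := symm (fun a b => by rw [hf, hf, star_sub, hs, star_mul]) g hg
  have n6 : ‖h‖ ≤ 6 * φ := by nlinarith
  refine ⟨h, n6, sh, fun a b => ?_⟩
  have e1 : m (a - h a) (b - h b) - (a * b - h (a * b)) =
      (f a b - (a * h b - h (a * b) + h a * b)) + h a * h b - f (h a) b - f (a - h a) (h b) := by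
    rw [hf', fb.n2, fb.n1 a (h a) b]
    noncomm_ring
  have b1 : ∀ x, ‖h x‖ ≤ 6 * φ * ‖x‖ := fun x => (h.le_opNorm x).trans (by gcongr)
  have b2 : ‖h a * h b‖ ≤ 6 * φ * ‖a‖ * (6 * φ * ‖b‖) :=
    (norm_mul_le _ _).trans (by gcongr <;> exact b1 _)
  have b3 : ‖f (h a) b‖ ≤ φ * (6 * φ * ‖a‖) * ‖b‖ := (hb _ _).trans (by gcongr; exact b1 _)
  have b4 : ‖a - h a‖ ≤ 11 / 10 * ‖a‖ := by
    have := norm_sub_le a (h a)
    nlinarith [b1 a, norm_nonneg a]
  have b5 : ‖f (a - h a) (h b)‖ ≤ φ * (11 / 10 * ‖a‖) * (6 * φ * ‖b‖) :=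
    (hb _ _).trans (by gcongr; exact b1 _)
  have b6 : 0 ≤ φ ^ 2 * ‖a‖ * ‖b‖ := by positivity
  rw [e1]
  refine (norm_sub_le _ _).trans ?_
  have c1 := norm_sub_le (f a b - (a * h b - h (a * b) + h a * b) + h a * h b) (f (h a) b)
  have c2 := norm_add_le (f a b - (a * h b - h (a * b) + h a * b)) (h a * h b)
  linarith [hh a b]

end Vale.Agent.P096.N
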