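import Vale.Agent.P096.N1

/-! Newton iteration: convergence. -/

namespace Vale.Agent.P096.N

open Filter Topology

variable {A : Type*} [CStarAlgebra A]

theorem exists_inv {L : A →L[ℂ] A} (hL : ‖L - 1‖ ≤ 1 / 2) :
    ∃ R : A →L[ℂ] A, (∀ a, L (R a) = a) ∧ (∀ a, R (L a) = a) ∧ ∀ a, ‖R a‖ ≤ 2 * ‖a‖ := by
  have h1 : ‖1 - L‖ < 1 := by rw [norm_sub_rev]; linarith
  have h2 : IsUnit L := by simpa using (Units.oneSub _ h1).isUnit
  obtain ⟨u, rfl⟩ := h2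
  have e1 : ∀ a, (u : A →L[ℂ] A) ((u⁻¹ : (A →L[ℂ] A)ˣ).1 a) = a := fun a =>
    congrArg (fun T : A →L[ℂ] A => T a) u.mul_inv
  refine ⟨(u⁻¹ : (A →L[ℂ] A)ˣ).1, e1, fun a => congrArg (fun T : A →L[ℂ] A => T a) u.inv_mul,
    fun a => ?_⟩
  set b := (u⁻¹ : (A →L[ℂ] A)ˣ).1 a
  have h3 : ‖((u : A →L[ℂ] A) - 1) b‖ ≤ 1 / 2 * ‖b‖ :=
    (ContinuousLinearMap.le_opNorm _ _).trans (by gcongr)
  have h4 : b = a - ((u : A →L[ℂ] A) - 1) b := by
    rw [sub_apply, e1, one_apply_eq_self, sub_sub_cancel]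
  have h5 := norm_sub_le a (((u : A →L[ℂ] A) - 1) b)
  rw [← h4] at h5
  linarith

/-- the invariant of the iteration -/
def Inv (m : A → A → A) (L : A →L[ℂ] A) (η : ℝ) : Prop :=
  (∀ a, L (star a) = star (L a)) ∧ ∀ a b, ‖m (L a) (L b) - L (a * b)‖ ≤ η * ‖a‖ * ‖b‖

theorem step (q1 : QV A 1) (q2 : QV A 2) {m : A → A → A} (hm : Bil m)
    (ha : ∀ a b c, m (m a b) c = m a (m b c)) (hs : ∀ a b, star (m a b) = m (star b) (star a))
    {L : A →L[ℂ] A} (hL : ‖L - 1‖ ≤ 1 / 2) {η : ℝ} (h0 : 0 ≤ η) (h1 : η ≤ 1 / 1000)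
    (h : Inv m L η) : ∃ L', Inv m L' (η / 2) ∧ ‖L' - L‖ ≤ 18 * η := by
  obtain ⟨R, r1, r2, r3⟩ := exists_inv hL
  have rs : ∀ a, R (star a) = star (R a) := fun a => by
    rw [← r2 (star (R a)), h.1, r1]
  have nL : ∀ a, ‖L a‖ ≤ 3 / 2 * ‖a‖ := fun a => by
    have h3 : ‖(L - 1) a‖ ≤ 1 / 2 * ‖a‖ := (ContinuousLinearMap.le_opNorm _ _).trans (by gcongr)
    have h4 : L a = (L - 1) a + a := by simp
    have h5 := norm_add_le ((L - 1) a) a
    rw [← h4] at h5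
    linarith
  obtain ⟨g, g1, g2, g3⟩ := step0 q1 q2 (m := fun a b => R (m (L a) (L b)))
    ⟨fun x y b => by simp only [map_add, hm.a1], fun c x b => by simp only [map_smul, hm.s1],
      fun a x y => by simp only [map_add, hm.a2], fun c a x => by simp only [map_smul, hm.s2]⟩
    (fun a b c => by simp only [r1, ha]) (fun a b => by simp only [← rs, hs, h.1])
    (φ := 2 * η) (by linarith) (by linarith) fun a b => by
      rw [← r2 (a * b), ← map_sub]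
      refine (r3 _).trans ?_
      have := h.2 a b
      linarith
  have e : ∀ a, (L * (1 - g)) a = L (a - g a) := fun a => rfl
  refine ⟨L * (1 - g), ⟨fun a => by rw [e, e, g2, ← star_sub, h.1], fun a b => ?_⟩, ?_⟩
  · rw [e, e, e, ← r1 (m _ _), ← map_sub]
    refine (nL _).trans ?_
    have h2 := g3 a b
    have h3 : 0 ≤ η * ‖a‖ * ‖b‖ := by positivity
    nlinarith
  · refine ContinuousLinearMap.opNorm_le_bound _ (by positivity) fun a => ?_
    rw [sub_apply, e, ← map_sub, sub_sub_cancel_left, map_neg, norm_neg]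
    refine (nL _).trans ?_
    have := (g.le_opNorm a).trans (mul_le_mul_of_nonneg_right g1 (norm_nonneg a))
    linarith

theorem newton (q1 : QV A 1) (q2 : QV A 2) {m : A → A → A} (hm : Bil m)
    (ha : ∀ a b c, m (m a b) c = m a (m b c)) (hs : ∀ a b, star (m a b) = m (star b) (star a))
    {η : ℝ} (h0 : 0 ≤ η) (h1 : η ≤ 1 / 1000) (hb : ∀ a b, ‖m a b - a * b‖ ≤ η * ‖a‖ * ‖b‖) :
    ∃ L : A →L[ℂ] A, ‖L - 1‖ ≤ 36 * η ∧ (∀ a, L (star a) = star (L a)) ∧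
      ∀ a b, m (L a) (L b) = L (a * b) := by
  have key : ∀ (n : ℕ) (L : A →L[ℂ] A), ∃ L', Inv m L (η / 2 ^ n) →
      ‖L - 1‖ ≤ 36 * η - 36 * (η / 2 ^ n) →
      Inv m L' (η / 2 ^ (n + 1)) ∧ ‖L' - L‖ ≤ 18 * (η / 2 ^ n) := by
    intro n L
    by_cases h : Inv m L (η / 2 ^ n) ∧ ‖L - 1‖ ≤ 36 * η - 36 * (η / 2 ^ n)
    · have p0 : 0 ≤ η / 2 ^ n := by positivity
      have p1 : η / 2 ^ n ≤ η := div_le_self h0 (one_le_pow₀ one_le_two)
      obtain ⟨L', h2, h3⟩ := step q1 q2 hm ha hs (L := L) (by linarith [h.2]) p0 (by linarith) h.1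
      exact ⟨L', fun _ _ => ⟨by rwa [pow_succ, ← div_div], h3⟩⟩
    · exact ⟨L, fun h2 h3 => absurd ⟨h2, h3⟩ h⟩
  choose F hF using key
  let s : ℕ → A →L[ℂ] A := fun n => Nat.rec 1 (fun n L => F n L) n
  have s1 : ∀ n, s (n + 1) = F n (s n) := fun n => rfl
  have hs0 : ∀ n, Inv m (s n) (η / 2 ^ n) ∧ ‖s n - 1‖ ≤ 36 * η - 36 * (η / 2 ^ n) := by
    intro n
    induction n with
    | zero => exact ⟨⟨fun a => rfl, by simpa [s] using hb⟩, by simp [s]⟩
    | succ n ih =>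
      obtain ⟨h2, h3⟩ := hF n (s n) ih.1 ih.2
      refine ⟨h2, ?_⟩
      have := norm_sub_le_norm_sub_add_norm_sub (F n (s n)) (s n) 1
      rw [s1, pow_succ, ← div_div]
      linarith [ih.2]
  have hc : CauchySeq s := cauchySeq_of_le_geometric_two (C := 36 * η) fun n => by
    rw [dist_comm, dist_eq_norm, s1]
    refine (hF n (s n) (hs0 n).1 (hs0 n).2).2.trans_eq ?_
    ring
  obtain ⟨L, hL⟩ := cauchySeq_tendsto_of_complete hc
  have ev : ∀ a, Tendsto (fun n => s n a) atTop (𝓝 (L a)) := fun a =>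
    ((ContinuousLinearMap.apply ℂ A a).continuous.tendsto L).comp hL
  have mb : ∀ a b, ‖m a b‖ ≤ 2 * ‖a‖ * ‖b‖ := fun a b => by
    have h2 := norm_add_le (m a b - a * b) (a * b)
    rw [sub_add_cancel] at h2
    have h3 : 0 ≤ ‖a‖ * ‖b‖ := by positivity
    nlinarith [hb a b, norm_mul_le a b]
  let M := LinearMap.mkContinuous₂ (LinearMap.mk₂ ℂ m hm.a1 hm.s1 hm.a2 hm.s2) 2 mb
  refine ⟨L, ?_, fun a => ?_, fun a b => ?_⟩
  · refine le_of_tendsto' (hL.sub_const 1).norm fun n => (hs0 n).2.trans ?_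
    have : 0 ≤ η / 2 ^ n := by positivity
    linarith
  · refine tendsto_nhds_unique (ev _) ?_
    simp only [(hs0 _).1.1]
    exact (ev a).star
  · have t1 : Tendsto (fun n => m (s n a) (s n b)) atTop (𝓝 (m (L a) (L b))) :=
      (M.continuous₂.tendsto (L a, L b)).comp ((ev a).prodMk_nhds (ev b))
    have t2 : Tendsto (fun n : ℕ => η / 2 ^ n * ‖a‖ * ‖b‖) atTop (𝓝 (0 * ‖a‖ * ‖b‖)) :=
      ((tendsto_const_nhds.div_atTop (tendsto_pow_atTop_atTop_of_one_lt one_lt_two)).mul_const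
        _).mul_const _
    have := le_of_tendsto_of_tendsto' (t1.sub (ev (a * b))).norm t2 fun n => (hs0 n).1.2 a b
    rw [zero_mul, zero_mul, norm_le_zero_iff, sub_eq_zero] at this
    exact this

end Vale.Agent.P096.N
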