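import Vale.Agent.P096.LB1

/-! Relation preserving selections on the unitary group. -/

namespace Vale.Agent.P096

open scoped InnerProductSpace ComplexOrder
open Vale.Agent.P104 Vale.Agent.P082 Finset Filter

variable {H : Type*} [NormedAddCommGroup H] [InnerProductSpace ℂ H] [CompleteSpace H]
variable {S S' : Set (H →L[ℂ] H)}

namespace LB

lemma mul_le {R : Type*} [NormedRing R] {a b : R} {x y : ℝ} (ha : ‖a‖ ≤ x) (hb : ‖b‖ ≤ y) :
    ‖a * b‖ ≤ x * y :=
  (norm_mul_le _ _).trans (mul_le_mul ha hb (norm_nonneg _) ((norm_nonneg _).trans ha))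

lemma add3 {R : Type*} [NormedRing R] {a b c d : R} {x y z : ℝ} (ha : ‖a‖ ≤ x) (hb : ‖b‖ ≤ y)
    (hc : ‖c‖ ≤ z) (h : d = a + b + c) : ‖d‖ ≤ x + y + z :=
  h ▸ (norm_add₃_le).trans (add_le_add (add_le_add ha hb) hc)

/-- The data of the iteration. -/
structure Ctx (S' : Set (H →L[ℂ] H)) (G : Type*) [Group G] (ι : Type) [Fintype ι] where
  u : G → H →L[ℂ] H
  s0 : G → H →L[ℂ] H
  p : H →L[ℂ] H
  α : ι → H
  δ : ℝ
  e : Mean G
  he : Absorbs e Set.univ
  u_mul : ∀ g h, u (g * h) = u g * u h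
  u_star : ∀ g, u g * star (u g) = 1
  star_u : ∀ g, star (u g) * u g = 1
  nu : ∀ g, ‖u g‖ ≤ 1
  mem : ∀ g, s0 g ∈ vN S'
  near : ∀ g, ‖s0 g - u g‖ ≤ δ
  hp : IsCentral S' p
  hK : ∀ d ∈ vN S', ∀ b ∈ vN S', ‖ev α (d * b)‖ ≤ 2 * ‖b‖ * ‖ev α d‖
  hf : ∀ d ∈ vN S', ev α d = 0 → d * p = 0
  h0 : 0 ≤ δ
  h1 : δ ≤ 1 / 10 ^ 8

namespace Ctx
variable {G : Type*} [Group G] {ι : Type} [Fintype ι] (c : Ctx S' G ι)

/-- Approximately relation preserving selections. -/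
structure Sel (s : G → H →L[ℂ] H) (η : ℝ) : Prop where
  mem : ∀ g, s g ∈ vN S'
  near : ∀ g, ‖s g - c.u g * c.p‖ ≤ 1000 * c.δ
  rel : ∀ (t : Finset G) (a : G → ℂ) (φ : G → G), ∑ j ∈ t, a j • c.u (φ j) = 0 →
    ‖ev c.α (∑ j ∈ t, a j • s (φ j))‖ ≤ η * ∑ j ∈ t, ‖a j‖

lemma np : ‖c.p‖ ≤ 1 := c.hp.2.1.norm_le

lemma pp : c.p * c.p = c.p := c.hp.2.1.isIdempotentElem

lemma ns0 (g : G) : ‖c.s0 g‖ ≤ 2 := by
  have := norm_add_le (c.s0 g - c.u g) (c.u g)
  rw [sub_add_cancel] at this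
  linarith [c.near g, c.nu g, c.h1]

lemma nst (g : G) : ‖star (c.s0 g)‖ ≤ 2 := by rw [norm_star]; exact c.ns0 g

lemma nsu (g : G) : ‖star (c.u g)‖ ≤ 1 := by rw [norm_star]; exact c.nu g

lemma near' (g : G) : ‖star (c.s0 g) - star (c.u g)‖ ≤ c.δ := by
  rw [← star_sub, norm_star]; exact c.near g

lemma u_back (q g : G) : c.u g * star (c.u (q * g)) = star (c.u q) := by
  rw [c.u_mul, star_mul, ← mul_assoc, c.u_star, one_mul]

lemma sel0 : c.Sel (fun g => c.s0 g * c.p) (c.δ * ‖ev c.α c.p‖) where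
  mem g := mul_mem (c.mem g) c.hp.1
  near g := by
    rw [← sub_mul]
    linarith [mul_le (c.near g) c.np, c.h0]
  rel t a φ h := by
    have : ∑ j ∈ t, a j • (c.s0 (φ j) * c.p) =
        ∑ j ∈ t, a j • ((c.s0 (φ j) - c.u (φ j)) * c.p) := by
      simp only [sub_mul, smul_sub, sum_sub_distrib, ← smul_mul_assoc (a _) (c.u _), ← sum_mul, h]
      simp
    rw [this, map_sum, mul_sum]
    refine norm_sum_le_of_le _ fun j _ => ?_
    rw [map_smul, norm_smul, mul_comm]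
    gcongr
    exact (ev_mul _ _ _).trans (by gcongr; exact c.near _)

variable {c} {s : G → H →L[ℂ] H} {η : ℝ}

lemma Sel.ns (h : c.Sel s η) (g : G) : ‖s g‖ ≤ 2 := by
  have := norm_add_le (s g - c.u g * c.p) (c.u g * c.p)
  rw [sub_add_cancel] at this
  linarith [h.near g, mul_le (c.nu g) c.np, c.h1]

/-- First average. -/
noncomputable def F (c : Ctx S' G ι) (s : G → H →L[ℂ] H) (g : G) : H →L[ℂ] H :=
  om c.e fun q => star (c.s0 q) * s (q * g)

/-- Second average. -/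
noncomputable def L (c : Ctx S' G ι) (s : G → H →L[ℂ] H) (g : G) : H →L[ℂ] H :=
  om c.e fun k => c.F s (g * k) * star (c.s0 k)

lemma Sel.nF (h : c.Sel s η) (g : G) : ‖c.F s g‖ ≤ 2 * 2 :=
  norm_om_le _ fun _ => mul_le (c.nst _) (h.ns _)

lemma Sel.bF (h : c.Sel s η) (g : G) : BV fun q => star (c.s0 q) * s (q * g) :=
  ⟨_, fun _ => mul_le (c.nst _) (h.ns _)⟩

lemma Sel.bL (h : c.Sel s η) (g : G) : BV fun k => c.F s (g * k) * star (c.s0 k) :=
  ⟨_, fun _ => mul_le (h.nF _) (c.nst _)⟩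

lemma Sel.mF (h : c.Sel s η) (g : G) : c.F s g ∈ vN S' :=
  om_mem _ (h.bF g) fun _ => mul_mem (star_mem (c.mem _)) (h.mem _)

lemma Sel.mL (h : c.Sel s η) (g : G) : c.L s g ∈ vN S' :=
  om_mem _ (h.bL g) fun _ => mul_mem (h.mF _) (star_mem (c.mem _))

lemma de_op {W : G → H →L[ℂ] H} (hW : BV W) (U : G) :
    rI c.e (fun k => ‖ev c.α (om c.e (fun q => W (q * (U * k))) - om c.e fun q => W (q * k))‖)
      ≤ 0 := by
  have b : ∀ g, BV fun q => W (q * g) := fun g => let ⟨C, hC⟩ := hW; ⟨C, fun _ => hC _⟩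
  simp only [map_sub, ev_om _ _ (b _)]
  exact de c.he (hW.ev c.α) U

lemma Sel.mod (h : c.Sel s η) (U : G) : ‖(c.L s U - c.s0 U * c.L s 1) * c.p‖ ≤ 80 * c.δ := by
  have h0 := c.h0
  set W : G → H →L[ℂ] H := fun x => star (c.s0 x) * s x with hW
  have nW : ∀ x, ‖W x‖ ≤ 2 * 2 := fun _ => mul_le (c.nst _) (h.ns _)
  have bW : ∀ g, BV fun q => W (q * g) := fun g => ⟨_, fun _ => nW _⟩
  set w : G → H →L[ℂ] H := fun g => om c.e fun q => W (q * g) with hw
  have nw : ∀ g, ‖w g‖ ≤ 2 * 2 := fun g => norm_om_le _ fun _ => nW _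
  have mw : ∀ g, w g ∈ vN S' := fun g =>
    om_mem _ (bW g) fun _ => mul_mem (star_mem (c.mem _)) (h.mem _)
  have a1 : ∀ g, ‖c.F s g - c.s0 g * w g‖ ≤ 8 * c.δ := fun g => by
    rw [hw, mul_om _ _ (bW g), F, ← om_sub _ (h.bF g) ((BV.const _).mul (bW g))]
    refine norm_om_le _ fun q => ?_
    have e1 := add3 (c.near' q) (mul_le ((norm_sub_rev _ _).trans_le (c.near g)) (c.nst (q * g)))
      (mul_le (c.nu g) ((norm_sub_rev _ _).trans_le (c.near' (q * g))))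
      (d := star (c.s0 q) - c.s0 g * star (c.s0 (q * g))) (by rw [← c.u_back q g]; noncomm_ring)
    have e2 := mul_le e1 (h.ns (q * g))
    rw [sub_mul, mul_assoc] at e2
    exact e2.trans_eq (by ring)
  have a2 : ∀ k, ‖c.s0 (U * k) - c.s0 U * c.s0 k‖ ≤ 4 * c.δ := fun k =>
    (add3 (c.near (U * k)) (mul_le ((norm_sub_rev _ _).trans_le (c.near U)) (c.ns0 k))
      (mul_le (c.nu U) ((norm_sub_rev _ _).trans_le (c.near k)))
      (by rw [c.u_mul]; noncomm_ring)).trans_eq (by ring)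
  set N : G → H →L[ℂ] H := fun k => c.s0 (U * k) * ((w (U * k) - w k) * star (c.s0 k)) with hN
  have bw : BV fun k => w (U * k) - w k := BV.sub ⟨_, fun _ => nw _⟩ ⟨_, fun _ => nw _⟩
  have bN : BV N := BV.mul ⟨_, fun _ => c.ns0 _⟩ (bw.mul ⟨_, fun _ => c.nst _⟩)
  have z : om c.e N * c.p = 0 := by
    refine c.hf _ (om_mem _ bN fun k => mul_mem (c.mem _) (mul_mem (sub_mem (mw _) (mw _))
      (star_mem (c.mem _)))) (norm_le_zero_iff.1 ?_)
    rw [ev_om _ _ bN]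
    refine (norm_vm_le_rI c.e (bN.ev _) ((BV.const 8).mul (bw.ev c.α).norm) fun k => ?_).trans ?_
    · have e1 := c.hK _ (sub_mem (mw (U * k)) (mw k)) _ (star_mem (c.mem k))
      have e2 := c.nst k
      have e3 := c.ns0 (U * k)
      refine (ev_mul _ _ _).trans ?_
      calc _ ≤ 2 * (2 * 2 * ‖ev c.α (w (U * k) - w k)‖) := by gcongr; exact e1.trans (by gcongr)
        _ = _ := by ring
    · rw [rI_mul _ _ (bw.ev c.α).norm]
      have := de_op (c := c) ⟨_, nW⟩ U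
      linarith
  have : (c.L s U - c.s0 U * c.L s 1) * c.p = (c.L s U - c.s0 U * c.L s 1 - om c.e N) * c.p := by
    rw [sub_mul _ (om _ _), z, sub_zero]
  rw [this, L, L, mul_om _ _ (h.bL 1), ← om_sub _ (h.bL U) ((BV.const _).mul (h.bL 1)),
    ← om_sub _ ((h.bL U).sub ((BV.const _).mul (h.bL 1))) bN, ← mul_one (80 * c.δ)]
  refine mul_le (norm_om_le _ fun k => ?_) c.np
  have e1 := add3 (a1 (U * k)) (mul_le (a2 k) (nw k))
    (mul_le (c.ns0 U) ((norm_sub_rev _ _).trans_le (a1 k))) rfl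
  refine (le_of_eq ?_).trans ((mul_le e1 (c.nst k)).trans_eq (by ring))
  simp only [hN, one_mul]
  congr 1
  noncomm_ring

lemma Sel.one (h : c.Sel s η) : ‖c.L s 1 * c.p - c.p‖ ≤ 2005 * c.δ := by
  have a1 : ∀ k, ‖c.F s k - c.u k * c.p‖ ≤ 1002 * c.δ := fun k => by
    rw [F, ← om_const c.e (c.u k * c.p), ← om_sub _ (h.bF k) (BV.const _)]
    refine norm_om_le _ fun q => ?_
    have e : star (c.s0 q) * s (q * k) - c.u k * c.p =
        (star (c.s0 q) - star (c.u q)) * s (q * k) +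
          star (c.u q) * (s (q * k) - c.u (q * k) * c.p) := by
      rw [c.u_mul, mul_sub, ← mul_assoc, ← mul_assoc, c.star_u]; noncomm_ring
    rw [e]
    exact ((norm_add_le _ _).trans (add_le_add (mul_le (c.near' q) (h.ns _))
      (mul_le (c.nsu q) (h.near _)))).trans_eq (by ring)
  rw [L, om_mul _ _ (h.bL 1), ← om_const c.e c.p, ← om_sub _ _ (BV.const _), om_const]
  · refine norm_om_le _ fun k => ?_
    have e : c.F s (1 * k) * star (c.s0 k) * c.p - c.p =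
        (c.F s k - c.u k * c.p) * star (c.s0 k) * c.p +
          c.u k * (star (c.s0 k) - star (c.u k)) * c.p := by
      have e1 : c.u k * c.p * star (c.s0 k) * c.p = c.u k * star (c.s0 k) * c.p := by
        rw [mul_assoc (c.u k), c.hp.2.2 _ (star_mem (c.mem k)), mul_assoc, mul_assoc, c.pp,
          mul_assoc]
      rw [one_mul, sub_mul, sub_mul, e1, mul_sub, c.u_star]; noncomm_ring
    rw [e]
    exact ((norm_add_le _ _).trans (add_le_add (mul_le (mul_le (a1 k) (c.nst k)) c.np)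
      (mul_le (mul_le (c.nu k) (c.near' k)) c.np))).trans_eq (by ring)
  · exact (h.bL 1).mul (BV.const _)

lemma Sel.lin (h : c.Sel s η) (t : Finset G) (a : G → ℂ) (φ : G → G)
    (hr : ∑ j ∈ t, a j • c.u (φ j) = 0) :
    ‖ev c.α (∑ j ∈ t, a j • c.L s (φ j))‖ ≤ 4 * (c.δ * (η * ∑ j ∈ t, ‖a j‖)) := by
  set W : G → H →L[ℂ] H := fun x => star (c.u x) * s x with hW
  have nW : ∀ x, ‖W x‖ ≤ 1 * 2 := fun _ => mul_le (c.nsu _) (h.ns _)
  have bW : ∀ g, BV fun q => W (q * g) := fun g => ⟨_, fun _ => nW _⟩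
  set w : G → H →L[ℂ] H := fun g => om c.e fun q => W (q * g) with hw
  have nw : ∀ g, ‖w g‖ ≤ 1 * 2 := fun g => norm_om_le _ fun _ => nW _
  have bw : ∀ U, BV fun k => ‖ev c.α (w (U * k) - w k)‖ := fun U =>
    ((BV.sub ⟨_, fun _ => nw _⟩ ⟨_, fun _ => nw _⟩).ev c.α).norm
  have bD : ∀ g, BV fun q => (star (c.s0 q) - star (c.u q)) * s (q * g) := fun g =>
    ⟨_, fun _ => mul_le (c.near' _) (h.ns _)⟩
  have a1 : ∀ g, c.F s g = om c.e (fun q => (star (c.s0 q) - star (c.u q)) * s (q * g)) +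
      c.u g * w g := fun g => by
    rw [← sub_eq_iff_eq_add, hw, mul_om _ _ (bW g), F,
      ← om_sub _ (h.bF g) ((BV.const _).mul (bW g))]
    simp only [hW, ← mul_assoc, c.u_back, sub_mul]
  have a2 : ∀ k, ‖ev c.α (∑ j ∈ t, a j • c.F s (φ j * k))‖ ≤ c.δ * (η * ∑ j ∈ t, ‖a j‖) +
      ∑ j ∈ t, ‖a j‖ * ‖ev c.α (w (φ j * k) - w k)‖ := fun k => by
    have e1 : ∑ j ∈ t, a j • (c.u (φ j * k) * w (φ j * k)) =
        ∑ j ∈ t, a j • (c.u (φ j * k) * (w (φ j * k) - w k)) := by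
      simp only [mul_sub, smul_sub, sum_sub_distrib, c.u_mul, mul_assoc,
        ← smul_mul_assoc (a _) (c.u _) (c.u k * w k), ← sum_mul, hr]
      simp
    simp only [a1, smul_add, sum_add_distrib]
    rw [e1, map_add, ← om_sum _ _ _ fun j => bD (φ j * k),
      ev_om _ _ (BV.sum _ fun j _ => (bD (φ j * k)).smul _)]
    refine (norm_add_le _ _).trans (add_le_add (norm_vm_le _ fun q => ?_) ?_)
    · simp only [← mul_smul_comm, ← mul_sum]
      refine (ev_mul _ _ _).trans (mul_le_mul (c.near' q) (h.rel t a _ ?_) (norm_nonneg _) c.h0)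
      simp only [c.u_mul, ← mul_smul_comm, ← mul_sum, ← smul_mul_assoc (a _) (c.u _) (c.u k),
        ← sum_mul, hr]
      simp
    · rw [map_sum]
      refine norm_sum_le_of_le _ fun j _ => ?_
      rw [map_smul, norm_smul]
      gcongr
      exact (ev_mul _ _ _).trans (mul_le_of_le_one_left (norm_nonneg _) (c.nu _))
  have b1 : BV fun k => ∑ j ∈ t, ‖a j‖ * ‖ev c.α (w (φ j * k) - w k)‖ :=
    BV.sum _ fun j _ => (BV.const _).mul (bw _)
  have b2 := BV.sum t fun j _ => (h.bL (φ j)).smul (a j)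
  simp only [L]
  rw [← om_sum _ _ _ fun j => h.bL (φ j), ev_om _ _ b2]
  refine (norm_vm_le_rI c.e (b2.ev _) ((BV.const 4).mul ((BV.const
    (c.δ * (η * ∑ j ∈ t, ‖a j‖))).add b1)) fun k => ?_).trans ?_
  · simp only [← smul_mul_assoc, ← sum_mul]
    refine (c.hK _ (sum_mem fun j _ => SMulMemClass.smul_mem _ (h.mF _)) _
      (star_mem (c.mem k))).trans ?_
    have e2 := c.nst k
    exact (mul_le_mul (by linarith) (a2 k) (norm_nonneg _) (by norm_num))
  · rw [rI_mul _ _ ((BV.const _).add b1), rI_add _ (BV.const _) b1, rI_const,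
      rI_sum _ _ fun j _ => (BV.const _).mul (bw _)]
    have : ∑ j ∈ t, rI c.e (fun k => ‖a j‖ * ‖ev c.α (w (φ j * k) - w k)‖) ≤ 0 :=
      sum_nonpos fun j _ => by
        rw [rI_mul _ _ (bw _)]
        exact mul_nonpos_of_nonneg_of_nonpos (norm_nonneg _) (de_op (c := c) ⟨_, nW⟩ _)
    linarith

lemma Sel.step (h : c.Sel s η) (hη : 0 ≤ η) : ∃ s', c.Sel s' (η / 2) := by
  have h0 := c.h0
  have h1 := c.h1
  set m := c.L s 1 with hm
  have mm : m ∈ vN S' := h.mL 1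
  have cm : c.p * m = m * c.p := c.hp.2.2 _ mm
  set n := c.p - (m * c.p - c.p) with hn
  have mn : n ∈ vN S' := sub_mem c.hp.1 (sub_mem (mul_mem mm c.hp.1) c.hp.1)
  have nn : ‖n‖ ≤ 2 := (norm_sub_le _ _).trans (by linarith [c.np, h.one])
  have pn : c.p * n = n := by rw [hn, mul_sub, mul_sub, ← mul_assoc, cm, mul_assoc, c.pp]
  refine ⟨fun U => c.L s U * n, fun U => mul_mem (h.mL U) mn, fun U => ?_, fun t a φ hr => ?_⟩
  · have e : c.p - m * n = (m * c.p - c.p) * (m * c.p - c.p) := by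
      have e2 : c.p * (m * c.p - c.p) = m * c.p - c.p := by
        rw [mul_sub, ← mul_assoc, cm, mul_assoc, c.pp]
      rw [sub_mul, mul_assoc, e2, hn]
      noncomm_ring
    have e1 := add3 (mul_le (h.mod U) nn)
      (mul_le (c.ns0 U) ((norm_sub_rev (m * n) c.p).trans_le (e ▸ mul_le h.one h.one)))
      (mul_le (c.near U) c.np) (d := c.L s U * n - c.u U * c.p)
      (by rw [mul_assoc _ c.p n, pn]; noncomm_ring)
    nlinarith
  · simp only [← smul_mul_assoc, ← sum_mul]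
    refine (c.hK _ (sum_mem fun j _ => SMulMemClass.smul_mem _ (h.mL _)) _ mn).trans ?_
    have e1 := h.lin t a φ hr
    have e2 : 0 ≤ η * ∑ j ∈ t, ‖a j‖ := by positivity
    calc _ ≤ 2 * 2 * (4 * (c.δ * (η * ∑ j ∈ t, ‖a j‖))) := by gcongr
      _ ≤ _ := by nlinarith

lemma exists_sel (c : Ctx S' G ι) : ∃ s : G → H →L[ℂ] H, (∀ g, s g ∈ vN S') ∧
    (∀ g, ‖s g - c.u g * c.p‖ ≤ 1000 * c.δ) ∧ ∀ (t : Finset G) (a : G → ℂ),
      ∑ j ∈ t, a j • c.u j = 0 → ∑ j ∈ t, a j • s j = 0 := by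
  set η := c.δ * ‖ev c.α c.p‖
  have hη : 0 ≤ η := mul_nonneg c.h0 (norm_nonneg _)
  have : ∀ n : ℕ, ∃ s, c.Sel s (η * (1 / 2) ^ n) := fun n => by
    induction n with
    | zero => exact ⟨_, by simpa using c.sel0⟩
    | succ n ih =>
      obtain ⟨s, hs⟩ := ih
      obtain ⟨s', hs'⟩ := hs.step (by positivity)
      exact ⟨s', by rwa [pow_succ, ← mul_assoc, mul_one_div]⟩
  choose s hs using this
  obtain ⟨m, hm⟩ := exists_mean_filter (atTop : Filter ℕ)
  have b : ∀ g, BV fun n => s n g := fun g => ⟨2, fun n => (hs n).ns g⟩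
  have mm : ∀ g, om m (fun n => s n g) ∈ vN S' := fun g => om_mem _ (b g) fun n => (hs n).mem g
  refine ⟨fun g => om m (fun n => s n g) * c.p, fun g => mul_mem (mm g) c.hp.1, fun g => ?_,
    fun t a hr => ?_⟩
  · nth_rewrite 2 [← c.pp]
    rw [← mul_assoc, ← sub_mul, ← mul_one (1000 * c.δ), ← om_const m (c.u g * c.p),
      ← om_sub _ (b g) (BV.const _)]
    exact mul_le (norm_om_le _ fun n => (hs n).near g) c.np
  · simp only [← smul_mul_assoc, ← sum_mul]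
    refine c.hf _ (sum_mem fun j _ => SMulMemClass.smul_mem _ (mm _)) ?_
    have b2 := BV.sum t fun j _ => (b j).smul (a j)
    rw [← om_sum _ _ _ b, ev_om _ _ b2]
    refine norm_le_zero_iff.1 (le_of_forall_pos_le_add fun ε hε => norm_le_of_re (by linarith) ?_)
    rw [inner_vm _ (b2.ev _)]
    refine (Complex.re_le_norm _).trans (hm _ ((b2.ev _).inner _) _ ?_)
    have lim := ((tendsto_pow_atTop_nhds_zero_of_lt_one (r := (1 / 2 : ℝ)) (by norm_num)
      (by norm_num)).const_mul η).mul_const (∑ j ∈ t, ‖a j‖)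
    filter_upwards [lim.eventually (ge_mem_nhds (show _ < 0 + ε by simpa using hε))] with n hn
    exact (norm_inner_le_norm _ _).trans
      (mul_le_mul_of_nonneg_left (((hs n).rel t a id hr).trans hn) (norm_nonneg _))

end Ctx
end LB

open LB in
theorem sel_lift {p : H →L[ℂ] H} (hp : IsCentral S' p) {ι : Type} [Fintype ι] (α : ι → H)
    (hK : ∀ d ∈ vN S', ∀ b ∈ vN S',
      ∑ i, ‖(d * b) (α i)‖ ^ 2 ≤ 4 * ‖b‖ ^ 2 * ∑ i, ‖d (α i)‖ ^ 2)
    (hf : ∀ d ∈ vN S', (∀ i, d (α i) = 0) → d * p = 0)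
    {γ : ℝ} (h0 : 0 ≤ γ) (hγ : γ ≤ 1 / 10 ^ 8) (h : NearIn S S' γ) :
    ∃ s : unitary (vN S) → H →L[ℂ] H, (∀ U, s U ∈ vN S') ∧
      (∀ U, ‖s U - ((U : vN S) : H →L[ℂ] H) * p‖ ≤ 1000 * γ) ∧
      ∀ c : unitary (vN S) →₀ ℂ, (c.sum fun U a => a • ((U : vN S) : H →L[ℂ] H)) = 0 →
        (c.sum fun U a => a • s U) = 0 := by
  obtain ⟨e, -, he⟩ := exists_absorbs (Γ := unitary (vN S)) (Q := Set.univ)
    ⟨isClosed_univ, trivial, fun _ _ _ _ => trivial, fun _ _ _ => trivial⟩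
  choose s0 hs0 hs1 using fun U : unitary (vN S) => h ((U : vN S) : H →L[ℂ] H) (U : vN S).2
  have st : ∀ U : unitary (vN S), star ((U : vN S) : H →L[ℂ] H) * (U : vN S) = 1 := fun U =>
    congrArg Subtype.val U.2.1
  have nu : ∀ U : unitary (vN S), ‖((U : vN S) : H →L[ℂ] H)‖ ≤ 1 := fun U => by
    have h1 := CStarRing.norm_star_mul_self (x := ((U : vN S) : H →L[ℂ] H))
    have h2 : ‖(1 : H →L[ℂ] H)‖ ≤ 1 := ContinuousLinearMap.norm_id_le
    rw [st] at h1
    nlinarith [norm_nonneg ((U : vN S) : H →L[ℂ] H)]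
  obtain ⟨s, a1, a2, a3⟩ := Ctx.exists_sel (S' := S')
    { u := fun U : unitary (vN S) => ((U : vN S) : H →L[ℂ] H)
      s0 := s0, p := p, α := α, δ := γ, e := e, he := he
      u_mul := fun _ _ => rfl
      u_star := fun U => congrArg Subtype.val U.2.2
      star_u := st, nu := nu, mem := hs0
      near := fun U => (norm_sub_rev _ _).trans_le ((hs1 U).trans (mul_le_of_le_one_right h0 (nu U)))
      hp := hp
      hK := fun d hd b hb => le_of_sq_le_sq (by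
        rw [mul_pow, mul_pow, ev_sq, ev_sq]; norm_num; exact hK d hd b hb) (by positivity)
      hf := fun d hd h => hf d hd fun i => congrArg (fun v => v.ofLp i) h
      h0 := h0, h1 := hγ }
  exact ⟨s, a1, a2, fun c hc => a3 c.support c hc⟩

end Vale.Agent.P096
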