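import Vale.Agent.P096.PartLF1a

/-! P096 part LF1b: local approximate trace. -/

namespace Vale.Agent.P096

open scoped InnerProductSpace ComplexOrder ComplexConjugate
open Vale.Agent.P104 Vale.Agent.P104.C Vale.Agent.P104.D Vale.Agent.P082
open Vale.Agent.P082.T

variable {H : Type*} [NormedAddCommGroup H] [InnerProductSpace ℂ H] [CompleteSpace H]
variable {S : Set (H →L[ℂ] H)}

namespace LF1

lemma mem1 {q v : H →L[ℂ] H} (hsq : star q = q) (hv : v ∈ vN S) (h : q * v = v * q) :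
    v ∈ vN (S ∪ {q}) := by
  refine P104.mem_vN.2 ?_
  rintro g (hg | rfl)
  · exact P104.mem_vN.1 hv g hg
  · exact ⟨h, by rw [hsq, h]⟩

lemma corner3 {q : H →L[ℂ] H} (hq : q ∈ vN S) (pq : IsStarProjection q) (hf : FinP S q)
    {e : H →L[ℂ] H} (he : e ∈ vN S) (pe : IsStarProjection e) (heq : e * q = e) {α β : H}
    (hab : ‖e α‖ ^ 2 < ‖e β‖ ^ 2) :
    ∃ u ∈ vN S, u ≠ 0 ∧ u * star u * u = u ∧ u * e = u ∧ e * u = u ∧
      ∀ v ∈ vN S, v * star v * v = v → v * (star u * u) = v → star u * u * v = v →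
        ‖v α‖ ^ 2 ≤ ‖star v (star u β)‖ ^ 2 := by
  have hqq : q * q = q := pq.isIdempotentElem
  have hsq : star q = q := pq.isSelfAdjoint
  have hse : star e = e := pe.isSelfAdjoint
  have hqe : q * e = e := by have := star_right hsq heq; rwa [hse] at this
  have le : vN (S ∪ {q}) ≤ vN S := vN_anti Set.subset_union_left
  have cq : ∀ x ∈ vN (S ∪ {q}), q * x = x * q := fun x hx =>
    (P104.mem_vN.1 hx q (Or.inr rfl)).1
  have hz : IsCentral (S ∪ {q}) q := ⟨mem1 hsq hq rfl, pq, cq⟩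
  have h2 : FinU (S ∪ {q}) q := fun c v hc hcq hv h => by
    have hcc : c * c = c := hc.2.1.isIdempotentElem
    have hsc : star c = c := hc.2.1.isSelfAdjoint
    have hqc : q * c = c := by rw [cq c hc.1, hcq]
    have hvc : v * c = v := by
      have e : star (v * c - v) * (v * c - v) = 0 := by
        rw [star_sub, star_mul, hsc, sub_mul, mul_sub, mul_sub, mul_assoc c, mul_assoc c,
          ← mul_assoc (star v), h, hcc, hcc]
        abel
      exact sub_eq_zero.1 (eq_zero_of_src e)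
    have hcv : c * v = v := by rw [hc.2.2 v hv, hvc]
    have hqv : q * v = v := by rw [← hcv, ← mul_assoc, hqc]
    have hvq : v * q = v := by rw [← cq v hv, hqv]
    have e1 := star_right hsq hvq
    have e2 := star_left hsq hqv
    have e3 := star_right hsc hvc
    have e4 := star_left hsc hcv
    have key := hf (v + (q - c)) (add_mem (le hv) (sub_mem hq (le hc.1))) (by
      simp only [star_add, star_sub, hsc, hsq, add_mul, mul_add, sub_mul, mul_sub, h, hcc, hqq,
        hcq, hqc, e2, e4, hcv, hqv]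
      abel) (by rw [mul_add, mul_sub, hqv, hqq, hqc])
    simp only [star_add, star_sub, hsc, hsq, add_mul, mul_add, sub_mul, mul_sub, hcc, hqq, hcq,
      hqc, e1, e3, hvc, hvq] at key
    rw [← sub_eq_zero] at key ⊢
    rw [← key]
    abel
  obtain ⟨u, hu, u0, u1, u2, u3, u4⟩ := corner2 hz h2 (mem1 hsq he (by rw [hqe, heq])) pe heq hab
  refine ⟨u, le hu, u0, u1, u2, u3, fun v hv v1 v2 v3 => u4 v (mem1 hsq hv ?_) v1 v2 v3⟩
  have huq : u * q = u := by rw [← u2, mul_assoc, heq]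
  rw [← v3, ← mul_assoc, ← mul_assoc, star_right hsq huq, v3, ← v2, mul_assoc, mul_assoc, huq]

omit [CompleteSpace H] in
lemma norm_sqrt {t : ℝ} (ht : 0 ≤ t) (y : H →L[ℂ] H) (ζ : H) :
    ‖y ((Real.sqrt t : ℂ) • ζ)‖ ^ 2 = t * ‖y ζ‖ ^ 2 := by
  rw [map_smul, norm_smul, mul_pow, Complex.norm_real, Real.norm_eq_abs, sq_abs, Real.sq_sqrt ht]

end LF1

open LF1 in
theorem good_of_fin {q : H →L[ℂ] H} (hq : q ∈ vN S) (pq : IsStarProjection q) (h0 : q ≠ 0)
    (hf : FinP S q) : ∃ g, GoodP S g ∧ g ≠ 0 ∧ g * q = g := by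
  have hqq : q * q = q := pq.isIdempotentElem
  have hsq : star q = q := pq.isSelfAdjoint
  obtain ⟨ξ₀, hξ₀⟩ : ∃ ξ₀, q ξ₀ ≠ 0 := by
    by_contra h
    push Not at h
    exact h0 (ContinuousLinearMap.ext h)
  set ξ := q ξ₀ with hξ
  obtain ⟨q1, hq1, pq1, s1, s2⟩ := T.exists_supp (S := S) ξ
  have hsq1 : star q1 = q1 := pq1.isSelfAdjoint
  have hq1q : q1 * q = q1 := by
    have := s2 _ (sub_mem (one_mem _) hq) (by
      rw [sub_apply, one_apply_eq_self, hξ, ← mul_apply_eq_comp, hqq, sub_self])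
    rw [sub_mul, one_mul, sub_eq_zero] at this
    have e := star_left hsq this.symm
    rwa [hsq1] at e
  obtain ⟨u, hu, u0, u1, u2, u3, u4⟩ := corner3 hq pq hf hq1 pq1 hq1q (α := ξ) (β := (2 : ℂ) • ξ)
    (by
      rw [map_smul, s1, norm_smul, Complex.norm_two]
      have := norm_pos_iff.2 hξ₀
      nlinarith)
  set g := star u * u with hg
  set ξ' := star u ((2 : ℂ) • ξ) with hξ'
  have pg : IsStarProjection g := proj_src u1
  have hgM : g ∈ vN S := mul_mem (star_mem hu) hu
  have hgg : g * g = g := pg.isIdempotentElem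
  have hsg : star g = g := pg.isSelfAdjoint
  have hgq1 : g * q1 = g := by rw [hg, mul_assoc, u2]
  let A : Set ℝ := {t | 0 ≤ t ∧ ∀ v ∈ vN S, v * star v * v = v → v * g = v → g * v = v →
    ‖v ξ‖ ^ 2 ≤ t * ‖star v ξ'‖ ^ 2}
  have hA1 : (1 : ℝ) ∈ A := ⟨zero_le_one, fun v hv a b c => by simpa using u4 v hv a b c⟩
  have hAb : BddBelow A := ⟨0, fun t ht => ht.1⟩
  have hAc : IsClosed A := by
    refine isClosed_of_closure_subset fun t ht => ⟨?_, fun v hv a b c => ?_⟩
    · exact closure_minimal (fun s hs => hs.1) isClosed_Ici ht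
    · exact closure_minimal (t := {t : ℝ | ‖v ξ‖ ^ 2 ≤ t * ‖star v ξ'‖ ^ 2})
        (fun s hs => by simpa using hs.2 v hv a b c) (isClosed_le (by fun_prop) (by fun_prop)) ht
  obtain ⟨m0, m1⟩ := hAc.csInf_mem ⟨1, hA1⟩ hAb
  set μ := sInf A with hμ
  have hμ0 : 0 < μ := by
    refine m0.lt_of_ne fun h => u0 (eq_zero_of_src ?_)
    have := m1 g hgM (by rw [hsg, hgg, hgg]) hgg hgg
    rw [← h, zero_mul] at this
    have e : g ξ = 0 := norm_eq_zero.1 (by nlinarith [norm_nonneg (g ξ)])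
    rw [← hg, ← hgq1, s2 g hgM e]
  obtain ⟨v0, hv0, a1, a2, a3, a4⟩ : ∃ v ∈ vN S, v * star v * v = v ∧ v * g = v ∧ g * v = v ∧
      μ / 2 * ‖star v ξ'‖ ^ 2 < ‖v ξ‖ ^ 2 := by
    by_contra h
    push Not at h
    have := csInf_le hAb (show μ / 2 ∈ A from ⟨by linarith, h⟩)
    linarith
  set e := star v0 * v0 with he
  have pe : IsStarProjection e := proj_src a1
  have heM : e ∈ vN S := mul_mem (star_mem hv0) hv0
  have hse : star e = e := pe.isSelfAdjoint
  have heg : e * g = e := by rw [he, mul_assoc, a2]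
  have hge : g * e = e := by have := star_right hsg heg; rwa [hse] at this
  have heq1 : e * q1 = e := by rw [← heg, mul_assoc, hgq1]
  have heq : e * q = e := by rw [← heq1, mul_assoc, hq1q]
  set a' := (Real.sqrt (μ / 2) : ℂ) • star v0 ξ' with ha'
  obtain ⟨w, hw, w0, w1, w2, w3, w4⟩ := corner3 hq pq hf heM pe heq (α := a') (β := ξ) (by
    rw [ha', norm_sqrt (by linarith), ← mul_apply_eq_comp, he, star_pi a1, mul_apply_eq_comp,
      norm_src a1]
    exact a4)
  have pw : IsStarProjection (star w * w) := proj_src w1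
  have hwe : star w * e = star w := star_left hse w3
  have hew : e * star w = star w := star_right hse w2
  refine ⟨star w * w, ⟨mul_mem (star_mem hw) hw, pw, Unit, inferInstance, fun _ => star w ξ,
    fun _ => a', fun y hy y1 y2 => ⟨?_, ?_, fun h => ?_⟩⟩, fun h => w0 (eq_zero_of_src h),
    by rw [mul_assoc, ← w2, mul_assoc, heq]⟩
  · simp only [Finset.univ_unique, Finset.sum_singleton]
    have hey : e * y = y := by rw [← y2, ← mul_assoc, ← mul_assoc, hew]
    have k := all_of_pi (S := S) hsg (ξ := ξ) (ξ' := (Real.sqrt μ : ℂ) • ξ')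
      (fun v hv b1 b2 b3 => by rw [norm_sqrt m0]; exact m1 v hv b1 b2 b3)
      (mul_mem (mul_mem hv0 hy) (star_mem hw))
      (by rw [mul_assoc, ← hwe, mul_assoc (star w), heg]) (by rw [← mul_assoc, ← mul_assoc, a3])
    have k1 : ‖(v0 * y * star w) ξ‖ = ‖y (star w ξ)‖ := by
      rw [mul_apply_eq_comp, mul_apply_eq_comp, ← norm_src a1, ← mul_apply_eq_comp,
        ← mul_apply_eq_comp, ← he, hey]
    have k2 : ‖star (v0 * y * star w) ξ'‖ ≤ ‖star y (star v0 ξ')‖ := by
      rw [star_mul, star_star, star_mul, mul_apply_eq_comp, mul_apply_eq_comp]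
      exact norm_pi_le w1 _
    have k3 := mul_le_mul_of_nonneg_left (pow_le_pow_left₀ (norm_nonneg _) k2 2) m0
    rw [k1, norm_sqrt m0] at k
    rw [ha', norm_sqrt (by linarith)]
    linarith
  · simp only [Finset.univ_unique, Finset.sum_singleton]
    have := all_of_pi (S := S) pw.isSelfAdjoint.star_eq w4 hy y1 y2
    nlinarith [sq_nonneg ‖star y (star w ξ)‖]
  · have k := s2 _ (mul_mem hy (star_mem hw)) (h ())
    rw [mul_assoc, ← hwe, mul_assoc, heq1, hwe] at k
    rw [← y1, ← mul_assoc, k, zero_mul]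

end Vale.Agent.P096
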