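import Vale.Agent.P082.PartK

/-! Quantitative vanishing of bounded Hochschild cohomology. -/

namespace Vale.Agent.P096.Q

open scoped InnerProductSpace ComplexOrder ComplexConjugate
open Vale.Agent.P104 Vale.Agent.P104.F Vale.Agent.P082 Vale.Agent.P082.P Vale.Agent.P082.K Filter

universe v
variable {H : Type v} [NormedAddCommGroup H] [InnerProductSpace ℂ H] [CompleteSpace H]
variable {S : Set (H →L[ℂ] H)} {Γ : Type*}

/-- Killing cocycles with a norm bound. -/
def KillQ (S : Set (H →L[ℂ] H)) (z : vN S) (k : ℕ) (C : ℝ) : Prop :=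
  ∀ φ : ContinuousMultilinearMap ℂ (fun _ : Fin (k + 1) => vN S) (vN S),
    (∀ a, cob (k + 1) φ a = 0) →
    ∃ g : ContinuousMultilinearMap ℂ (fun _ : Fin k => vN S) (vN S),
      ‖g‖ ≤ C * ‖φ‖ ∧ ∀ a, z * φ a = z * cob k g a

theorem prismQ {z : vN S} (hz : IsCentral S z)
    (hv : ∀ n : ℕ, ∃ v : Fin n → vN S, ∀ i j, star (v i) * v j = if i = j then z else 0)
    (k : ℕ) (φ : ContinuousMultilinearMap ℂ (fun _ : Fin (k + 1) => vN S) (vN S))
    (hφ : ∀ a, cob (k + 1) φ a = 0) :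
    ∃ g : ContinuousMultilinearMap ℂ (fun _ : Fin k => vN S) (vN S), ‖g‖ ≤ (k + 1) * ‖φ‖ ∧
      ∀ a : Fin k → vN S,
      CB S (fun x => (z * (φ (Fin.cons x a) - cob k g (Fin.cons x a)) : vN S))
        (‖φ‖ * ∏ i, ‖a i‖) := by
  choose h h1 h2 h3 using stage hz hv k φ hφ
  obtain ⟨m, hm⟩ := exists_tail
  have hb : ∀ (a : Fin k → vN S) n, ‖h n (List.ofFn a)‖ ≤ (k + 1) * ‖φ‖ * ∏ i, ‖a i‖ :=
    fun a n => by simpa only [List.length_ofFn, pn_ofFn] using h2 n (List.ofFn a)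
  choose g g1 g2 using fun a => exists_W m (hb a)
  have lin : ∀ (a : Fin k → vN S) (i : Fin k) n,
      IsLinearMap ℂ fun x => h n ((List.ofFn a).set i x) := fun a i n => h1 n _ i (by simp)
  let G : MultilinearMap ℂ (fun _ : Fin k => vN S) (vN S) :=
    { toFun := g
      map_update_add' := fun a i x y => (g1 _).unique (by
        have := (g1 (Function.update a i x)).add (g1 (Function.update a i y))
        simpa only [ofFn_update, (lin a i _).map_add] using this)
      map_update_smul' := fun a i c x => (g1 _).unique (by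
        have := (g1 (Function.update a i x)).smul c
        simpa only [ofFn_update, (lin a i _).map_smul] using this) }
  refine ⟨G.mkContinuous _ g2, G.mkContinuous_norm_le (by positivity) g2,
    fun a ι κ _ _ x hx ξ => ?_⟩
  have hW : ∀ b, W m (z * (φ b - cob k (G.mkContinuous _ g2) b))
      fun n => z * (φ b - cob k (fun b => h n (List.ofFn b)) b) := fun b => by
    have := ((W.const (φ b)).add (((((g1 (Fin.tail b)).left (b 0)).add
      (W.sum Finset.univ fun j : Fin k => (g1 (Fin.contractNth j.castSucc (· * ·) b)).left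
        ((-1) ^ ((j : ℕ) + 1)))).add (((g1 (Fin.init b)).right (b (Fin.last k))).left
        ((-1) ^ (k + 1)))).left (-1))).left z
    simp only [neg_one_mul, ← sub_eq_add_neg] at this
    exact this
  have hC : ∀ i, ∃ C, ∀ n, ‖∑ j, ((z * (φ (Fin.cons (x i j) a) - cob k
      (fun b => h n (List.ofFn b)) (Fin.cons (x i j) a)) : vN S) : H →L[ℂ] H) (ξ j)‖ ≤ C := by
    intro i
    choose C hC using fun j => (hW (Fin.cons (x i j) a)).1
    exact ⟨∑ j, C j * ‖ξ j‖, fun n => norm_sum_le_of_le _ fun j _ =>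
      ContinuousLinearMap.le_of_opNorm_le _ (hC j n) _⟩
  refine (jensen m _ _ hC fun i η => ?_).trans (hm _ ?_ _ ?_)
  · simp only [inner_sum]
    rw [m.sum _ fun j _ => (hW (Fin.cons (x i j) a)).bd (ξ j) η]
    exact Finset.sum_congr rfl fun j _ => (hW _).2 _ _
  · choose C hC using hC
    refine ⟨∑ i, C i ^ 2, fun n => ?_⟩
    rw [Complex.norm_real, Real.norm_of_nonneg (by positivity)]
    exact Finset.sum_le_sum fun i _ => pow_le_pow_left₀ (norm_nonneg _) (hC i n) 2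
  · filter_upwards [eventually_ge_atTop (Fintype.card ι), eventually_ge_atTop (Fintype.card κ)]
      with n n1 n2
    rw [Complex.ofReal_re]
    exact h3 n a ι κ x hx n1 n2 ξ

theorem exists_cmlQ {R : Type*} [NormedRing R] [NormedAlgebra ℂ R] {g : List R → R} (gl : ML g)
    {C : ℝ} (hC : 0 ≤ C) (hg : ∀ l, ‖g l‖ ≤ C * pn l) (k : ℕ) :
    ∃ G : ContinuousMultilinearMap ℂ (fun _ : Fin k => R) R, ‖G‖ ≤ C ∧
      ∀ a, cob k G a = dd g (List.ofFn a) := by
  let G : MultilinearMap ℂ (fun _ : Fin k => R) R :=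
    { toFun := fun a => g (List.ofFn a)
      map_update_add' := fun a i x y => by
        simpa only [ofFn_update] using (gl (List.ofFn a) i (by simp)).map_add x y
      map_update_smul' := fun a i c x => by
        simpa only [ofFn_update] using (gl (List.ofFn a) i (by simp)).map_smul c x }
  exact ⟨G.mkContinuous C fun a => (hg _).trans_eq (by rw [pn_ofFn]),
    G.mkContinuous_norm_le hC _, fun a => cob_dd k g a⟩

theorem coreQ (m : Mean Γ) (fam : Γ → List (vN S)) {f : List (vN S) → vN S} (hf : ML f)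
    (hc : ∀ y l, mm (y :: l) f = y * f l) {z : vN S} (hz : ∀ a, z * a = a * z) {C : ℝ} (hC : 0 ≤ C)
    (h1 : W m 1 fun γ => av (fam γ) id)
    (hb : ∀ l γ, ‖av (fam γ) fun x => z * f (x :: l)‖ ≤ C * pn l)
    (hi : ∀ (l : List (vN S)) (s : unitary (vN S)) (ξ η : H),
      m.I (fun γ => ((fam γ).map fun x : vN S => ⟪((x * s : vN S) : H →L[ℂ] H) η,
        ((z * f (x * s :: l) : vN S) : H →L[ℂ] H) ξ⟫_ℂ).sum) =
      m.I (fun γ => ((fam γ).map fun x : vN S => ⟪(x : H →L[ℂ] H) η,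
        ((z * f (x :: l) : vN S) : H →L[ℂ] H) ξ⟫_ℂ).sum)) (k : ℕ) :
    ∃ g : ContinuousMultilinearMap ℂ (fun _ : Fin k => vN S) (vN S),
      ‖g‖ ≤ C ∧ ∀ a, z * f (List.ofFn a) = cob k g a := by
  choose g g1 g2 using fun l => exists_W m (hb l)
  have lin := fun γ => ml_av hf z (fam γ)
  have gl : ML g := fun l i hi =>
    ⟨fun x y => (g1 _).unique (by
      simpa only [(lin _ l i hi).map_add] using (g1 (l.set i x)).add (g1 (l.set i y))),
    fun c x => (g1 _).unique (by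
      simpa only [(lin _ l i hi).map_smul] using (g1 (l.set i x)).smul c)⟩
  have key : ∀ y l, W m (z * f (y :: l) + mm (y :: l) g)
      fun γ => av (fam γ) fun x => z * f (x * y :: l) := by
    intro y l
    simpa only [one_mul, av_key hc hz] using (h1.right (z * f (y :: l))).add (W_mm (y :: l) g1)
  have uni : ∀ (s : unitary (vN S)) l, z * f (s.1 :: l) = dd g (s.1 :: l) := by
    intro s l
    have e : star s.1 * (z * f (s.1 :: l) + mm (s.1 :: l) g) = g l := by
      refine Subtype.ext (ContinuousLinearMap.ext fun ξ => ext_inner_left ℂ fun η => ?_)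
      rw [(g1 l).2, MulMemClass.coe_mul, mul_apply_eq_comp, StarMemClass.coe_star,
        ContinuousLinearMap.star_eq_adjoint, ContinuousLinearMap.adjoint_inner_right, (key s l).2]
      simp only [inner_av]
      exact hi l s ξ η
    have e' : s.1 * star s.1 = 1 := Unitary.coe_mul_star_self s
    rw [dd, ← e, ← mul_assoc, e', one_mul, add_sub_cancel_right]
  obtain ⟨G, nG, hG⟩ := exists_cmlQ gl hC g2 k
  refine ⟨G, nG, fun a => ?_⟩
  rw [hG, List.ofFn_succ]
  exact eq_of_unitary (lin_mul (hf (a 0 :: _) 0 (by simp)) z) (ml_dd gl (a 0 :: _) 0 (by simp))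
    (fun s => uni s _) _

theorem kill_uinvQ {z : vN S} (hz : IsCentral S z) (h : UInv S z) (k : ℕ) :
    KillQ S z k 1 := by
  intro φ hφ
  obtain ⟨m, hm⟩ := h
  have nz : ‖z‖ ≤ 1 := hz.2.1.norm_le
  have nu : ∀ w : unitary (vN S), ‖w.1‖ ≤ 1 := fun w => norm_iso (one_mul 1) w.2.1
  have nb : ∀ x l, ‖P.ext φ (x :: l)‖ ≤ ‖φ‖ * pn l * ‖x‖ := fun x l =>
    (norm_ext φ _).trans_eq (by rw [pn_cons]; ring)
  obtain ⟨g, ng, hg⟩ := coreQ m (fun w => [w.1]) (ext_ml φ) (ext_cocycle φ hφ) (comm hz)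
    (norm_nonneg φ)
    (by
      have : ∀ w : unitary (vN S), av [w.1] id = 1 := fun w => by simp [av]
      simpa only [this] using W.const 1)
    (fun l w => by
      have := pn_nonneg l
      simp only [av, List.map_cons, List.map_nil, List.sum_cons, List.sum_nil, add_zero]
      calc _ ≤ ‖w.1‖ * (‖z‖ * (‖φ‖ * pn l * ‖w.1‖)) := by
            refine (norm_mul_le _ _).trans ?_
            rw [norm_star]
            gcongr
            exact (norm_mul_le _ _).trans (by gcongr; exact nb _ _)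
        _ ≤ 1 * (1 * (‖φ‖ * pn l * 1)) := by gcongr <;> exact nu w
        _ = _ := by ring)
    (fun l s ξ η => by
      have := hm (((ext_ml φ (0 :: l) 0 (by simp)).mk' _).mkContinuous _ fun x => nb x l) s
        ((z : H →L[ℂ] H) ξ) η (congrArg (fun T : vN S => (T : H →L[ℂ] H) ξ) (idem hz))
      simp only [List.map_cons, List.map_nil, List.sum_cons, List.sum_nil, add_zero, comm hz]
      exact this) k
  exact ⟨g, by rwa [one_mul], fun a => by rw [← hg, ext_ofFn, ← mul_assoc, idem hz]⟩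

theorem kill_famQ (m : Mean (Fam S))
    (h1 : ∀ ξ η : H, m.I (fun l => (l.1.map fun x : vN S =>
      ⟪(x : H →L[ℂ] H) η, (x : H →L[ℂ] H) ξ⟫_ℂ).sum) = ⟪η, ξ⟫_ℂ)
    (h2 : ∀ (T : vN S →ₗ[ℂ] vN S) (C : ℝ), 0 ≤ C → CB S (fun a => T a) C →
      ∀ (s : unitary (vN S)) (ξ η : H),
      m.I (fun l => (l.1.map fun x : vN S =>
        ⟪((x * s : vN S) : H →L[ℂ] H) η, (T (x * s) : H →L[ℂ] H) ξ⟫_ℂ).sum) =
      m.I (fun l => (l.1.map fun x : vN S =>
        ⟪(x : H →L[ℂ] H) η, (T x : H →L[ℂ] H) ξ⟫_ℂ).sum))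
    {z : vN S} (hz : IsCentral S z)
    (hv : ∀ n : ℕ, ∃ v : Fin n → vN S, ∀ i j, star (v i) * v j = if i = j then z else 0)
    (k : ℕ) : KillQ S z k (k + 2) := by
  intro φ hφ
  obtain ⟨g0, n0, hg0⟩ := prismQ hz hv k φ hφ
  set f : List (vN S) → vN S := fun l => P.ext φ l - dd (P.ext g0) l with hf
  have e0 : ∀ a, f (List.ofFn a) = φ a - cob k g0 a := fun a => by
    simp only [hf, ← cob_dd, ext_ofFn]
  have fl : ML f := fun l i hi => lin_sub (ext_ml φ l i hi) (ml_dd (ext_ml g0) l i hi)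
  have fc : ∀ y l, mm (y :: l) f = y * f l := fun y l => by
    have e : f = P.ext φ - dd (P.ext g0) := rfl
    rw [e, map_sub, ext_cocycle φ hφ, dd_cocycle, Pi.sub_apply, mul_sub]
  have cb : ∀ l, CB S (fun x => (z * f (x :: l) : vN S)) (‖φ‖ * pn l) := fun l => by
    by_cases hl : l.length = k
    · subst hl
      have := hg0 l.get
      simpa only [← e0, ← pn_ofFn, List.ofFn_cons, List.ofFn_get] using this
    · refine cb_of_zero (fun x => ?_) _
      have a1 : P.ext φ (x :: l) = 0 := if_neg (by simpa using hl)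
      have a2 : P.ext g0 l = 0 := if_neg hl
      have a3 : mm (x :: l) (P.ext g0) = 0 := mm_eq_zero l x fun t ht => if_neg (ht ▸ hl)
      simp [hf, dd, a1, a2, a3]
  have pos : ∀ l : List (vN S), 0 ≤ ‖φ‖ * pn l := fun l => mul_nonneg (norm_nonneg _) (pn_nonneg _)
  obtain ⟨g, ng, hg⟩ := coreQ m (fun l => l.1) fl fc (comm hz) (norm_nonneg φ)
    ⟨⟨1, fun γ => norm_av γ.2 zero_le_one fun ι κ _ _ x hx ξ => by simpa using hx ξ⟩,
      fun ξ η => by simp only [inner_av]; exact (h1 ξ η).symm⟩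
    (fun l γ => norm_av γ.2 (pos l) (cb l))
    (fun l s ξ η => h2 ((lin_mul (fl (0 :: l) 0 (by simp)) z).mk' _) _ (pos l) (cb l) s ξ η) k
  refine ⟨g0 + g, (norm_add_le_of_le n0 ng).trans_eq (by ring), fun a => ?_⟩
  have e : cob k (⇑(g0 + g)) a = cob k g0 a + cob k g a := cob_add k g0 g a
  rw [e, mul_add, ← hg, e0, ← mul_assoc, idem hz, ← mul_add, add_sub_cancel]

theorem kill_addQ {z z' : vN S} (hz : IsCentral S z) (hz' : IsCentral S z') (h0 : z * z' = 0)
    {k : ℕ} {C C' : ℝ} (h : KillQ S z k C) (h' : KillQ S z' k C') :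
    KillQ S (z + z') k (C + C') := by
  intro φ hφ
  obtain ⟨g, ng, hg⟩ := h φ hφ
  obtain ⟨g', ng', hg'⟩ := h' φ hφ
  have nn : ∀ {z : vN S} (_ : IsCentral S z)
      (g : ContinuousMultilinearMap ℂ (fun _ : Fin k => vN S) (vN S)),
      ‖(ContinuousLinearMap.mul ℂ _ z).compContinuousMultilinearMap g‖ ≤ ‖g‖ := fun {z} hz g => by
    have nz : ‖z‖ ≤ 1 := hz.2.1.norm_le
    refine (ContinuousLinearMap.norm_compContinuousMultilinearMap_le _ _).trans ?_
    exact mul_le_of_le_one_left (norm_nonneg _)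
      ((ContinuousLinearMap.opNorm_mul_apply_le _ _ _).trans nz)
  refine ⟨(ContinuousLinearMap.mul ℂ _ z).compContinuousMultilinearMap g +
    (ContinuousLinearMap.mul ℂ _ z').compContinuousMultilinearMap g',
    (norm_add_le_of_le ((nn hz g).trans ng) ((nn hz' g').trans ng')).trans_eq (by ring),
    fun a => ?_⟩
  have e := cob_add k (fun b => z * g b) (fun b => z' * g' b) a
  rw [cob_mul k (comm hz), cob_mul k (comm hz')] at e
  refine Eq.trans ?_ (congrArg _ e.symm)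
  simp only [add_mul, mul_add, ← mul_assoc, idem hz, idem hz', h0, ← comm hz z', hg, hg',
    add_zero, zero_add]

theorem glueQ {z : vN S} {y : H →L[ℂ] H} (hz : IsCentral S z) (hm : Monic S (1 - z))
    (hf : FinU S (1 - z)) (hy : IsCentral S y) (hna : NoAbel S (1 - y))
    (hab : ∀ c, IsCentral S c → c ≠ 0 → c * y = c → ∃ e, IsAbel S e ∧ e ≠ 0 ∧ e * c = e)
    (dense : ∀ {z : H →L[ℂ] H}, IsCentral S z → Monic S z → FinU S z →
      ∀ ζ : H, z ζ = ζ → ζ ∈ closure (Dfin S))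
    (u1 : ∀ {z : vN S}, IsCentral S z → Monic S z →
      (∀ c, IsCentral S c → c ≠ 0 → c * z = c → ∃ e, IsAbel S e ∧ e ≠ 0 ∧ e * c = e) → UInv S z)
    (u2 : ∀ {z : vN S}, IsCentral S z → NoAbel S z →
      (∀ ζ : H, (z : H →L[ℂ] H) ζ = ζ → ζ ∈ closure (Dfin S)) → UInv S z)
    {k : ℕ} {C : ℝ} (hk : KillQ S z k C) : KillQ S 1 k (C + (1 + 1)) := by
  have hz' := central_compl hz
  have hy' := central_compl hy
  have le : ∀ {x : H →L[ℂ] H}, IsCentral S x → (1 - z) * x * (1 - z) = (1 - z) * x := fun hx => by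
    rw [mul_assoc, hx.2.2 _ hz'.1, ← mul_assoc, hz'.2.1.isIdempotentElem]
  have le' : ∀ {x c : H →L[ℂ] H}, IsCentral S x → c * ((1 - z) * x) = c → c * x = c :=
    fun hx h => by rw [← h, mul_assoc, mul_assoc, hx.2.1.isIdempotentElem]
  have c2 := central_mul hz' hy
  have c3 := central_mul hz' hy'
  have k2 := kill_uinvQ (z := ⟨_, c2.1⟩) c2 (u1 (z := ⟨_, c2.1⟩) c2 (monic_mono c2 (le hy) hm)
    fun c h1 h2 h3 => hab c h1 h2 (le' hy h3)) k
  have k3 := kill_uinvQ (z := ⟨_, c3.1⟩) c3 (u2 (z := ⟨_, c3.1⟩) c3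
    (fun p h1 h2 => hna p h1 (le' hy' h2))
    (dense c3 (monic_mono c3 (le hy') hm) (finU_mono (le hy') hf))) k
  have k4 := kill_addQ (z := ⟨_, c2.1⟩) (z' := ⟨_, c3.1⟩) c2 c3 (Subtype.ext (by
    change (1 - z.1) * y * ((1 - z.1) * (1 - y)) = 0
    rw [← mul_assoc, le hy, mul_assoc, hy.2.1.mul_one_sub_self, mul_zero])) k2 k3
  have e : (⟨_, c2.1⟩ + ⟨_, c3.1⟩ : vN S) = 1 - z := Subtype.ext (by
    change (1 - z.1) * y + (1 - z.1) * (1 - y) = 1 - z.1
    rw [← mul_add, add_sub_cancel, mul_one])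
  rw [e] at k4
  have := kill_addQ (z' := 1 - z) hz hz' (by rw [mul_sub, idem hz, mul_one, sub_self]) hk k4
  rwa [add_sub_cancel] at this

end Vale.Agent.P096.Q

namespace Vale.Agent.P096

open Vale.Agent.P104 Vale.Agent.P082

universe v
variable {H : Type v} [NormedAddCommGroup H] [InnerProductSpace ℂ H] [CompleteSpace H]

theorem krQ_vN {S : Set (H →L[ℂ] H)} (k : ℕ)
    (φ : ContinuousMultilinearMap ℂ (fun _ : Fin (k + 1) => vN S) (vN S))
    (hφ : ∀ a, cob (k + 1) φ a = 0) :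
    ∃ g : ContinuousMultilinearMap ℂ (fun _ : Fin k => vN S) (vN S),
      ‖g‖ ≤ (k + 4) * ‖φ‖ ∧ ∀ a, φ a = cob k g a := by
  obtain ⟨z, hz, hv, hm, hf⟩ := exists_pi (S := S)
  obtain ⟨y, hy, hna, hab⟩ := exists_typeI (S := S)
  obtain ⟨m, h1, h2⟩ := ginv (S := S)
  obtain ⟨g, ng, hg⟩ := Q.glueQ hz hm hf hy hna hab dfin_dense uinv_typeI uinv_II
    (Q.kill_famQ m h1 h2 hz hv k) φ hφ
  exact ⟨g, ng.trans_eq (by ring), by simpa only [one_mul] using hg⟩

theorem eq_vN (N : StarSubalgebra ℂ (H →L[ℂ] H))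
    (hN : Set.centralizer (Set.centralizer (N : Set (H →L[ℂ] H))) = N) :
    N = vN (Set.centralizer N) := by
  refine StarSubalgebra.ext fun x => ⟨fun hx => mem_vN.2 fun g hg =>
    ⟨(hg x hx).symm, ?_⟩, fun hx => ?_⟩
  · simpa using congrArg star (hg _ (star_mem hx))
  · rw [← SetLike.mem_coe, ← hN]
    exact fun g hg => (mem_vN.1 hx g hg).1

theorem krQ (N : StarSubalgebra ℂ (H →L[ℂ] H))
    (hN : Set.centralizer (Set.centralizer (N : Set (H →L[ℂ] H))) = N) (k : ℕ)
    (φ : ContinuousMultilinearMap ℂ (fun _ : Fin (k + 1) => N) N) (hφ : ∀ a, cob (k + 1) φ a = 0) :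
    ∃ g : ContinuousMultilinearMap ℂ (fun _ : Fin k => N) N,
      ‖g‖ ≤ (k + 4) * ‖φ‖ ∧ ∀ a, φ a = cob k g a := by
  obtain ⟨S, rfl⟩ : ∃ S, N = vN S := ⟨_, eq_vN N hN⟩
  exact krQ_vN k φ hφ

end Vale.Agent.P096
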