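import Vale.Agent.P104.PartH

/-! P096 part U: close representations are unitarily equivalent by a unitary near one. -/

namespace Vale.Agent.P096

open scoped InnerProductSpace ComplexOrder ComplexConjugate
open Vale.Agent.P104

variable {H : Type*} [NormedAddCommGroup H] [InnerProductSpace ℂ H] [CompleteSpace H]

namespace U

/-- An invertible element near one has a polar part near one. -/
lemma polar_near {s : H →L[ℂ] H} {δ : ℝ} (hs : ‖s - 1‖ ≤ δ) (hδ : δ ≤ 1 / 12) :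
    ∃ b : H →L[ℂ] H, s * b ∈ unitary (H →L[ℂ] H) ∧ ‖s * b - 1‖ ≤ 5 * δ ∧
      ∀ y, Commute (star s * s) y → Commute b y := by
  have h0 : 0 ≤ δ := (norm_nonneg _).trans hs
  have h1 : ‖(1 : H →L[ℂ] H)‖ ≤ 1 := ContinuousLinearMap.norm_id_le
  have hs1 : ‖s‖ ≤ 1 + δ := by
    have := norm_add_le (s - 1) 1
    rw [sub_add_cancel] at this; linarith
  set X := star s * s with hX
  have hXs : IsSelfAdjoint X := IsSelfAdjoint.star_mul_self s
  have hX1 : ‖X - 1‖ ≤ 3 * δ := by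
    have e : X - 1 = star (s - 1) * s + (s - 1) := by simp [hX, sub_mul]
    rw [e]
    refine (norm_add_le _ _).trans ?_
    have := norm_mul_le (star (s - 1)) s
    rw [norm_star] at this
    have h2 : ‖s - 1‖ * ‖s‖ ≤ δ * (1 + δ) := by gcongr
    nlinarith
  have hsp : ∀ r ∈ spectrum ℝ X, |r - 1| ≤ 3 * δ := fun r hr => by
    have e : cfc (fun r : ℝ => r - 1) X = X - 1 := by
      rw [cfc_sub _ _ X (by fun_prop) (by fun_prop), cfc_id' ℝ X, cfc_const_one ℝ X]
    have := norm_apply_le_norm_cfc (fun r : ℝ => r - 1) X hr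
    rw [e] at this
    exact this.trans hX1
  have hp : ∀ r ∈ spectrum ℝ X, 3 / 4 ≤ r := fun r hr => by
    have := abs_le.1 (hsp r hr); linarith
  have hc : ContinuousOn (fun r : ℝ => (√r)⁻¹) (spectrum ℝ X) :=
    ContinuousOn.inv₀ (by fun_prop) fun r hr => (Real.sqrt_pos.2 (by linarith [hp r hr])).ne'
  set b := cfc (fun r : ℝ => (√r)⁻¹) X with hb
  have hbs : star b = b := (cfc_predicate _ X : IsSelfAdjoint _).star_eq
  have e1 : b * X * b = 1 := by
    have : b * X * b = cfc (fun r : ℝ => (√r)⁻¹ * r * (√r)⁻¹) X := by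
      rw [cfc_mul (fun r : ℝ => (√r)⁻¹ * r) _ X (hc.mul continuousOn_id) hc,
        cfc_mul _ _ X hc (by fun_prop), cfc_id' ℝ X]
    rw [this, ← cfc_const_one ℝ X]
    refine cfc_congr fun r hr => ?_
    have h2 : 0 < r := by linarith [hp r hr]
    have h3 := Real.mul_self_sqrt h2.le
    have h4 := (Real.sqrt_pos.2 h2).ne'
    field_simp
    nlinarith
  have e2 : ‖b - 1‖ ≤ 3 * δ := by
    have : b - 1 = cfc (fun r : ℝ => (√r)⁻¹ - 1) X := by
      rw [cfc_sub _ _ X hc (by fun_prop), cfc_const_one ℝ X]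
    rw [this]
    refine norm_cfc_le (by positivity) fun r hr => le_trans ?_ (hsp r hr)
    have h2 : 0 < r := by linarith [hp r hr]
    have h3 := Real.mul_self_sqrt h2.le
    have h4 := Real.sqrt_pos.2 h2
    have h5 : 3 / 4 ≤ √r := by nlinarith [hp r hr]
    have h6 : r - 1 = -(√r * (1 + √r)) * ((√r)⁻¹ - 1) := by field_simp; nlinarith
    rw [h6, abs_mul, abs_neg, Real.norm_eq_abs, abs_of_pos (by positivity : 0 < √r * (1 + √r))]
    exact le_mul_of_one_le_left (abs_nonneg _) (by nlinarith)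
  have e3 : star (s * b) * (s * b) = 1 := by
    rw [star_mul, hbs, ← e1, hX]; simp only [mul_assoc]
  have e4 : ‖s * b - 1‖ ≤ 5 * δ := by
    have e : s * b - 1 = s * (b - 1) + (s - 1) := by rw [mul_sub, mul_one, sub_add_sub_cancel]
    rw [e]
    refine (norm_add_le _ _).trans ?_
    have h2 : ‖s * (b - 1)‖ ≤ (1 + δ) * (3 * δ) := (norm_mul_le _ _).trans (by gcongr)
    nlinarith
  refine ⟨b, ⟨e3, ?_⟩, e4, fun y hy => Commute.cfc_real hy _⟩
  have hu : IsUnit (s * b) := by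
    have : ‖1 - s * b‖ < 1 := by rw [norm_sub_rev]; linarith
    simpa using (Units.oneSub _ this).isUnit
  obtain ⟨w, hw⟩ := hu
  rw [← hw] at e3 ⊢
  rw [Units.eq_inv_of_mul_eq_one_right e3, Units.mul_inv]

/-- First inclusion. -/
noncomputable def il : H →L[ℂ] WithLp 2 (H × H) :=
  ((WithLp.prodContinuousLinearEquiv 2 ℂ H H).symm : H × H →L[ℂ] _) ∘L ContinuousLinearMap.inl ℂ H H

/-- Second inclusion. -/
noncomputable def ir : H →L[ℂ] WithLp 2 (H × H) :=
  ((WithLp.prodContinuousLinearEquiv 2 ℂ H H).symm : H × H →L[ℂ] _) ∘L ContinuousLinearMap.inr ℂ H H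

/-- Diagonal operator. -/
noncomputable def dia (a b : H →L[ℂ] H) : WithLp 2 (H × H) →L[ℂ] WithLp 2 (H × H) :=
  il ∘L a ∘L WithLp.fstL 2 ℂ H H + ir ∘L b ∘L WithLp.sndL 2 ℂ H H

/-- Antidiagonal operator. -/
noncomputable def ant (a b : H →L[ℂ] H) : WithLp 2 (H × H) →L[ℂ] WithLp 2 (H × H) :=
  il ∘L a ∘L WithLp.sndL 2 ℂ H H + ir ∘L b ∘L WithLp.fstL 2 ℂ H H

omit [CompleteSpace H] in
lemma ext2 {v w : WithLp 2 (H × H)} (h1 : v.fst = w.fst) (h2 : v.snd = w.snd) : v = w :=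
  (WithLp.prodContinuousLinearEquiv 2 ℂ H H).injective (Prod.ext h1 h2)

omit [CompleteSpace H] in
@[simp] lemma dia_fst (a b : H →L[ℂ] H) (v : WithLp 2 (H × H)) : (dia a b v).fst = a v.fst := by
  simp [dia, il, ir]

omit [CompleteSpace H] in
@[simp] lemma dia_snd (a b : H →L[ℂ] H) (v : WithLp 2 (H × H)) : (dia a b v).snd = b v.snd := by
  simp [dia, il, ir]

omit [CompleteSpace H] in
@[simp] lemma ant_fst (a b : H →L[ℂ] H) (v : WithLp 2 (H × H)) : (ant a b v).fst = a v.snd := by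
  simp [ant, il, ir]

omit [CompleteSpace H] in
@[simp] lemma ant_snd (a b : H →L[ℂ] H) (v : WithLp 2 (H × H)) : (ant a b v).snd = b v.fst := by
  simp [ant, il, ir]

omit [CompleteSpace H] in
lemma norm_ant {a b : H →L[ℂ] H} {c : ℝ} (hc : 0 ≤ c) (ha : ‖a‖ ≤ c) (hb : ‖b‖ ≤ c) :
    ‖ant a b‖ ≤ c := by
  refine ContinuousLinearMap.opNorm_le_bound _ hc fun v => ?_
  refine le_of_sq_le_sq ?_ (by positivity) 
  rw [mul_pow, WithLp.prod_norm_sq_eq_of_L2, WithLp.prod_norm_sq_eq_of_L2, ant_fst, ant_snd]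
  have h1 : ‖a v.snd‖ ≤ c * ‖v.snd‖ := (a.le_opNorm _).trans (by gcongr)
  have h2 : ‖b v.fst‖ ≤ c * ‖v.fst‖ := (b.le_opNorm _).trans (by gcongr)
  nlinarith [pow_le_pow_left₀ (norm_nonneg _) h1 2, pow_le_pow_left₀ (norm_nonneg _) h2 2]

lemma star_dia (a b : H →L[ℂ] H) : star (dia a b) = dia (star a) (star b) := by
  symm
  rw [ContinuousLinearMap.star_eq_adjoint (dia a b), ContinuousLinearMap.eq_adjoint_iff]
  intro v w
  simp [WithLp.prod_inner_apply, ContinuousLinearMap.star_eq_adjoint,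
    ContinuousLinearMap.adjoint_inner_left]

lemma sa_flip : IsSelfAdjoint (ant (1 : H →L[ℂ] H) 1) := by
  rw [IsSelfAdjoint, ContinuousLinearMap.star_eq_adjoint, eq_comm,
    ContinuousLinearMap.eq_adjoint_iff]
  intro v w
  simp [WithLp.prod_inner_apply, add_comm]

variable {A : Type*} [CStarAlgebra A]

/-- Direct sum of two representations. -/
noncomputable def dsum (ρ₁ ρ₂ : A →⋆ₐ[ℂ] (H →L[ℂ] H)) :
    A →⋆ₐ[ℂ] (WithLp 2 (H × H) →L[ℂ] WithLp 2 (H × H)) where
  toFun x := dia (ρ₁ x) (ρ₂ x)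
  map_one' := by ext1 v; exact ext2 (by simp) (by simp)
  map_mul' x y := by ext1 v; exact ext2 (by simp) (by simp)
  map_zero' := by ext1 v; exact ext2 (by simp) (by simp)
  map_add' x y := by ext1 v; exact ext2 (by simp) (by simp)
  commutes' c := by
    ext1 v; exact ext2 (by simp [Algebra.algebraMap_eq_smul_one]) (by simp [Algebra.algebraMap_eq_smul_one])
  map_star' x := by rw [star_dia, map_star, map_star]

end U

open U in
/-- Two uniformly close representations of a C*-algebra are conjugate by a unitary near one. -/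
theorem exists_unitary {A : Type*} [CStarAlgebra A] (ρ₁ ρ₂ : A →⋆ₐ[ℂ] (H →L[ℂ] H)) {η : ℝ}
    (h0 : 0 ≤ η) (hη : η ≤ 1 / 72000) (h : ∀ x, ‖ρ₁ x - ρ₂ x‖ ≤ η * ‖x‖) :
    ∃ u ∈ unitary (H →L[ℂ] H), ‖u - 1‖ ≤ 30000 * η ∧ ∀ x, u * ρ₁ x * star u = ρ₂ x := by
  letI := CStarAlgebra.spectralOrder A
  haveI := CStarAlgebra.spectralOrderedRing A
  obtain ⟨t, -, ht1, ht2⟩ := dist_commutant (dsum ρ₁ ρ₂) (ant 1 1) sa_flip η h0 fun x => by
    have : ant 1 1 * dsum ρ₁ ρ₂ x - dsum ρ₁ ρ₂ x * ant 1 1 = ant (ρ₂ x - ρ₁ x) (ρ₁ x - ρ₂ x) := by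
      ext1 v; exact ext2 (by simp [dsum]) (by simp [dsum])
    rw [this]
    exact norm_ant (by positivity) (by rw [norm_sub_rev]; exact h x) (h x)
  let s : H →L[ℂ] H := WithLp.sndL 2 ℂ H H ∘L t ∘L il
  have hs : ∀ v, s v = (t (il v)).snd := fun v => rfl
  have il1 : ∀ v : H, (il v).fst = v := fun v => by simp [il]
  have il2 : ∀ v : H, (il v).snd = 0 := fun v => by simp [il]
  have s1 : ∀ x, s * ρ₁ x = ρ₂ x * s := fun x => by
    ext v
    have e : il (ρ₁ x v) = dsum ρ₁ ρ₂ x (il v) := ext2 (by simp [dsum, il1]) (by simp [dsum, il2])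
    rw [ContinuousLinearMap.mul_apply, ContinuousLinearMap.mul_apply, hs, hs, e,
      ← ContinuousLinearMap.mul_apply, ht1]
    simp [dsum]
  have s2 : ‖s - 1‖ ≤ 6000 * η := by
    refine ContinuousLinearMap.opNorm_le_bound _ (by positivity) fun v => ?_
    have e : (s - 1) v = -((ant (1 : H →L[ℂ] H) 1 - t : _ →L[ℂ] _) (il v)).snd := by
      simp [hs, il1]
    have e2 : ‖il v‖ = ‖v‖ := by
      have := WithLp.prod_norm_sq_eq_of_L2 (il v)
      rw [il1, il2, norm_zero] at this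
      exact (sq_eq_sq₀ (norm_nonneg _) (norm_nonneg _)).1 (by simpa using this)
    rw [e, norm_neg]
    refine (WithLp.norm_snd_le _ _).trans ((ContinuousLinearMap.le_opNorm _ _).trans ?_)
    rw [e2]; gcongr
  obtain ⟨b, b1, b2, b3⟩ := polar_near s2 (by linarith)
  have s3 : ∀ x, star s * ρ₂ x = ρ₁ x * star s := fun x => by
    have := congrArg star (s1 (star x))
    simpa only [star_mul, map_star, star_star] using this.symm
  refine ⟨s * b, b1, by linarith, fun x => ?_⟩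
  have c : Commute (star s * s) (ρ₁ x) := by
    rw [Commute, SemiconjBy, mul_assoc, s1, ← mul_assoc, s3, mul_assoc]
  rw [mul_assoc s, (b3 _ c).eq, ← mul_assoc, s1, mul_assoc, mul_assoc, ← mul_assoc s, b1.2, mul_one]

/-- Near inclusion passes to commutants. -/
theorem commutant_near {S S' : Set (H →L[ℂ] H)} {γ : ℝ} (h0 : 0 ≤ γ)
    (h : ∀ x ∈ vN S, ∃ y ∈ vN S', ‖x - y‖ ≤ γ * ‖x‖) :
    ∀ T ∈ vN (vN S' : Set (H →L[ℂ] H)), ∃ t ∈ vN (vN S : Set (H →L[ℂ] H)),
      ‖T - t‖ ≤ 24000 * γ * ‖T‖ := by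
  have key : ∀ T ∈ vN (vN S' : Set (H →L[ℂ] H)), IsSelfAdjoint T →
      ∃ t ∈ vN (vN S : Set (H →L[ℂ] H)), ‖T - t‖ ≤ 12000 * γ * ‖T‖ := by
    intro T hT hsa
    obtain ⟨t, -, ht1, ht2⟩ := dist_commutant (vN S).subtype T hsa (2 * γ * ‖T‖) (by positivity)
      fun x => by
        obtain ⟨y, hy, hxy⟩ := h x x.2
        have e : T * (vN S).subtype x - (vN S).subtype x * T = T * (x - y) - (x - y) * T := by
          simp [mul_sub, sub_mul, (mem_vN.1 hT y hy).1]
        rw [e]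
        refine (norm_sub_le _ _).trans ?_
        have h1 : ‖T * (x - y)‖ ≤ ‖T‖ * (γ * ‖x‖) := (norm_mul_le _ _).trans (by gcongr; exact hxy)
        have h2 : ‖(x - y) * T‖ ≤ (γ * ‖x‖) * ‖T‖ := (norm_mul_le _ _).trans (by gcongr; exact hxy)
        linarith
    exact ⟨t, mem_vN.2 fun g hg => ⟨(ht1 ⟨g, hg⟩).symm, (ht1 ⟨star g, star_mem hg⟩).symm⟩,
      by linarith⟩
  intro T hT
  obtain ⟨a, ha, ha2⟩ := key (T + star T) (add_mem hT (star_mem hT)) (IsSelfAdjoint.add_star_self T)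
  obtain ⟨b, hb, hb2⟩ := key (Complex.I • (T - star T)) (SMulMemClass.smul_mem _ (sub_mem hT (star_mem hT)))
    (by simp [IsSelfAdjoint, smul_sub]; abel)
  refine ⟨(1 / 2 : ℂ) • (a - Complex.I • b), SMulMemClass.smul_mem _ (sub_mem ha
    (SMulMemClass.smul_mem _ hb)), ?_⟩
  have e : T - (1 / 2 : ℂ) • (a - Complex.I • b) = (1 / 2 : ℂ) • ((T + star T - a) -
      Complex.I • (Complex.I • (T - star T) - b)) := by
    simp only [smul_sub, smul_add, smul_smul, Complex.I_mul_I]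
    module
  have n1 : ‖T + star T‖ ≤ 2 * ‖T‖ := by
    have := norm_add_le T (star T); rw [norm_star] at this; linarith
  have n2 : ‖Complex.I • (T - star T)‖ ≤ 2 * ‖T‖ := by
    have := norm_sub_le T (star T)
    rw [norm_star] at this
    rw [norm_smul, Complex.norm_I]; linarith
  have n3 := norm_sub_le (T + star T - a) (Complex.I • (Complex.I • (T - star T) - b))
  rw [norm_smul, Complex.norm_I] at n3
  rw [e, norm_smul]
  have n4 : ‖(1 / 2 : ℂ)‖ = 1 / 2 := by simp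
  rw [n4]
  nlinarith [mul_le_mul_of_nonneg_left n1 h0, mul_le_mul_of_nonneg_left n2 h0]

end Vale.Agent.P096
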