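import Vale.Agent.P096.N2
import Vale.Agent.P096.PartQ
import Vale.Agent.P096.PartU

/-! Close von Neumann algebras with a linear lifting are conjugate. -/

namespace Vale.Agent.P096

open Vale.Agent.P104 N

section abstract
variable {A B : Type*} [CStarAlgebra A] [CStarAlgebra B]

theorem N.surj (T : A →L[ℂ] B) (h1 : ∀ a, ‖a‖ ≤ 2 * ‖T a‖)
    (h2 : ∀ b, ∃ a, ‖b - T a‖ ≤ 1 / 3 * ‖b‖) : Function.Surjective T := by
  have hc : IsClosed (LinearMap.range (T : A →ₗ[ℂ] B) : Set B) :=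
    (T.antilipschitz_of_bound (K := 2) (by simpa using h1)).isClosed_range T.uniformContinuous
  by_contra hn
  obtain ⟨b, hb, h⟩ := riesz_lemma hc (by
    simpa [Function.Surjective] using hn) (r := 1 / 2) (by norm_num)
  obtain ⟨a, ha⟩ := h2 b
  have h3 := h (T a) ⟨a, rfl⟩
  have h4 : b = 0 := norm_le_zero_iff.1 (by linarith)
  exact hb (h4 ▸ zero_mem _)

theorem N.exists_hom (q1 : QV A 1) (q2 : QV A 2) (T : A →L[ℂ] B) {η : ℝ} (h0 : 0 ≤ η)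
    (hη : η ≤ 1 / 1000) (hs : ∀ a, T (star a) = star (T a)) (h1 : ∀ a, ‖a‖ ≤ 2 * ‖T a‖)
    (h2 : Function.Surjective T) (h3 : ∀ a b, ‖T a * T b - T (a * b)‖ ≤ η / 2 * ‖a‖ * ‖b‖) :
    ∃ θ : A →⋆ₐ[ℂ] B, Function.Surjective θ ∧
      ∀ a, ∃ a', ‖a' - a‖ ≤ 36 * η * ‖a‖ ∧ θ a = T a' := by
  choose R hR using h2
  have inj : ∀ {a b}, T a = T b → a = b := fun {a b} h => by
    have := h1 (a - b)
    rw [map_sub, h, sub_self, norm_zero, mul_zero, norm_le_zero_iff, sub_eq_zero] at this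
    exact this
  obtain ⟨L, l1, l2, l3⟩ := newton q1 q2 (m := fun a b => R (T a * T b))
    ⟨fun x y b => inj (by simp only [hR, map_add, add_mul]),
      fun c x b => inj (by simp only [hR, map_smul, smul_mul_assoc]),
      fun a x y => inj (by simp only [hR, map_add, mul_add]),
      fun c a x => inj (by simp only [hR, map_smul, mul_smul_comm])⟩
    (fun a b c => by simp only [hR, mul_assoc])
    (fun a b => inj (by simp only [hR, hs, star_mul])) h0 hη fun a b => by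
      refine (h1 _).trans ?_
      rw [map_sub, hR]
      linarith [h3 a b]
  obtain ⟨L', r1, -, -⟩ := exists_inv (L := L) (by linarith)
  have sj : ∀ b, ∃ a, T (L a) = b := fun b => ⟨L' (R b), by rw [r1, hR]⟩
  have mu : ∀ a b, T (L (a * b)) = T (L a) * T (L b) := fun a b => by rw [← l3, hR]
  have on : T (L 1) = 1 := by
    obtain ⟨a, ha⟩ := sj 1
    rw [← mul_one (T (L 1)), ← ha, ← mu, one_mul]
  refine ⟨{ toFun := fun a => T (L a)
            map_one' := on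
            map_mul' := mu
            map_zero' := by simp
            map_add' := fun a b => by simp
            commutes' := fun c => by simp [Algebra.algebraMap_eq_smul_one, on]
            map_star' := fun a => by rw [l2, hs] }, sj, fun a => ⟨L a, ?_, rfl⟩⟩
  exact ((L - 1).le_opNorm a).trans (by gcongr)

end abstract

variable {H : Type*} [NormedAddCommGroup H] [InnerProductSpace ℂ H] [CompleteSpace H]

theorem N.exists_sym {S S' : Set (H →L[ℂ] H)} {η : ℝ}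
    (T : vN S →ₗ[ℂ] (H →L[ℂ] H)) (hT : ∀ x, T x ∈ vN S') (h1 : ∀ x, ‖T x - x‖ ≤ η * ‖x‖) :
    ∃ T0 : vN S →ₗ[ℂ] vN S', (∀ a, T0 (star a) = star (T0 a)) ∧
      ∀ a, ‖(T0 a : H →L[ℂ] H) - a‖ ≤ η * ‖a‖ := by
  let T0 : vN S →ₗ[ℂ] vN S' :=
    { toFun := fun a => (2⁻¹ : ℂ) • (⟨T a, hT a⟩ + star ⟨T (star a), hT _⟩)
      map_add' := fun a b => Subtype.ext (by
        simp only [star_add, map_add, SetLike.val_smul, AddMemClass.coe_add, StarMemClass.coe_star,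
          smul_add]
        abel)
      map_smul' := fun c a => Subtype.ext (by
        simp only [star_smul, map_smul, star_star, RingHom.id_apply, SetLike.val_smul,
          AddMemClass.coe_add, StarMemClass.coe_star, ← smul_add]
        rw [smul_comm]) }
  have e0 : ∀ a, (T0 a : H →L[ℂ] H) = (2⁻¹ : ℂ) • (T a + star (T (star a))) := fun a => rfl
  refine ⟨T0, fun a => Subtype.ext ?_, fun a => ?_⟩
  · change (T0 (star a) : H →L[ℂ] H) = star (T0 a : H →L[ℂ] H)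
    simp [e0, add_comm]
  have a1 := h1 a
  have a2 := h1 (star a)
  rw [← norm_star, norm_star a] at a2
  have a3 := norm_add_le (T a - a) (star (T (star a) - (star a : vN S)))
  have e : (T0 a : H →L[ℂ] H) - a =
      (2⁻¹ : ℂ) • ((T a - a) + star (T (star a) - (star a : vN S))) := by
    rw [e0, star_sub, StarMemClass.coe_star, star_star]
    module
  rw [e, norm_smul, norm_inv, Complex.norm_two]
  linarith

theorem N.est {R : Type*} [NormedRing R] {η : ℝ} (h0 : 0 ≤ η) (h1 : η ≤ 1) {a b x y z : R}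
    (hx : ‖x - a‖ ≤ η * ‖a‖) (hy : ‖y - b‖ ≤ η * ‖b‖) (hz : ‖z - a * b‖ ≤ η * ‖a * b‖) :
    ‖x * y - z‖ ≤ 8 * η / 2 * ‖a‖ * ‖b‖ := by
  have e : x * y - z = (x - a) * (y - b) + (x - a) * b + a * (y - b) - (z - a * b) := by
    noncomm_ring
  have a0 : ‖(x - a) * (y - b)‖ ≤ η * ‖a‖ * (1 * ‖b‖) :=
    (norm_mul_le _ _).trans (mul_le_mul hx (hy.trans (by gcongr)) (norm_nonneg _) (by positivity))
  have a1 : ‖(x - a) * b‖ ≤ η * ‖a‖ * ‖b‖ := (norm_mul_le _ _).trans (by gcongr)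
  have a2 : ‖a * (y - b)‖ ≤ ‖a‖ * (η * ‖b‖) := (norm_mul_le _ _).trans (by gcongr)
  have a3 := hz.trans (mul_le_mul_of_nonneg_left (norm_mul_le a b) h0)
  have a4 := norm_add₃_le (a := (x - a) * (y - b)) (b := (x - a) * b) (c := a * (y - b))
  rw [e]
  refine (norm_sub_le _ _).trans ?_
  linarith

theorem N.est2 {R : Type*} [NormedRing R] {η : ℝ} (h0 : 0 ≤ η) (h1 : η ≤ 1 / 8000) {a b x : R}
    (hx : ‖x - b‖ ≤ η * ‖b‖) (hb : ‖b - a‖ ≤ 36 * (8 * η) * ‖a‖) :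
    ‖a - x‖ ≤ 300 * η * ‖a‖ := by
  have a2 := norm_sub_le_norm_sub_add_norm_sub x b a
  have a3 := norm_add_le (b - a) a
  rw [sub_add_cancel] at a3
  have a4 : 0 ≤ η * ‖a‖ := by positivity
  rw [norm_sub_rev]
  nlinarith

theorem N.est3 {R : Type*} [NormedRing R] {η : ℝ} (h1 : η ≤ 1 / 8000) {a b x : R}
    (hx : ‖x - a‖ ≤ η * ‖a‖) (hb : ‖b - a‖ ≤ η * ‖b‖) : ‖b - x‖ ≤ 1 / 3 * ‖b‖ := by
  have a2 := norm_sub_le_norm_sub_add_norm_sub b a x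
  have a3 := norm_sub_le b (b - a)
  rw [sub_sub_cancel] at a3
  rw [norm_sub_rev] at hx
  nlinarith [norm_nonneg b, norm_nonneg a]

theorem N.est4 {R : Type*} [NormedRing R] {η : ℝ} (h1 : η ≤ 1 / 8000) {a x : R}
    (hx : ‖x - a‖ ≤ η * ‖a‖) : ‖x‖ ≤ (1 + η) * ‖a‖ ∧ ‖a‖ ≤ 2 * ‖x‖ := by
  have a1 := norm_add_le (x - a) a
  have a2 := norm_sub_le x (x - a)
  rw [sub_add_cancel] at a1
  rw [sub_sub_cancel] at a2
  constructor <;> nlinarith [norm_nonneg a]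

theorem N.qv (S : Set (H →L[ℂ] H)) (k : ℕ) : QV (vN S) k := fun φ hφ => krQ_vN k φ hφ

theorem N.exists_iso {S S' : Set (H →L[ℂ] H)} {η : ℝ} (h0 : 0 ≤ η) (hη : η ≤ 1 / 8000)
    (T0 : vN S →ₗ[ℂ] vN S') (s0 : ∀ a, T0 (star a) = star (T0 a))
    (b0 : ∀ a, ‖(T0 a : H →L[ℂ] H) - a‖ ≤ η * ‖(a : H →L[ℂ] H)‖)
    (h2 : ∀ y ∈ vN S', ∃ x ∈ vN S, ‖y - x‖ ≤ η * ‖y‖) :
    ∃ θ : vN S →⋆ₐ[ℂ] vN S', Function.Surjective θ ∧
      ∀ a : vN S, ‖(a : H →L[ℂ] H) - θ a‖ ≤ 300 * η * ‖a‖ := by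
  have b1 : ∀ a, ‖T0 a‖ ≤ (1 + η) * ‖a‖ := fun a => (est4 hη (b0 a)).1
  obtain ⟨T, hT⟩ : ∃ T : vN S →L[ℂ] vN S', ∀ a, T a = T0 a := ⟨T0.mkContinuous _ b1, fun _ => rfl⟩
  simp only [← hT] at s0 b0
  have b2 : ∀ a, ‖a‖ ≤ 2 * ‖T a‖ := fun a => (est4 hη (b0 a)).2
  have b3 : ∀ b, ∃ a, ‖b - T a‖ ≤ 1 / 3 * ‖b‖ := fun b => by
    obtain ⟨x, hx, h⟩ := h2 b b.2
    have := est3 hη (b0 ⟨x, hx⟩) h
    rw [← AddSubgroupClass.coe_sub] at this
    exact ⟨⟨x, hx⟩, this⟩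
  have b4 : ∀ a b, ‖T a * T b - T (a * b)‖ ≤ 8 * η / 2 * ‖a‖ * ‖b‖ := fun a b => by
    have h3 := b0 (a * b)
    rw [MulMemClass.coe_mul] at h3
    have := est h0 (by linarith) (b0 a) (b0 b) h3
    rw [← MulMemClass.coe_mul, ← AddSubgroupClass.coe_sub] at this
    exact this
  obtain ⟨θ, sj, hθ⟩ := exists_hom (qv S 1) (qv S 2) T (η := 8 * η) (by positivity) (by linarith)
    s0 b2 (surj T b2 b3) b4
  refine ⟨θ, sj, fun a => ?_⟩
  obtain ⟨a', c1, c2⟩ := hθ a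
  rw [c2]
  exact est2 h0 hη (b0 a') c1

theorem conj_of_lift {S S' : Set (H →L[ℂ] H)} {η : ℝ} (h0 : 0 ≤ η) (hη : η ≤ 1 / 10 ^ 8)
    (T : vN S →ₗ[ℂ] (H →L[ℂ] H)) (hT : ∀ x, T x ∈ vN S') (h1 : ∀ x, ‖T x - x‖ ≤ η * ‖x‖)
    (h2 : ∀ y ∈ vN S', ∃ x ∈ vN S, ‖y - x‖ ≤ η * ‖y‖) :
    ∃ u ∈ unitary (H →L[ℂ] H), ‖u - 1‖ ≤ 10 ^ 7 * η ∧ (∀ x ∈ vN S, u * x * star u ∈ vN S') ∧
      ∀ y ∈ vN S', star u * y * u ∈ vN S := by
  obtain ⟨T0, s0, b0⟩ := exists_sym T hT h1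
  obtain ⟨θ, sj, hθ⟩ := exists_iso h0 (hη.trans (by norm_num)) T0 s0 b0 h2
  obtain ⟨u, hu, n1, n2⟩ := exists_unitary (vN S).subtype ((vN S').subtype.comp θ)
    (η := 300 * η) (by positivity) (by norm_num at hη ⊢; linarith) hθ
  refine ⟨u, hu, n1.trans (by linarith), fun x hx => ?_, fun y hy => ?_⟩
  · exact (n2 ⟨x, hx⟩ : u * x * star u = θ ⟨x, hx⟩) ▸ (θ ⟨x, hx⟩).2
  · obtain ⟨a, ha⟩ := sj ⟨y, hy⟩
    have e : y = u * a * star u := (congrArg Subtype.val ha).symm.trans (n2 a).symm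
    rw [e, ← mul_assoc, ← mul_assoc, hu.1, one_mul, mul_assoc, hu.1, mul_one]
    exact a.2

end Vale.Agent.P096
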