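import Vale.Agent.P096.DefsL
import Vale.Agent.P082.PartT
import Vale.Agent.P104.E3

/-! Stubs for the semifinite lifting (not for hand-in). -/

namespace Vale.Agent.P096.Stub

open scoped InnerProductSpace ComplexOrder
open Vale.Agent.P104 Vale.Agent.P082

variable {H : Type*} [NormedAddCommGroup H] [InnerProductSpace ℂ H] [CompleteSpace H]
variable {S S' : Set (H →L[ℂ] H)}

/-- Part LB (helper9): relation preserving selection on the unitary group. -/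
theorem sel_lift {p : H →L[ℂ] H} (hp : IsCentral S' p) {ι : Type} [Fintype ι] (α : ι → H)
    (hK : ∀ d ∈ vN S', ∀ b ∈ vN S',
      ∑ i, ‖(d * b) (α i)‖ ^ 2 ≤ 4 * ‖b‖ ^ 2 * ∑ i, ‖d (α i)‖ ^ 2)
    (hf : ∀ d ∈ vN S', (∀ i, d (α i) = 0) → d * p = 0)
    {γ : ℝ} (h0 : 0 ≤ γ) (hγ : γ ≤ 1 / 10 ^ 8) (h : NearIn S S' γ) :
    ∃ s : unitary (vN S) → H →L[ℂ] H, (∀ U, s U ∈ vN S') ∧
      (∀ U, ‖s U - ((U : vN S) : H →L[ℂ] H) * p‖ ≤ 1000 * γ) ∧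
      ∀ c : unitary (vN S) →₀ ℂ, (c.sum fun U a => a • ((U : vN S) : H →L[ℂ] H)) = 0 →
        (c.sum fun U a => a • s U) = 0 := sorry

/-- Part LC: from a selection to a linear map. -/
theorem lin_of_sel {p : H →L[ℂ] H} {κ : ℝ} (s : unitary (vN S) → H →L[ℂ] H)
    (h1 : ∀ U, s U ∈ vN S') (h2 : ∀ U, ‖s U - ((U : vN S) : H →L[ℂ] H) * p‖ ≤ κ)
    (h3 : ∀ c : unitary (vN S) →₀ ℂ, (c.sum fun U a => a • ((U : vN S) : H →L[ℂ] H)) = 0 →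
        (c.sum fun U a => a • s U) = 0) :
    ∃ T : vN S →ₗ[ℂ] (H →L[ℂ] H), (∀ x, T x ∈ vN S') ∧
      ∀ x, ‖T x - (x : H →L[ℂ] H) * p‖ ≤ 2 * κ * ‖x‖ := sorry

/-- Part LD1: close projection. -/
theorem near_proj {γ : ℝ} (h0 : 0 ≤ γ) (hγ : γ ≤ 1 / 100) (h : NearIn S' S γ) {p : H →L[ℂ] H}
    (hp : p ∈ vN S') (pp : IsStarProjection p) :
    ∃ p' ∈ vN S, IsStarProjection p' ∧ ‖p' - p‖ ≤ 9 * γ := sorry

/-- Part LD2 (uses LB, LC, LD1): lifting on a good corner. -/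
theorem lift_corner {γ : ℝ} (h0 : 0 ≤ γ) (hγ : γ ≤ 1 / 10 ^ 10) (h : NearIn S S' γ)
    (h' : NearIn S' S γ) {p : H →L[ℂ] H} (hp : GoodP S' p) :
    ∃ T : vN S →ₗ[ℂ] (H →L[ℂ] H), (∀ x, T x ∈ vN S') ∧
      ∀ x, ‖T x - p * (x : H →L[ℂ] H) * p‖ ≤ 10 ^ 6 * γ * ‖x‖ := sorry

/-- Part LE: weak limit along corners increasing to one. -/
theorem lift_limit {η : ℝ} (h0 : 0 ≤ η)
    (h : ∀ (F : Finset H) (ε : ℝ), 0 < ε → ∃ p : H →L[ℂ] H, IsStarProjection p ∧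
      (∀ ζ ∈ F, ‖p ζ - ζ‖ ≤ ε) ∧ ∃ T : vN S →ₗ[ℂ] (H →L[ℂ] H), (∀ x, T x ∈ vN S') ∧
        ∀ x, ‖T x - p * (x : H →L[ℂ] H) * p‖ ≤ η * ‖x‖) :
    ∃ T : vN S →ₗ[ℂ] (H →L[ℂ] H), (∀ x, T x ∈ vN S') ∧
      ∀ x, ‖T x - (x : H →L[ℂ] H)‖ ≤ η * ‖x‖ := sorry

/-- Part LF1a: two vector version of `T.exists_corner`. -/
theorem corner2 {z : H →L[ℂ] H} (hz : IsCentral S z) (h2 : FinU S z) {q : H →L[ℂ] H}
    (hq : q ∈ vN S) (pq : IsStarProjection q) (hqz : q * z = q) {α β : H}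
    (hab : ‖q α‖ ^ 2 < ‖q β‖ ^ 2) :
    ∃ u ∈ vN S, u ≠ 0 ∧ u * star u * u = u ∧ u * q = u ∧ q * u = u ∧
      ∀ v ∈ vN S, v * star v * v = v → v * (star u * u) = v → star u * u * v = v →
        ‖v α‖ ^ 2 ≤ ‖star v (star u β)‖ ^ 2 := sorry

/-- Part LF1b (uses LF1a twice): Kadison's local approximate trace. -/
theorem good_of_fin {q : H →L[ℂ] H} (hq : q ∈ vN S) (pq : IsStarProjection q) (h0 : q ≠ 0)
    (hf : FinP S q) : ∃ g, GoodP S g ∧ g ≠ 0 ∧ g * q = g := sorry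

/-- Part LF2a: amplification. -/
theorem good_amp {g p : H →L[ℂ] H} (hg : GoodP S g) (pp : IsStarProjection p) {k : ℕ}
    (w : Fin k → H →L[ℂ] H) (hw : ∀ l, w l ∈ vN S ∧ w l * g = w l)
    (hs : ∑ l, w l * star (w l) = p) : GoodP S p := sorry

/-- Part LF2b: Gram-Schmidt with polar decompositions. -/
theorem exists_amp {g : H →L[ℂ] H} (hg : g ∈ vN S) (pg : IsStarProjection g)
    (Y : Finset (H →L[ℂ] H))
    (hY : ∀ y ∈ Y, y ∈ vN S) : ∃ (k : ℕ) (w : Fin k → H →L[ℂ] H),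
      (∀ l, w l ∈ vN S ∧ w l * g = w l) ∧ IsStarProjection (∑ l, w l * star (w l)) ∧
      ∀ y ∈ Y, (∑ l, w l * star (w l)) * (y * g) = y * g := sorry

/-- Part LF2c: central gluing. -/
theorem good_glue {g g' c : H →L[ℂ] H} (hg : GoodP S g) (hg' : GoodP S g') (hc : IsCentral S c) :
    GoodP S (g * c + g' * (1 - c)) := sorry

/-- Part LF3 (uses LF1b, LF2abc): good projections approximate the identity. -/
theorem good_dense (hS : SF S) (F : Finset H) {ε : ℝ} (hε : 0 < ε) :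
    ∃ p, GoodP S p ∧ ∀ ζ ∈ F, ‖p ζ - ζ‖ ≤ ε := sorry

/-- Final lifting theorem. -/
theorem lift_sf (hS : SF S') {γ : ℝ} (h0 : 0 ≤ γ) (hγ : γ ≤ 1 / 10 ^ 10) (h : NearIn S S' γ)
    (h' : NearIn S' S γ) : ∃ T : vN S →ₗ[ℂ] (H →L[ℂ] H), (∀ x, T x ∈ vN S') ∧
      ∀ x, ‖T x - (x : H →L[ℂ] H)‖ ≤ 10 ^ 6 * γ * ‖x‖ :=
  lift_limit (by positivity) fun F _ hε =>
    let ⟨p, hp, h1⟩ := good_dense hS F hε
    ⟨p, hp.2.1, h1, lift_corner h0 hγ h h' hp⟩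

end Vale.Agent.P096.Stub
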